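import Vale.Agent.P032.H314.EvT
import Vale.Agent.P032.H437.Ev2.Main
import Vale.Agent.P032.H437.Ev3.Main

/-!
# P032: the excluded events at a windowed centre

`kill2`, `kill3` : no event of the lists `Ev2.evs`, `Ev3.evs`, renamed and turned, occurs at a centre
of six colours with windows which contain honest directions (`_hd` : both ends honest, `_dr` : both
ends in the closure of the set of directions).
-/

open Set Filter Topology Metric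

noncomputable section

namespace Vale.Agent.P032.H437

open Vale.Agent.P032.Six Vale.Agent.P032.Sweep Vale.Agent.P032.S5.H767 Vale.Agent.P032.S5.H122
  Vale.Agent.P032.H158 Vale.Agent.P032.H429 Vale.Agent.P032.H266 Vale.Agent.P032.H314

theorem oke_ev2 : allc oke Ev2.evs = true := by decide +kernel

theorem oke_ev3 : allc oke Ev3.evs = true := by decide +kernel

variable {U : Fin 6 → Set ℂ} {T : ℂ → Set (Fin 6)} {z : ℂ} {L R : Fin 6 → ℝ}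

theorem hon_hd (hle : ∀ i, L i ≤ R i) (hD : ∀ i, L i ∈ H266.HD U z i ∧ R i ∈ H266.HD U z i)
    (i : Fin 6) : H266.Hon U z L R i :=
  ⟨L i, (hD i).1, 0, by simp, by simpa using hle i⟩

/-- **no event of `Ev2.evs`** -/
theorem kill2 (h : Irr U T)
    (hmin : ∀ z, 4 ≤ (T z).ncard → ∀ s, s ⊆ T z → s ≠ T z →
      ¬ ∀ᶠ w in 𝓝 z, ∃ i ∈ s, w ∈ U i ∨ (w ∈ XX U ∧ i ∈ Pal U w))
    (h6 : ∀ i, i ∈ T z) (w : WinData T z L R) (hH : ∀ i, H266.Hon U z L R i) :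
    ∀ u, ∀ s ∈ LS T z L R u, ∀ s' ∈ RS T z L R u, ¬ KldE Ev2.evs s.1 s'.1 :=
  kill_evs Ev2.certs oke_ev2 h hmin h6 w hH

theorem kill2_hd (h : Irr U T)
    (hmin : ∀ z, 4 ≤ (T z).ncard → ∀ s, s ⊆ T z → s ≠ T z →
      ¬ ∀ᶠ w in 𝓝 z, ∃ i ∈ s, w ∈ U i ∨ (w ∈ XX U ∧ i ∈ Pal U w))
    (h6 : ∀ i, i ∈ T z) (w : WinData T z L R)
    (hD : ∀ i, L i ∈ H266.HD U z i ∧ R i ∈ H266.HD U z i) :
    ∀ u, ∀ s ∈ LS T z L R u, ∀ s' ∈ RS T z L R u, ¬ KldE Ev2.evs s.1 s'.1 :=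
  kill2 h hmin h6 w (hon_hd w.le hD)

theorem kill2_dr (h : Irr U T)
    (hmin : ∀ z, 4 ≤ (T z).ncard → ∀ s, s ⊆ T z → s ≠ T z →
      ¬ ∀ᶠ w in 𝓝 z, ∃ i ∈ s, w ∈ U i ∨ (w ∈ XX U ∧ i ∈ Pal U w))
    (h6 : ∀ i, i ∈ T z) (w : WinData T z L R)
    (hD : ∀ i, L i ∈ closure (Dr U z i) ∧ R i ∈ closure (Dr U z i)) :
    ∀ u, ∀ s ∈ LS T z L R u, ∀ s' ∈ RS T z L R u, ¬ KldE Ev2.evs s.1 s'.1 :=
  kill2_hd h hmin h6 w fun i => ⟨HD_of_Dr h.mx (hD i).1, HD_of_Dr h.mx (hD i).2⟩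

/-- **no event of `Ev3.evs`** -/
theorem kill3 (h : Irr U T)
    (hmin : ∀ z, 4 ≤ (T z).ncard → ∀ s, s ⊆ T z → s ≠ T z →
      ¬ ∀ᶠ w in 𝓝 z, ∃ i ∈ s, w ∈ U i ∨ (w ∈ XX U ∧ i ∈ Pal U w))
    (h6 : ∀ i, i ∈ T z) (w : WinData T z L R) (hH : ∀ i, H266.Hon U z L R i) :
    ∀ u, ∀ s ∈ LS T z L R u, ∀ s' ∈ RS T z L R u, ¬ KldE Ev3.evs s.1 s'.1 :=
  kill_evs Ev3.certs oke_ev3 h hmin h6 w hH

theorem kill3_hd (h : Irr U T)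
    (hmin : ∀ z, 4 ≤ (T z).ncard → ∀ s, s ⊆ T z → s ≠ T z →
      ¬ ∀ᶠ w in 𝓝 z, ∃ i ∈ s, w ∈ U i ∨ (w ∈ XX U ∧ i ∈ Pal U w))
    (h6 : ∀ i, i ∈ T z) (w : WinData T z L R)
    (hD : ∀ i, L i ∈ H266.HD U z i ∧ R i ∈ H266.HD U z i) :
    ∀ u, ∀ s ∈ LS T z L R u, ∀ s' ∈ RS T z L R u, ¬ KldE Ev3.evs s.1 s'.1 :=
  kill3 h hmin h6 w (hon_hd w.le hD)

end Vale.Agent.P032.H437
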