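import Vale.Agent.P032.H437.SatG

/-!
# P032: the kills in terms of columns (two times)

`Kill A p q c S` : the columns `p` before, `q` after the first time and `c` before the second time,
none of the columns of `S` after it: impossible.  `kill_of_goals` : from the learned clauses.
-/

namespace Vale.Agent.P032.H437

open Vale.Agent.P032.H859.Rup

/-- the packed list of literals -/
noncomputable def unp (n P : ℕ) : List ℕ :=
  Nat.rec (motive := fun _ => ℕ → List ℕ) (fun _ => [])
    (fun _ ih P => Nat.land P 65535 :: ih (Nat.shiftRight P 16)) n P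

theorem decr_unp {ν : ℕ → Prop} : ∀ (n P a : ℕ), Sat ν (decr n P a) →
    (∃ l, a.testBit l = true ∧ Lit ν l) ∨ ∃ l ∈ unp n P, Lit ν l := by
  intro n
  induction n with
  | zero => intro P a h; exact Or.inl h
  | succ n ih =>
    intro P a h
    rcases ih (Nat.shiftRight P 16) (Nat.lor a (Nat.shiftLeft 1 (Nat.land P 65535))) h with
      ⟨l, hl, h2⟩ | ⟨l, hl, h2⟩
    · have h3 : (a ||| (1 <<< Nat.land P 65535)).testBit l = true := hl
      rw [Nat.testBit_or, Nat.one_shiftLeft, Nat.testBit_two_pow] at h3
      rcases Bool.or_eq_true_iff.1 h3 with h4 | h4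
      · exact Or.inl ⟨l, h4, h2⟩
      · have h5 : Nat.land P 65535 = l := of_decide_eq_true h4
        right
        refine ⟨Nat.land P 65535, List.mem_cons_self, ?_⟩
        rw [h5]
        exact h2
    · exact Or.inr ⟨l, List.mem_cons_of_mem _ hl, h2⟩

theorem sat_unp {ν : ℕ → Prop} {c : ℕ} (h : Sat ν (dec c)) :
    ∃ l ∈ unp (Nat.land c 255) (Nat.shiftRight c 8), Lit ν l := by
  rw [dec_eq] at h
  rcases decr_unp _ _ _ h with ⟨l, hl, -⟩ | h
  · rw [Nat.zero_testBit] at hl; cases hl
  · exact h

/-- a certificate: the number of the learned clause, the clause, the column of the closed set -/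
inductive Gc where
  | mk : ℕ → ℕ → ℕ → Gc

/-- an event: kind (`0` : forward, `1` : backward), the columns before and after, the closed set with
the certificates -/
inductive Ev where
  | mk : ℕ → ℕ → ℕ → List Gc → Ev

/-- the column of a certificate -/
noncomputable def Gc.c (g : Gc) : ℕ := Gc.rec (motive := fun _ => ℕ) (fun _ _ c => c) g

/-- the atom is one of the columns -/
noncomputable def anyc (a : Am) (e s : ℕ) (L : List Gc) : Bool :=
  List.rec (motive := fun _ => Bool) false
    (fun g _ ih => Bool.rec (motive := fun _ => Bool) ih true (eqb a (aHC e s g.c))) L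

/-- the literal is allowed: one of the negated atoms `a1, a2, a3`, or a column of the closed set -/
noncomputable def litc (D : ℕ → Am) (a1 a2 a3 : Am) (e s : ℕ) (L : List Gc) (l : ℕ) : Bool :=
  Bool.rec (motive := fun _ => Bool)
    (Bool.rec (motive := fun _ => Bool) (Bool.rec (motive := fun _ => Bool)
      (eqb (D (Nat.shiftRight l 1)) a3) true (eqb (D (Nat.shiftRight l 1)) a2))
      true (eqb (D (Nat.shiftRight l 1)) a1))
    (anyc (D (Nat.shiftRight l 1)) e s L) (Nat.beq (Nat.land l 1) 0)

/-- all members of a list -/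
noncomputable def allc {α : Type} (g : α → Bool) (L : List α) : Bool :=
  List.rec (motive := fun _ => Bool) true
    (fun l _ ih => Bool.rec (motive := fun _ => Bool) false ih (g l)) L

/-- the test of a certificate -/
noncomputable def gchk (D : ℕ → Am) (B : Tr) (a1 a2 : Am) (e' s' e s : ℕ) (L : List Gc)
    (g : Gc) : Bool :=
  Gc.rec (motive := fun _ => Bool) (fun j c0 c =>
    Bool.rec (motive := fun _ => Bool) false
      (allc (litc D a1 a2 (aHC e' s' c) e s L) (unp (Nat.land c0 255) (Nat.shiftRight c0 8)))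
      (Nat.beq (getC B j) (dec c0))) g

/-- the test of an event -/
noncomputable def echk (D : ℕ → Am) (B : Tr) (v : Ev) : Bool :=
  Ev.rec (motive := fun _ => Bool) (fun k p q L =>
    Bool.rec (motive := fun _ => Bool)
      (allc (gchk D B (aHC 6 0 p) (aHC 6 1 q) 0 1 0 0 L) L)
      (allc (gchk D B (aHC 0 0 p) (aHC 0 1 q) 6 0 6 1 L) L) (Nat.beq k 0)) v

/-- **the statement of an event**: forward: the event at the first time, a column of the closed set
before the second time, none of them after it; backward: the event at the second time, a column of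
the closed set after the first time, none of them before it -/
def Ev.cert (A : AtK 2) : Ev → Prop
  | .mk k p q L => bif Nat.beq k 0 then
      (Hcol A 0 false p → Hcol A 0 true q → ∀ g ∈ L, Hcol A 6 false g.c →
        (∀ g' ∈ L, ¬ Hcol A 6 true g'.c) → False)
    else
      (Hcol A 6 false p → Hcol A 6 true q → ∀ g ∈ L, Hcol A 0 true g.c →
        (∀ g' ∈ L, ¬ Hcol A 0 false g'.c) → False)

theorem anyc_spec {a : Am} {e s : ℕ} {L : List Gc} (h : anyc a e s L = true) :
    ∃ g ∈ L, a = aHC e s g.c := by
  induction L with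
  | nil => cases h
  | cons d L ih =>
    cases hd : eqb a (aHC e s d.c) with
    | true => exact ⟨d, List.mem_cons_self, eqb_eq hd⟩
    | false =>
      have h1 : Bool.rec (motive := fun _ => Bool) (anyc a e s L) true
        (eqb a (aHC e s d.c)) = true := h
      rw [hd] at h1
      obtain ⟨d', h2, h3⟩ := ih h1
      exact ⟨d', List.mem_cons_of_mem _ h2, h3⟩

theorem allc_spec {α : Type} {g : α → Bool} {L : List α} (h : allc g L = true) :
    ∀ l ∈ L, g l = true := by
  induction L with
  | nil => intro l hl; cases hl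
  | cons a L ih =>
    have h1 := band (a := g a) h
    intro l hl
    rcases List.mem_cons.1 hl with rfl | hl
    · exact h1.1
    · exact ih h1.2 l hl

theorem bor {a b : Bool} (h : Bool.rec (motive := fun _ => Bool) b true a = true) :
    a = true ∨ b = true := by
  cases a
  · exact Or.inr h
  · exact Or.inl rfl

section
variable {ν : Am → Prop}

theorem litc_false {D : ℕ → Am} {a1 a2 a3 : Am} {e s : ℕ} {L : List Gc} {l : ℕ}
    (h : litc D a1 a2 a3 e s L l = true)
    (hl : Lit (fun v => ν (D v)) l) (h1 : ν a1) (h2 : ν a2)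
    (h3 : ν a3) (hS : ∀ g ∈ L, ¬ ν (aHC e s g.c)) : False := by
  unfold litc at h
  unfold Lit at hl
  have e : Nat.shiftRight l 1 = l / 2 := shr1 l
  rw [e, land1] at h
  by_cases h4 : l % 2 = 0
  · rw [if_pos h4] at hl
    have hl : ν (D (l / 2)) := hl
    rw [h4] at h
    obtain ⟨d, hd, h5⟩ := anyc_spec (a := D (l / 2)) h
    rw [h5] at hl
    exact hS d hd hl
  · have h5 : l % 2 = 1 := by omega
    rw [if_neg h4] at hl
    have hl : ¬ ν (D (l / 2)) := hl
    rw [h5] at h
    rcases bor (a := eqb (D (l / 2)) a1) h with h6 | h6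
    · rw [eqb_eq h6] at hl
      exact hl h1
    · rcases bor (a := eqb (D (l / 2)) a2) h6 with h7 | h7
      · rw [eqb_eq h7] at hl
        exact hl h2
      · rw [eqb_eq h7] at hl
        exact hl h3

theorem gchk_false {D : ℕ → Am} {B : Tr} (hB : ∀ j, Sat (fun v => ν (D v)) (getC B j))
    {a1 a2 : Am} {e' s' e s : ℕ} {L : List Gc} {g : Gc}
    (h : gchk D B a1 a2 e' s' e s L g = true) (h1 : ν a1) (h2 : ν a2) (h3 : ν (aHC e' s' g.c))
    (hS : ∀ g ∈ L, ¬ ν (aHC e s g.c)) : False := by
  obtain ⟨j, c0, c⟩ := g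
  have h4 := band (a := Nat.beq (getC B j) (dec c0)) h
  have h5 := hB j
  rw [Nat.eq_of_beq_eq_true h4.1] at h5
  obtain ⟨l, hl, h6⟩ := sat_unp h5
  exact litc_false (allc_spec h4.2 l hl) h6 h1 h2 h3 hS

end

/-- **from the learned clauses to the events** -/
theorem cert_of_echk {G : Geo 2} {A : AtK 2} {D : ℕ → Am} {B : Tr}
    (hB : ∀ j, Sat (fun v => nu G A (D v)) (getC B j)) {L : List Ev}
    (h : allc (echk D B) L = true) : ∀ v ∈ L, v.cert A := by
  intro v hv
  have h1 := allc_spec h v hv
  obtain ⟨k, p, q, M⟩ := v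
  cases hk : Nat.beq k 0 with
  | true =>
    simp only [Ev.cert, hk, cond_true]
    have h2 : (Bool.rec (motive := fun _ => Bool)
      (allc (gchk D B (aHC 6 0 p) (aHC 6 1 q) 0 1 0 0 M) M)
      (allc (gchk D B (aHC 0 0 p) (aHC 0 1 q) 6 0 6 1 M) M) (Nat.beq k 0)) = true := h1
    rw [hk] at h2
    intro hp hq g hg hc hS
    exact gchk_false hB (allc_spec h2 g hg) hp hq hc hS
  | false =>
    simp only [Ev.cert, hk, cond_false]
    have h2 : (Bool.rec (motive := fun _ => Bool)
      (allc (gchk D B (aHC 6 0 p) (aHC 6 1 q) 0 1 0 0 M) M)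
      (allc (gchk D B (aHC 0 0 p) (aHC 0 1 q) 6 0 6 1 M) M) (Nat.beq k 0)) = true := h1
    rw [hk] at h2
    intro hp hq g hg hc hS
    exact gchk_false hB (allc_spec h2 g hg) hp hq hc hS

end Vale.Agent.P032.H437
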