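import Vale.Agent.P032.H437.Uf
import Vale.Agent.P032.H158.Rel

/-!
# P032: the frame of the joint limit letters on the lattice

`exists_generic` : an ultrafilter of times before (after) `u` which contains a given set (frequently
in its interior) and every dense open set.
`Fr U T z u F` : `F false`, `F true` are ultrafilters of times before and after `u`; every slot of
every centre has constant palette almost everywhere.
`lp z u m n` : the lattice points; `lp_step` : the slots of a lattice point are lattice points.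
`TT`, `LT`, `IN`, `OUT`, `PC` : the atoms; `memb`, `sixty`, `product`, `sweep` : the rules.
-/

open Set Filter Topology Metric

noncomputable section

namespace Vale.Agent.P032.H437

open Vale.Agent.P032.Six Vale.Agent.P032.Sweep Vale.Agent.P032.S5.H767 Vale.Agent.P032.S5.H122
  Vale.Agent.P032.H158 Vale.Agent.P032.H782 Vale.Agent.P032.H429

/-! ### Generic ultrafilters -/

/-- the filter of the sets which contain a dense open set -/
def gen : Filter ℝ where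
  sets := {S | ∃ O, O ⊆ S ∧ IsOpen O ∧ Dense O}
  univ_sets := ⟨univ, Subset.rfl, isOpen_univ, dense_univ⟩
  sets_of_superset := fun ⟨O, h1, h2, h3⟩ h => ⟨O, h1.trans h, h2, h3⟩
  inter_sets := fun ⟨O, h1, h2, h3⟩ ⟨O', h1', h2', h3'⟩ =>
    ⟨O ∩ O', inter_subset_inter h1 h1', h2.inter h2', h3.inter_of_isOpen_left h3' h2⟩

theorem mem_gen {S : Set ℝ} (ho : IsOpen S) (hd : Dense S) : S ∈ gen := ⟨S, Subset.rfl, ho, hd⟩

theorem exists_generic {l : Filter ℝ} {A : Set ℝ}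
    (hl : ∀ N ∈ l, ∃ O, IsOpen O ∧ O.Nonempty ∧ O ⊆ N ∩ A) :
    ∃ F : Ultrafilter ℝ, (F : Filter ℝ) ≤ l ∧ A ∈ F ∧ ∀ S : Set ℝ, IsOpen S → Dense S → S ∈ F := by
  have hne : (l ⊓ 𝓟 A ⊓ gen).NeBot := by
    rw [Filter.inf_neBot_iff]
    intro N hN S hS
    rw [mem_inf_principal] at hN
    obtain ⟨O, hO, ⟨v, hv⟩, hON⟩ := hl _ hN
    obtain ⟨O', h1, h2, h3⟩ := hS
    obtain ⟨v', h4, h5⟩ := h3.inter_open_nonempty O hO ⟨v, hv⟩
    have h6 := hON h4
    exact ⟨v', h6.1 h6.2, h1 h5⟩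
  refine ⟨Ultrafilter.of (l ⊓ 𝓟 A ⊓ gen), ?_, ?_, fun S h1 h2 => ?_⟩
  · exact (Ultrafilter.of_le _).trans (inf_le_left.trans inf_le_left)
  · exact (Ultrafilter.of_le (l ⊓ 𝓟 A ⊓ gen)) (inf_le_left (b := gen) (mem_inf_of_right
      (mem_principal_self A)))
  · exact (Ultrafilter.of_le (l ⊓ 𝓟 A ⊓ gen)) (inf_le_right (a := l ⊓ 𝓟 A) (mem_gen h1 h2))

theorem exists_gen_left {u : ℝ} {A : Set ℝ} (hA : ∃ᶠ v in 𝓝[<] u, ∀ᶠ v' in 𝓝 v, v' ∈ A) :
    ∃ F : Ultrafilter ℝ, (F : Filter ℝ) ≤ 𝓝[<] u ∧ A ∈ F ∧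
      ∀ S : Set ℝ, IsOpen S → Dense S → S ∈ F := by
  refine exists_generic fun N hN => ?_
  obtain ⟨a, ha, haN⟩ := mem_nhdsLT_iff_exists_Ioo_subset.1 hN
  obtain ⟨v, h1, h2⟩ := (hA.and_eventually (Ioo_mem_nhdsLT ha)).exists
  obtain ⟨O, hO1, hO2, hO3⟩ := _root_.mem_nhds_iff.1 h1
  refine ⟨O ∩ Ioo a u, hO2.inter isOpen_Ioo, ⟨v, hO3, h2⟩, fun v' hv' => ⟨haN hv'.2, hO1 hv'.1⟩⟩

theorem exists_gen_right {u : ℝ} {A : Set ℝ} (hA : ∃ᶠ v in 𝓝[>] u, ∀ᶠ v' in 𝓝 v, v' ∈ A) :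
    ∃ F : Ultrafilter ℝ, (F : Filter ℝ) ≤ 𝓝[>] u ∧ A ∈ F ∧
      ∀ S : Set ℝ, IsOpen S → Dense S → S ∈ F := by
  refine exists_generic fun N hN => ?_
  obtain ⟨a, ha, haN⟩ := mem_nhdsGT_iff_exists_Ioo_subset.1 hN
  obtain ⟨v, h1, h2⟩ := (hA.and_eventually (Ioo_mem_nhdsGT ha)).exists
  obtain ⟨O, hO1, hO2, hO3⟩ := _root_.mem_nhds_iff.1 h1
  refine ⟨O ∩ Ioo u a, hO2.inter isOpen_Ioo, ⟨v, hO3, h2⟩, fun v' hv' => ⟨haN hv'.2, hO1 hv'.1⟩⟩

/-! ### The frame -/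

/-- **The frame** : ultrafilters of times before and after `u` -/
structure Fr (U : Fin 6 → Set ℂ) (T : ℂ → Set (Fin 6)) (u : ℝ) (F : Bool → Ultrafilter ℝ) :
    Prop where
  irr : Irr U T
  left : (F false : Filter ℝ) ≤ 𝓝[<] u
  right : (F true : Filter ℝ) ≤ 𝓝[>] u
  lc : ∀ σ w k, LcF (F σ) T w k

variable {U : Fin 6 → Set ℂ} {T : ℂ → Set (Fin 6)} {z : ℂ} {L R : Fin 6 → ℝ} {u : ℝ}

theorem lcF_of {F : Ultrafilter ℝ} (h : Irr U T) (hF : ∀ S : Set ℝ, IsOpen S → Dense S → S ∈ F)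
    (w : ℂ) (k : ℝ) : LcF F T w k := by
  refine hF {v | v + k ∈ Lc T w} ?_ ?_
  · exact (Lc_open w).preimage (by fun_prop)
  · refine (preimage_dense (φ := k) (Lc_dense h w) 0).mono fun v hv => ?_
    have hv : k + v + 0 ∈ Lc T w := hv
    show v + k ∈ Lc T w
    rwa [add_zero, add_comm] at hv

/-- **existence**, general form -/
theorem exists_fr_of (h : Irr U T) {A A' : Set ℝ}
    (hA : ∃ᶠ v in 𝓝[<] u, ∀ᶠ v' in 𝓝 v, v' ∈ A) (hA' : ∃ᶠ v in 𝓝[>] u, ∀ᶠ v' in 𝓝 v, v' ∈ A') :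
    ∃ F : Bool → Ultrafilter ℝ, Fr U T u F ∧ A ∈ F false ∧ A' ∈ F true := by
  obtain ⟨F0, h1, h2, h3⟩ := exists_gen_left hA
  obtain ⟨F1, h4, h5, h6⟩ := exists_gen_right hA'
  refine ⟨fun σ => cond σ F1 F0, ⟨h, h1, h4, ?_⟩, h2, h5⟩
  rintro (_ | _) w k
  · exact lcF_of h h3 w k
  · exact lcF_of h h6 w k

/-- the letters of a column -/
theorem lt_col (w : WinData T z L R) {F : Ultrafilter ℝ} {s : St}
    (hF : ∀ᶠ v in (F : Filter ℝ), v ∈ WinData.G T z L R ∧ WinData.st T z L R v = s) (j : Fin 6) :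
    (s.1 j).1 ∈ lt F T z (j.val : ℝ) ∧ (s.1 j).2 ∈ lt F T z (j.val : ℝ) ∧
      (s.1 j).1 ≠ (s.1 j).2 := by
  obtain ⟨v, ⟨h1, h2⟩, h3⟩ := (hF.and (lt_spec F T z (j.val : ℝ))).exists
  have h4 := w.col_spec h1.1 j
  have e : WinData.col T z L R v = s.1 := by rw [← h2]; rfl
  rw [e, h3] at h4
  exact ⟨h4.1, h4.2.1, h4.2.2.1⟩

/-- the sides of the colours of a letter of the centre -/
theorem lt_side (w : WinData T z L R) {F : Ultrafilter ℝ} {s : St}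
    (hF : ∀ᶠ v in (F : Filter ℝ), v ∈ WinData.G T z L R ∧ WinData.st T z L R v = s) (j : Fin 6) :
    ∀ x ∈ lt F T z (j.val : ℝ), inn (s.2 x) (j.val : ZMod 6) ∨ out (s.2 x) (j.val : ZMod 6) := by
  obtain ⟨v, ⟨h1, h2⟩, h3⟩ := (hF.and (lt_spec F T z (j.val : ℝ))).exists
  have h4 := w.side_spec (h1.1 j)
  have e : wn L R v = s.2 := by rw [← h2]; rfl
  rw [e, h3] at h4
  exact h4

/-- **existence** for the limit states of the line -/
theorem exists_fr (h : Irr U T) (w : WinData T z L R) {s s' : St} (hs : s ∈ LS T z L R u)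
    (hs' : s' ∈ RS T z L R u) :
    ∃ F : Bool → Ultrafilter ℝ, Fr U T u F ∧
      (∀ᶠ v in (F false : Filter ℝ), v ∈ WinData.G T z L R ∧ WinData.st T z L R v = s) ∧
      (∀ᶠ v in (F true : Filter ℝ), v ∈ WinData.G T z L R ∧ WinData.st T z L R v = s') ∧
      (∀ j : Fin 6, (s.1 j).1 ∈ lt (F false) T z (j.val : ℝ) ∧
        (s.1 j).2 ∈ lt (F false) T z (j.val : ℝ) ∧ (s.1 j).1 ≠ (s.1 j).2) ∧
      ∀ j : Fin 6, (s'.1 j).1 ∈ lt (F true) T z (j.val : ℝ) ∧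
        (s'.1 j).2 ∈ lt (F true) T z (j.val : ℝ) ∧ (s'.1 j).1 ≠ (s'.1 j).2 := by
  have key : ∀ (s : St) (v : ℝ), (v ∈ WinData.G T z L R ∧ WinData.st T z L R v = s) →
      ∀ᶠ v' in 𝓝 v, v' ∈ {v | v ∈ WinData.G T z L R ∧ WinData.st T z L R v = s} := by
    intro s v hv
    have ho : IsOpen (WinData.G T z L R) :=
      (WinData.L0_open T z).sdiff (WinData.M_closed L R)
    filter_upwards [ho.mem_nhds hv.1, WinData.st_const hv.1] with v' h1 h2
    exact ⟨h1, h2.trans hv.2⟩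
  have hs : ∃ᶠ v in 𝓝[<] u, v ∈ WinData.G T z L R ∧ WinData.st T z L R v = s := hs
  have hs' : ∃ᶠ v in 𝓝[>] u, v ∈ WinData.G T z L R ∧ WinData.st T z L R v = s' := hs'
  obtain ⟨F, h1, h2, h3⟩ := exists_fr_of (u := u) h (hs.mono (key s)) (hs'.mono (key s'))
  exact ⟨F, h1, h2, h3, lt_col w h2, lt_col w h3⟩

/-! ### The lattice -/

/-- the lattice points -/
def lp (z : ℂ) (u : ℝ) (m n : ℤ) : ℂ :=
  z + m * cis (u * (Real.pi / 3)) + n * cis ((u + 1) * (Real.pi / 3))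

/-- the steps -/
def dx : Fin 6 → ℤ := ![1, 0, -1, -1, 0, 1]
def dy : Fin 6 → ℤ := ![0, 1, 1, 0, -1, -1]

theorem cis_two (u : ℝ) : cis ((u + 2) * (Real.pi / 3)) =
    cis ((u + 1) * (Real.pi / 3)) - cis (u * (Real.pi / 3)) := by
  have h1 := pt_sum 0 u
  unfold pt at h1
  linear_combination h1

theorem cis_three (u : ℝ) : cis ((u + 3) * (Real.pi / 3)) = -cis (u * (Real.pi / 3)) := by
  have h1 := pt_three 0 u
  unfold pt at h1
  linear_combination h1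

theorem lp_zero (z : ℂ) (u : ℝ) : lp z u 0 0 = z := by
  unfold lp; simp

/-- **the slots of a lattice point** -/
theorem lp_step (z : ℂ) (u : ℝ) (m n : ℤ) (j : Fin 6) :
    pt (lp z u m n) (u + (j.val : ℝ)) = lp z u (m + dx j) (n + dy j) := by
  unfold pt lp
  have h2 := cis_two u
  have h3 := cis_three u
  have h4 : cis ((u + 4) * (Real.pi / 3)) = -cis ((u + 1) * (Real.pi / 3)) := by
    have := cis_three (u + 1)
    rwa [show u + 1 + 3 = u + 4 by ring] at this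
  have h5 : cis ((u + 5) * (Real.pi / 3)) =
      cis (u * (Real.pi / 3)) - cis ((u + 1) * (Real.pi / 3)) := by
    have := cis_three (u + 2)
    rw [show u + 2 + 3 = u + 5 by ring] at this
    rw [this, h2]; ring
  fin_cases j
  · simp [dx, dy]; ring
  · simp [dx, dy]; ring
  · simp [dx, dy]; rw [h2]; ring
  · simp [dx, dy]; rw [h3]; ring
  · simp [dx, dy]; rw [h4]; ring
  · simp [dx, dy]; rw [h5]; ring

theorem dist_lp (z : ℂ) (u : ℝ) (m n : ℤ) (j : Fin 6) :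
    dist (lp z u (m + dx j) (n + dy j)) (lp z u m n) = 1 := by
  rw [← lp_step]; exact dist_pt _ _

end Vale.Agent.P032.H437
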