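import Vale.Agent.P032.H437.LO2

/-!
# P032: the letters-only rule set for any number of times

`FrK U T uu FF` : frames at the times `uu c`, `c : Fin K`, increasing, all within an interval shorter
than 60 degrees.  Points: `lK z uu q`, `q : Fin K → ℤ × ℤ`; steps `stK c q j`.
`LOK TT LT IN OUT MM` : all families which do not speak of windows; `lok_of_frK` : the instance.
-/

open Set Filter Topology Metric

noncomputable section

namespace Vale.Agent.P032.H437

open Vale.Agent.P032.Six Vale.Agent.P032.Sweep Vale.Agent.P032.S5.H767 Vale.Agent.P032.S5.H122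
  Vale.Agent.P032.H158 Vale.Agent.P032.H782 Vale.Agent.P032.H429 Vale.Agent.P032.H183
  Vale.Agent.P032.H605 Vale.Agent.P032.H617 Vale.Agent.P032.H724

/-- **the frame for `K` times** -/
structure FrK (U : Fin 6 → Set ℂ) (T : ℂ → Set (Fin 6)) {K : ℕ} (uu : Fin K → ℝ)
    (FF : Fin K → Bool → Ultrafilter ℝ) : Prop where
  irr : Irr U T
  fr : ∀ c, Fr U T (uu c) (FF c)
  mono : StrictMono uu
  lt1 : ∀ c c', uu c' < uu c + 1

/-- the coordinates of the points -/
abbrev QK (K : ℕ) := Fin K → ℤ × ℤ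

/-- the points -/
def lK {K : ℕ} (z : ℂ) (uu : Fin K → ℝ) (q : QK K) : ℂ :=
  z + ∑ c, (((q c).1 : ℂ) * cis (uu c * (Real.pi / 3)) +
    ((q c).2 : ℂ) * cis ((uu c + 1) * (Real.pi / 3)))

/-- a step -/
def stK {K : ℕ} (c : Fin K) (q : QK K) (j : Fin 6) : QK K :=
  Function.update q c ((q c).1 + dx j, (q c).2 + dy j)

theorem lK_zero {K : ℕ} (z : ℂ) (uu : Fin K → ℝ) : lK z uu (fun _ => (0, 0)) = z := by
  simp [lK]

theorem lK_step {K : ℕ} (z : ℂ) (uu : Fin K → ℝ) (q : QK K) (c : Fin K) (j : Fin 6) :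
    pt (lK z uu q) (uu c + (j.val : ℝ)) = lK z uu (stK c q j) := by
  have h1 := lp_step 0 (uu c) 0 0 j
  unfold pt lp at h1
  have h2 : (∑ c', (((stK c q j c').1 : ℂ) * cis (uu c' * (Real.pi / 3)) +
      ((stK c q j c').2 : ℂ) * cis ((uu c' + 1) * (Real.pi / 3)))) -
      (∑ c', (((q c').1 : ℂ) * cis (uu c' * (Real.pi / 3)) +
        ((q c').2 : ℂ) * cis ((uu c' + 1) * (Real.pi / 3)))) =
      (dx j : ℂ) * cis (uu c * (Real.pi / 3)) + (dy j : ℂ) * cis ((uu c + 1) * (Real.pi / 3)) := by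
    rw [← Finset.sum_sub_distrib, Finset.sum_eq_single c]
    · unfold stK
      rw [Function.update_self]
      push_cast
      ring
    · intro b _ hb
      unfold stK
      rw [Function.update_of_ne hb]
      ring
    · intro hc
      exact absurd (Finset.mem_univ c) hc
  unfold pt lK
  push_cast at h1
  linear_combination h1 - h2

/-- the sign of the sweep from the class `c` to the class `c'` (`true` = out) -/
def sgK {K : ℕ} (c c' : Fin K) (d : Fin 6) (σ₂ : Bool) : Bool :=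
  if c = c' then sgn d σ₂ else if c < c' then sgc d else sgd d

/-- the slots are not parallel -/
def NpK {K : ℕ} (c c' : Fin K) (j k : Fin 6) : Bool :=
  !decide (c = c') || (!decide (k = j) && !decide (k = j + 3))

/-- the number of colours at a point is at least `n` -/
def GEK {K : ℕ} (TT : QK K → Fin 6 → Prop) (q : QK K) (n : ℕ) : Prop := n ≤ {i | TT q i}.ncard

/-- **The rules (without windows)** -/
structure LOK {K : ℕ} (TT : QK K → Fin 6 → Prop)
    (LT IN OUT : Fin K → Bool → QK K → Fin 6 → Fin 6 → Prop)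
    (MM : QK K → Fin 6 → Fin 6 → Prop) : Prop where
  memb : ∀ {c σ q j i}, LT c σ q j i → TT (stK c q j) i
  neI : ∀ c σ q j, ∃ i, IN c σ q j i
  neO : ∀ c σ q j, ∃ i, OUT c σ q j i
  IL : ∀ {c σ q j i}, IN c σ q j i → LT c σ q j i
  OL : ∀ {c σ q j i}, OUT c σ q j i → LT c σ q j i
  LIO : ∀ {c σ q j i}, LT c σ q j i → IN c σ q j i ∨ OUT c σ q j i
  pair : ∀ {c σ q j i}, LT c σ q j i → TT q i → ∃ i', i' ≠ i ∧ LT c σ q j i'
  card : ∀ c σ q j, {i | LT c σ q j i}.ncard ≤ 3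
  two : ∀ c σ q j, (∀ i, LT c σ q j i → TT q i) → 2 ≤ {i | TT q i ∧ ¬ LT c σ q j i}.ncard
  sub4 : ∀ c σ q j, GEK TT q 4 ∨ ∃ i, LT c σ q j i ∧ ¬ TT q i
  defM : ∀ {c σ q j a b}, a ≠ b → LT c σ q j a → LT c σ q j b → TT q a → TT q b →
    MM q a b ∨ ∃ d, d ≠ a ∧ d ≠ b ∧ LT c σ q j d
  symM : ∀ {q a b}, MM q a b → MM q b a
  swO : ∀ (c c' : Fin K) (σ σ₂ : Bool) (q : QK K) (k j : Fin 6), sgK c c' (j - k) σ₂ = σ →
    ∃ i, ¬ LT c σ q k i ∧ OUT c' σ₂ (stK c q k) j i
  swI : ∀ (c c' : Fin K) (σ σ₂ : Bool) (q : QK K) (k j : Fin 6), sgK c c' (j - k) σ₂ ≠ σ →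
    ∃ i, ¬ LT c σ q k i ∧ IN c' σ₂ (stK c q k) j i
  sixty : ∀ {c σ q j i}, LT c σ q j i → ¬ LT c σ q (j + 1) i
  product : ∀ (c' : Fin K) (k : Fin 6) {c σ q j i}, LT c σ q j i → ¬ LT c σ (stK c' q k) j i
  m4 : ∀ {q i a b}, ¬ GEK TT q 5 → MM q i a → MM q i b → a = b
  m5 : ∀ {q i a b c}, ¬ GEK TT q 6 → a ≠ b → a ≠ c → b ≠ c → MM q i a → MM q i b → MM q i c → False
  m6 : ∀ {q i a b c d}, a ≠ b → a ≠ c → a ≠ d → b ≠ c → b ≠ d → c ≠ d → MM q i a → MM q i b →
    MM q i c → MM q i d → False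
  c5 : ∀ {q a b c d}, ¬ GEK TT q 6 → a ≠ b → c ≠ d → MM q a c → MM q a d → MM q b c →
    MM q b d → False
  k23 : ∀ {q a b c d e}, a ≠ b → c ≠ d → c ≠ e → d ≠ e → MM q a c → MM q a d → MM q a e →
    MM q b c → MM q b d → MM q b e → False
  notsub : ∀ (q : QK K) (c : Fin K) (j : Fin 6), GEK TT q 4 ∨ ∃ i, TT (stK c q j) i ∧ ¬ TT q i
  third : ∀ {q : QK K} {c c' : Fin K} {j k t : Fin 6}, NpK c c' j k = true →
    TT (stK c' (stK c q j) k) t → GEK TT q 4 ∨ ∃ i, i ≠ t ∧ TT (stK c q j) i ∧ ¬ TT q i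
  lemmaB : ∀ {q : QK K} {c c' : Fin K} {j k a b : Fin 6}, NpK c c' j k = true →
    TT (stK c q j) a → TT (stK c' q k) b → ∃ i, TT q i ∧ i ≠ a ∧ i ≠ b

variable {U : Fin 6 → Set ℂ} {T : ℂ → Set (Fin 6)} {K : ℕ} {uu : Fin K → ℝ}
  {FF : Fin K → Bool → Ultrafilter ℝ}

/-- the atoms -/
def TK (T : ℂ → Set (Fin 6)) (z : ℂ) (uu : Fin K → ℝ) (q : QK K) (i : Fin 6) : Prop :=
  i ∈ T (lK z uu q)

def LK (T : ℂ → Set (Fin 6)) (z : ℂ) (uu : Fin K → ℝ) (FF : Fin K → Bool → Ultrafilter ℝ)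
    (c : Fin K) (σ : Bool) (q : QK K) (j i : Fin 6) : Prop :=
  i ∈ lt (FF c σ) T (lK z uu q) (j.val : ℝ)

def IK (T : ℂ → Set (Fin 6)) (z : ℂ) (uu : Fin K → ℝ) (FF : Fin K → Bool → Ultrafilter ℝ)
    (c : Fin K) (σ : Bool) (q : QK K) (j i : Fin 6) : Prop :=
  Inn (FF c σ) T (lK z uu q) (j.val : ℝ) i

def OK (T : ℂ → Set (Fin 6)) (z : ℂ) (uu : Fin K → ℝ) (FF : Fin K → Bool → Ultrafilter ℝ)
    (c : Fin K) (σ : Bool) (q : QK K) (j i : Fin 6) : Prop :=
  Out (FF c σ) T (lK z uu q) (j.val : ℝ) i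

def MK (T : ℂ → Set (Fin 6)) (z : ℂ) (uu : Fin K → ℝ) (q : QK K) (a b : Fin 6) : Prop :=
  M605 T (lK z uu q) a b

namespace FrK

variable {c c' : Fin K} {σ σ₂ : Bool} {q : QK K} {i j k : Fin 6}

/-- the slot of another class is not a slot of the class -/
theorem gen (h : FrK U T uu FF) {c c' : Fin K} (hc : c' ≠ c) (k : Fin 6) (n : ℤ) :
    uu c' + (k.val : ℝ) ≠ uu c + n := by
  have key : ∀ {a b : Fin K}, a < b → ∀ m : ℤ, uu b - uu a ≠ (m : ℝ) := by
    intro a b hab m hm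
    have h0 := h.mono hab
    have h1 := h.lt1 a b
    have h2 : (0 : ℝ) < (m : ℝ) := by linarith
    have h3 : (m : ℝ) < 1 := by linarith
    have h4 : (0 : ℤ) < m := by exact_mod_cast h2
    have h5 : m < 1 := by exact_mod_cast h3
    omega
  intro h2
  rcases lt_or_gt_of_ne hc with h3 | h3
  · refine key h3 ((k.val : ℤ) - n) ?_
    push_cast
    linarith
  · refine key h3 (n - (k.val : ℤ)) ?_
    push_cast
    linarith

theorem npar (h : FrK U T uu FF) (hn : NpK c c' j k = true) :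
    Npar (uu c + (j.val : ℝ)) (uu c' + (k.val : ℝ)) := by
  unfold NpK at hn
  rcases lt_trichotomy c c' with h3 | h3 | h3
  · exact npar_two (h.mono h3) (h.lt1 c c') j k
  · subst h3
    simp only [decide_true, Bool.not_true, Bool.false_or, Bool.and_eq_true, Bool.not_eq_true',
      decide_eq_false_iff_not] at hn
    exact npar_fin _ hn.1 hn.2
  · exact (npar_two (h.mono h3) (h.lt1 c' c) k j).symm

theorem sweepK (h : FrK U T uu FF) (z : ℂ) (c c' : Fin K) (σ σ₂ : Bool) (q : QK K) (k j : Fin 6) :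
    (sgK c c' (j - k) σ₂ = σ → ∃ i, ¬ LK T z uu FF c σ q k i ∧
      OK T z uu FF c' σ₂ (stK c q k) j i) ∧
    (sgK c c' (j - k) σ₂ ≠ σ → ∃ i, ¬ LK T z uu FF c σ q k i ∧
      IK T z uu FF c' σ₂ (stK c q k) j i) := by
  unfold LK OK IK sgK
  rw [← lK_step]
  rcases lt_trichotomy c c' with h3 | h3 | h3
  · rw [if_neg h3.ne, if_pos h3]
    exact (h.fr c).up_w (h.fr c') (h.mono h3) (h.lt1 c c') σ σ₂ _ k j
  · subst h3
    rw [if_pos rfl]
    exact (h.fr c).same_w σ σ₂ _ k j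
  · rw [if_neg h3.ne', if_neg (not_lt.2 h3.le)]
    exact (h.fr c').down_w (h.fr c) (h.mono h3) (h.lt1 c' c) σ σ₂ _ k j

theorem productK (h : FrK U T uu FF) {z : ℂ} (c' : Fin K) (k : Fin 6)
    (hl : LK T z uu FF c σ q j i) : ¬ LK T z uu FF c σ (stK c' q k) j i := by
  unfold LK
  rw [← lK_step]
  by_cases hc : c' = c
  · rw [hc]
    exact (h.fr c).product_slot k hl
  · exact (h.fr c).product_slot' (fun n => h.gen hc k n) hl

end FrK

/-- **The instance** -/
theorem lok_of_frK (h : FrK U T uu FF)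
    (hmin : ∀ z, 4 ≤ (T z).ncard → ∀ s, s ⊆ T z → s ≠ T z →
      ¬ ∀ᶠ w in 𝓝 z, ∃ i ∈ s, w ∈ U i ∨ (w ∈ XX U ∧ i ∈ Pal U w)) (z : ℂ) :
    LOK (TK T z uu) (LK T z uu FF) (IK T z uu FF) (OK T z uu FF) (MK T z uu) where
  memb := by
    intro c σ q j i hl
    have h1 := (h.fr c).memb_w hl
    rwa [lK_step] at h1
  neI := fun c σ q j => exists_inn h.irr _ _
  neO := fun c σ q j => exists_out h.irr _ _
  IL := fun hl => Inn.mem h.irr hl
  OL := fun hl => Out.mem h.irr hl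
  LIO := fun {c} _ _ _ _ hl => (h.fr c).side_w hl
  pair := by
    intro c σ q j i hl ht
    by_contra hcon
    push Not at hcon
    have hsub : lt (FF c σ) T (lK z uu q) (j.val : ℝ) ⊆ {i} := by
      intro m hm
      by_contra hmi
      exact hcon m hmi hm
    obtain ⟨v, hv⟩ := (lt_spec (FF c σ) T (lK z uu q) (j.val : ℝ)).exists
    rw [← hv] at hsub
    exact h.irr.mx.notMem' (h.irr.mem_of_single hsub) (dist_pt _ _) (h.irr.sub _ ht)
  card := fun c σ q j => lt_card h.irr ((h.fr c).lc σ _ _)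
  two := by
    intro c σ q j hs
    exact (lt_two_out h.irr ((h.fr c).lc σ (lK z uu q) (j.val : ℝ)) fun i hi => hs i hi).2
  sub4 := by
    intro c σ q j
    by_cases h4 : 4 ≤ (T (lK z uu q)).ncard
    · exact Or.inl h4
    · exact Or.inr (lt_three h.irr (by omega) _)
  defM := by
    intro c σ q j a b hab ha hb hta htb
    by_cases hd : ∃ d, d ≠ a ∧ d ≠ b ∧ LK T z uu FF c σ q j d
    · exact Or.inr hd
    · left
      push Not at hd
      refine M605_of (F := FF c σ) (k := (j.val : ℝ)) hab hta htb ?_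
      ext m
      constructor
      · intro hm
        by_contra hcon
        have hcon : ¬ (m = a ∨ m = b) := hcon
        push Not at hcon
        exact hd m hcon.1 hcon.2 hm
      · rintro (rfl | rfl)
        · exact ha
        · exact hb
  symM := fun hm => hm.symm
  swO := fun c c' σ σ₂ q k j hs => (h.sweepK z c c' σ σ₂ q k j).1 hs
  swI := fun c c' σ σ₂ q k j hs => (h.sweepK z c c' σ σ₂ q k j).2 hs
  sixty := fun {c} _ _ _ _ hl => (h.fr c).sixty_w hl
  product := fun c' k _ _ _ _ _ hl => h.productK c' k hl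
  m4 := by
    intro q i a b h5 ha hb
    have h5 : ¬ 5 ≤ (T (lK z uu q)).ncard := h5
    exact M4_le605 h.irr hmin (by omega) ha hb
  m5 := by
    intro q i a b c h6 hab hac hbc ha hb hc
    have h6 : ¬ 6 ≤ (T (lK z uu q)).ncard := h6
    exact M5_724 h.irr hmin (by omega) hab hac hbc ha hb hc
  m6 := fun hab hac had hbc hbd hcd ha hb hc hd =>
    M6_724 h.irr hmin hab hac had hbc hbd hcd ha hb hc hd
  c5 := by
    intro q a b c d h6 hab hcd h1 h2 h3 h4
    have h6 : ¬ 6 ≤ (T (lK z uu q)).ncard := h6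
    exact C5_724 h.irr hmin (by omega) hab hcd h1 h2 h3 h4
  k23 := fun hab hcd hce hde h1 h2 h3 h4 h5 h6 =>
    K23_724 h.irr hmin hab hcd hce hde h1 h2 h3 h4 h5 h6
  notsub := by
    intro q c j
    have h1 := notsub_pt h.irr (lK z uu q) (uu c + (j.val : ℝ))
    rw [lK_step] at h1
    exact h1
  third := by
    intro q c c' j k t hn ht
    have h1 := third_ang h.irr (lK z uu q) (h.npar hn) (t := t) (by
      rw [lK_step, lK_step]
      exact ht)
    rw [lK_step] at h1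
    exact h1
  lemmaB := by
    intro q c c' j k a b hn ha hb
    exact lemmaB_ang h.irr (lK z uu q) (h.npar hn) (a := a) (b := b)
      (by rw [lK_step]; exact ha) (by rw [lK_step]; exact hb)

end Vale.Agent.P032.H437
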