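import Vale.Agent.P032.H429.Line

/-!
# P032: an event after which the column never changes

`col_const` : if the column is `A` at a generic time `a` and no limit column `A` from the left is
followed by another limit column from the right at a time between `a` and `b`, then the column is
`A` at all generic times of `(a, b)`.
`next_event` : if this holds for all times of `(u, u + 1)` and `A` is the column of a limit state from
the right at `u`, then every limit state `s` from the left at `u` has `(shift s).1 = A`.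
-/

open Set Filter Topology Metric

noncomputable section

namespace Vale.Agent.P032.H437

open Vale.Agent.P032.Six Vale.Agent.P032.Sweep Vale.Agent.P032.S5.H767 Vale.Agent.P032.S5.H122
  Vale.Agent.P032.H429

variable {U : Fin 6 → Set ℂ} {T : ℂ → Set (Fin 6)} {z : ℂ} {L R : Fin 6 → ℝ} {u : ℝ}

/-- generic times accumulate from the left -/
theorem gen_left (h : Irr U T) (z : ℂ) (L R : Fin 6 → ℝ) (x : ℝ) :
    ∃ᶠ v in 𝓝[<] x, v ∈ WinData.G T z L R := by
  rw [frequently_iff]
  intro W hW
  obtain ⟨c, hc, hsub⟩ := mem_nhdsLT_iff_exists_Ioo_subset.1 hW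
  obtain ⟨v, hv1, hv2⟩ := (WinData.G_dense h z L R).exists_mem_open isOpen_Ioo
    (nonempty_Ioo.2 (show c < x from hc))
  exact ⟨v, hsub hv2, hv1⟩

/-- **the column is constant** -/
theorem col_const (h : Irr U T) {A : Cl} {a b : ℝ} (ha : a ∈ WinData.G T z L R)
    (haA : (WinData.st T z L R a).1 = A)
    (hk : ∀ x, a < x → x < b → ∀ t ∈ LS T z L R x, ∀ t' ∈ RS T z L R x, t.1 = A → t'.1 = A)
    {v : ℝ} (hv : v ∈ WinData.G T z L R) (hav : a < v) (hvb : v < b) :
    (WinData.st T z L R v).1 = A := by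
  set S : Set ℝ := {t | ∀ x ∈ WinData.G T z L R, a ≤ x → x < t → (WinData.st T z L R x).1 = A}
    with hS
  -- a generic time which is a limit from the left of times with column `A`
  have lim : ∀ x ∈ S, a < x → x ∈ WinData.G T z L R → (WinData.st T z L R x).1 = A := by
    intro x hx hax hxG
    have h1 : ∀ᶠ y in 𝓝[<] x, WinData.st T z L R y = WinData.st T z L R x :=
      nhdsWithin_le_nhds (WinData.st_const hxG)
    obtain ⟨y, hy1, hy2, hy3⟩ := ((gen_left h z L R x).and_eventually
      (h1.and (Ioo_mem_nhdsLT hax))).exists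
    rw [← hy2]
    exact hx y hy1 hy3.1.le hy3.2
  have hcl : IsClosed (S ∩ Icc a v) := by
    refine IsClosed.inter ?_ isClosed_Icc
    rw [← isOpen_compl_iff, isOpen_iff_mem_nhds]
    intro t ht
    have ht' : ∃ x ∈ WinData.G T z L R, a ≤ x ∧ x < t ∧ (WinData.st T z L R x).1 ≠ A := by
      by_contra hcon
      push Not at hcon
      exact ht hcon
    obtain ⟨x, h1, h2, h3, h4⟩ := ht'
    filter_upwards [Ioi_mem_nhds h3] with y hy hyS
    exact h4 (hyS x h1 h2 hy)
  have haS : a ∈ S := fun x _ h1 h2 => absurd h2 (not_lt.2 h1)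
  have key : Icc a v ⊆ S := by
    refine hcl.Icc_subset_of_forall_mem_nhdsWithin haS ?_
    rintro x ⟨hxS, hxa, hxv⟩
    -- the generic times just after `x`
    have h2 : ∀ᶠ y in 𝓝[>] x, y ∈ WinData.G T z L R → (WinData.st T z L R y).1 = A := by
      rcases hxa.eq_or_lt with h3 | h3
      · rw [← h3]
        filter_upwards [nhdsWithin_le_nhds (WinData.st_const ha)] with y hy _
        rw [hy]
        exact haA
      · have h4 := WinData.ev_LS T z L R x
        obtain ⟨y, hy1, hy2, hy3⟩ := ((gen_left h z L R x).and_eventually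
          (h4.and (Ioo_mem_nhdsLT h3))).exists
        have h5 : (WinData.st T z L R y).1 = A := hxS y hy1 hy3.1.le hy3.2
        filter_upwards [WinData.ev_RS T z L R x] with y' hy' hyG
        exact hk x h3 (hxv.trans hvb) _ (hy2 hy1) _ (hy' hyG) h5
    obtain ⟨c, hc, hsub⟩ := mem_nhdsGT_iff_exists_Ioo_subset.1 h2
    refine mem_nhdsGT_iff_exists_Ioo_subset.2 ⟨c, hc, fun t ht x' hx' hax' hx't => ?_⟩
    rcases lt_trichotomy x' x with h6 | h6 | h6
    · exact hxS x' hx' hax' h6
    · rcases hxa.eq_or_lt with h3 | h3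
      · rw [h6, ← h3]
        exact haA
      · exact lim x' (by rw [h6]; exact hxS) (by rw [h6]; exact h3) hx'
    · exact hsub ⟨h6, hx't.trans ht.2⟩ hx'
  exact lim v (key ⟨hav.le, le_rfl⟩) hav hv

/-- **The consequence of the kills at two times** -/
theorem next_event (h : Irr U T) {A : Cl}
    (hk : ∀ x, u < x → x < u + 1 → ∀ t ∈ LS T z L R x, ∀ t' ∈ RS T z L R x, t.1 = A → t'.1 = A)
    {s s' : St} (hs : s ∈ LS T z L R u) (hs' : s' ∈ RS T z L R u) (hA : s'.1 = A) :
    (shift s).1 = A := by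
  have hs : ∃ᶠ v in 𝓝[<] u, v ∈ WinData.G T z L R ∧ WinData.st T z L R v = s := hs
  have hs' : ∃ᶠ v in 𝓝[>] u, v ∈ WinData.G T z L R ∧ WinData.st T z L R v = s' := hs'
  obtain ⟨v, ⟨hv1, hv2⟩, hv3⟩ := (hs.and_eventually
    (Ioo_mem_nhdsLT (show u - 1 < u by linarith))).exists
  obtain ⟨a, ⟨ha1, ha2⟩, ha3⟩ := (hs'.and_eventually
    (Ioo_mem_nhdsGT (show u < v + 1 by linarith [hv3.1]))).exists
  have h1 := col_const h (b := u + 1) ha1 (by rw [ha2]; exact hA)
    (fun x h2 h3 => hk x (ha3.1.trans h2) h3) (WinData.G_turn hv1) ha3.2 (by linarith [hv3.2])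
  rw [WinData.st_turn, hv2] at h1
  exact h1

/-! ### The mirror form -/

/-- generic times accumulate from the right -/
theorem gen_right (h : Irr U T) (z : ℂ) (L R : Fin 6 → ℝ) (x : ℝ) :
    ∃ᶠ v in 𝓝[>] x, v ∈ WinData.G T z L R := by
  rw [frequently_iff]
  intro W hW
  obtain ⟨c, hc, hsub⟩ := mem_nhdsGT_iff_exists_Ioo_subset.1 hW
  obtain ⟨v, hv1, hv2⟩ := (WinData.G_dense h z L R).exists_mem_open isOpen_Ioo
    (nonempty_Ioo.2 (show x < c from hc))
  exact ⟨v, hsub hv2, hv1⟩

/-- **the column is constant**, backwards -/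
theorem col_const_left (h : Irr U T) {A : Cl} {a b : ℝ} (hb : b ∈ WinData.G T z L R)
    (hbA : (WinData.st T z L R b).1 = A)
    (hk : ∀ x, a < x → x < b → ∀ t ∈ LS T z L R x, ∀ t' ∈ RS T z L R x, t'.1 = A → t.1 = A)
    {v : ℝ} (hv : v ∈ WinData.G T z L R) (hav : a < v) (hvb : v < b) :
    (WinData.st T z L R v).1 = A := by
  set S : Set ℝ := {t | ∀ x ∈ WinData.G T z L R, x ≤ b → -t < x → (WinData.st T z L R x).1 = A}
    with hS
  have lim : ∀ x, -x ∈ S → x < b → x ∈ WinData.G T z L R → (WinData.st T z L R x).1 = A := by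
    intro x hx hxb hxG
    have h1 : ∀ᶠ y in 𝓝[>] x, WinData.st T z L R y = WinData.st T z L R x :=
      nhdsWithin_le_nhds (WinData.st_const hxG)
    obtain ⟨y, hy1, hy2, hy3⟩ := ((gen_right h z L R x).and_eventually
      (h1.and (Ioo_mem_nhdsGT hxb))).exists
    rw [← hy2]
    exact hx y hy1 hy3.2.le (by rw [neg_neg]; exact hy3.1)
  have hcl : IsClosed (S ∩ Icc (-b) (-v)) := by
    refine IsClosed.inter ?_ isClosed_Icc
    rw [← isOpen_compl_iff, isOpen_iff_mem_nhds]
    intro t ht
    have ht' : ∃ x ∈ WinData.G T z L R, x ≤ b ∧ -t < x ∧ (WinData.st T z L R x).1 ≠ A := by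
      by_contra hcon
      push Not at hcon
      exact ht hcon
    obtain ⟨x, h1, h2, h3, h4⟩ := ht'
    filter_upwards [Ioi_mem_nhds (show -x < t by linarith)] with y hy hyS
    have hy : -x < y := hy
    exact h4 (hyS x h1 h2 (by linarith))
  have hbS : -b ∈ S := by
    intro x _ h1 h2
    rw [neg_neg] at h2
    exact absurd h1 (not_le.2 h2)
  have key : Icc (-b) (-v) ⊆ S := by
    refine hcl.Icc_subset_of_forall_mem_nhdsWithin hbS ?_
    rintro y ⟨hyS, hyb, hyv⟩
    obtain ⟨x, rfl⟩ : ∃ x, y = -x := ⟨-y, by ring⟩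
    have hxb : x ≤ b := by linarith
    have hvx : v < x := by linarith
    have h2 : ∀ᶠ y in 𝓝[<] x, y ∈ WinData.G T z L R → (WinData.st T z L R y).1 = A := by
      rcases hxb.eq_or_lt with h3 | h3
      · rw [h3]
        filter_upwards [nhdsWithin_le_nhds (WinData.st_const hb)] with y hy _
        rw [hy]
        exact hbA
      · have h4 := WinData.ev_RS T z L R x
        obtain ⟨y, hy1, hy2, hy3⟩ := ((gen_right h z L R x).and_eventually
          (h4.and (Ioo_mem_nhdsGT h3))).exists
        have h5 : (WinData.st T z L R y).1 = A :=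
          hyS y hy1 hy3.2.le (by rw [neg_neg]; exact hy3.1)
        filter_upwards [WinData.ev_LS T z L R x] with y' hy' hyG
        exact hk x (hav.trans hvx) h3 _ (hy' hyG) _ (hy2 hy1) h5
    obtain ⟨c, hc, hsub⟩ := mem_nhdsLT_iff_exists_Ioo_subset.1 h2
    have hc : c < x := hc
    refine mem_nhdsGT_iff_exists_Ioo_subset.2 ⟨-c, ?_, fun t ht x' hx' hx'b hx't => ?_⟩
    · show -x < -c
      linarith
    · rcases lt_trichotomy x' x with h6 | h6 | h6
      · exact hsub ⟨by linarith [ht.2], h6⟩ hx'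
      · rcases hxb.eq_or_lt with h3 | h3
        · rw [h6, h3]
          exact hbA
        · exact lim x' (by rw [h6]; exact hyS) (by rw [h6]; exact h3) hx'
      · exact hyS x' hx' hx'b (by rw [neg_neg]; exact h6)
  exact lim v (key ⟨by linarith, le_rfl⟩) hvb hv

/-- **The consequence of the kills at two times**, previous event: `s'` is the shift of `A` -/
theorem prev_event (h : Irr U T) {A : Cl}
    (hk : ∀ x, u - 1 < x → x < u → ∀ t ∈ LS T z L R x, ∀ t' ∈ RS T z L R x, t'.1 = A → t.1 = A)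
    {s s' : St} (hs : s ∈ LS T z L R u) (hs' : s' ∈ RS T z L R u) (hA : s.1 = A) :
    s'.1 = fun j => A (j + 1) := by
  have hs : ∃ᶠ v in 𝓝[<] u, v ∈ WinData.G T z L R ∧ WinData.st T z L R v = s := hs
  have hs' : ∃ᶠ v in 𝓝[>] u, v ∈ WinData.G T z L R ∧ WinData.st T z L R v = s' := hs'
  obtain ⟨v, ⟨hv1, hv2⟩, hv3⟩ := (hs'.and_eventually
    (Ioo_mem_nhdsGT (show u < u + 1 by linarith))).exists
  obtain ⟨b, ⟨hb1, hb2⟩, hb3⟩ := (hs.and_eventually
    (Ioo_mem_nhdsLT (show v - 1 < u by linarith [hv3.2]))).exists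
  have hv' : v - 1 ∈ WinData.G T z L R := by
    have e : v = v - 1 + 1 := by ring
    refine ⟨?_, fun hM => ?_⟩
    · -- the slots of `v - 1` are slots of `v`
      intro j
      have h1 := hv1.1 (j - 1)
      have h6 : ∀ j : Fin 6, ((j - 1 : Fin 6).val + 1 = j.val) ∨
          ((j - 1 : Fin 6).val + 1 = j.val + 6) := by decide
      rcases h6 j with h7 | h7
      · have h8 : ((j - 1 : Fin 6).val : ℝ) + 1 = (j.val : ℝ) := by exact_mod_cast h7
        rw [show v - 1 + (j.val : ℝ) = v + ((j - 1 : Fin 6).val : ℝ) by linarith]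
        exact h1
      · have h8 : ((j - 1 : Fin 6).val : ℝ) + 1 = (j.val : ℝ) + 6 := by exact_mod_cast h7
        rw [← Lc_per, show v - 1 + (j.val : ℝ) + 6 = v + ((j - 1 : Fin 6).val : ℝ) by linarith]
        exact h1
    · refine hv1.2 ?_
      rw [e]
      exact (WinData.M_turn L R (v - 1)).2 hM
  have h1 := col_const_left h (a := u - 1) hb1 (by rw [hb2]; exact hA)
    (fun x h2 h3 => hk x h2 (h3.trans hb3.2)) hv' (by linarith [hv3.1]) hb3.1
  have h2 := WinData.st_turn T z L R (v - 1)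
  rw [show v - 1 + 1 = v by ring, hv2] at h2
  rw [h2]
  show (fun j => (WinData.st T z L R (v - 1)).1 (j + 1)) = _
  rw [h1]

end Vale.Agent.P032.H437
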