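import Vale.Agent.P032.H437.SwL

/-!
# P032: the families F1, F2, F6, F7, F8, F9 of the letters-only rule set, in lattice coordinates

Atoms: `TT m n i`, `LT σ m n j i`, `IN σ m n j i`, `OUT σ m n j i` (all with the parameters
`T z u F`).
-/

open Set Filter Topology Metric

noncomputable section

namespace Vale.Agent.P032.H437

open Vale.Agent.P032.Six Vale.Agent.P032.Sweep Vale.Agent.P032.S5.H767 Vale.Agent.P032.S5.H122
  Vale.Agent.P032.H158 Vale.Agent.P032.H782 Vale.Agent.P032.H429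

/-- `i` is in the palette of a lattice point -/
def TT (T : ℂ → Set (Fin 6)) (z : ℂ) (u : ℝ) (m n : ℤ) (i : Fin 6) : Prop := i ∈ T (lp z u m n)

/-- `i` is in the limit letter -/
def LT (T : ℂ → Set (Fin 6)) (z : ℂ) (u : ℝ) (F : Bool → Ultrafilter ℝ) (σ : Bool) (m n : ℤ)
    (j i : Fin 6) : Prop := i ∈ lt (F σ) T (lp z u m n) (j.val : ℝ)

/-- `i` occurs inside at the letter -/
def IN (T : ℂ → Set (Fin 6)) (z : ℂ) (u : ℝ) (F : Bool → Ultrafilter ℝ) (σ : Bool) (m n : ℤ)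
    (j i : Fin 6) : Prop := Inn (F σ) T (lp z u m n) (j.val : ℝ) i

/-- `i` occurs outside at the letter -/
def OUT (T : ℂ → Set (Fin 6)) (z : ℂ) (u : ℝ) (F : Bool → Ultrafilter ℝ) (σ : Bool) (m n : ℤ)
    (j i : Fin 6) : Prop := Out (F σ) T (lp z u m n) (j.val : ℝ) i

/-- equal points of a circle -/
theorem pt_eq {w : ℂ} {a b : ℝ} (h : pt w a = pt w b) : ∃ n : ℤ, a = b + 6 * n := by
  unfold pt at h
  have h1 : cis (a * (Real.pi / 3)) = cis (b * (Real.pi / 3)) := by linear_combination h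
  have h2 : Real.cos ((a - b) * (Real.pi / 3)) = 1 := by
    have hc := congrArg Complex.re h1
    have hs := congrArg Complex.im h1
    rw [cis_re, cis_re] at hc
    rw [cis_im, cis_im] at hs
    have e : (a - b) * (Real.pi / 3) = a * (Real.pi / 3) - b * (Real.pi / 3) := by ring
    rw [e, Real.cos_sub, hc, hs]
    have := Real.sin_sq_add_cos_sq (b * (Real.pi / 3))
    nlinarith
  obtain ⟨n, hn⟩ := (Real.cos_eq_one_iff _).1 h2
  refine ⟨n, ?_⟩
  have hp := Real.pi_pos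
  have h3 : Real.pi * (n * 6) = Real.pi * (a - b) := by linarith
  have := mul_left_cancel₀ hp.ne' h3
  linarith

theorem lt_fin_add {F : Ultrafilter ℝ} {T : ℂ → Set (Fin 6)} {w : ℂ} (j l : Fin 6) :
    lt F T w ((j + l : Fin 6).val : ℝ) = lt F T w ((j.val : ℝ) + (l.val : ℝ)) := by
  have h : ∀ j l : Fin 6, (j + l : Fin 6).val = j.val + l.val ∨
      (j + l : Fin 6).val + 6 = j.val + l.val := by decide
  rcases h j l with h1 | h1
  · rw [h1]; push_cast; rfl
  · have h2 : (((j + l : Fin 6).val : ℕ) : ℝ) + 6 = (j.val : ℝ) + (l.val : ℝ) := by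
      exact_mod_cast h1
    rw [← h2, lt_period]

namespace Fr

variable {U : Fin 6 → Set ℂ} {T : ℂ → Set (Fin 6)} {z : ℂ} {u : ℝ} {F : Bool → Ultrafilter ℝ}
  {σ σ₂ : Bool} {m n : ℤ} {i j k : Fin 6}

/-- **F1** -/
theorem memb (hf : Fr U T u F) (h : LT T z u F σ m n j i) :
    TT T z u (m + dx j) (n + dy j) i := by
  have h1 := lt_sub hf.irr (hf.le σ) h
  rwa [lp_step] at h1

/-- **F2** -/
theorem ne_in (hf : Fr U T u F) (z : ℂ) (σ : Bool) (m n : ℤ) (j : Fin 6) :
    ∃ i, IN T z u F σ m n j i := exists_inn hf.irr _ _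

theorem ne_out (hf : Fr U T u F) (z : ℂ) (σ : Bool) (m n : ℤ) (j : Fin 6) :
    ∃ i, OUT T z u F σ m n j i := exists_out hf.irr _ _

theorem in_let (hf : Fr U T u F) (h : IN T z u F σ m n j i) : LT T z u F σ m n j i :=
  Inn.mem hf.irr h

theorem out_let (hf : Fr U T u F) (h : OUT T z u F σ m n j i) : LT T z u F σ m n j i :=
  Out.mem hf.irr h

theorem let_side (hf : Fr U T u F) (h : LT T z u F σ m n j i) :
    IN T z u F σ m n j i ∨ OUT T z u F σ m n j i := by
  by_cases h2 : ∃ c, LT T z u F σ m n j c ∧ i ≠ c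
  · obtain ⟨c, h3, h4⟩ := h2
    exact inn_or_out hf.irr (hf.lc σ _ _) h h3 h4
  · push Not at h2
    obtain ⟨c, hc⟩ := hf.ne_in z σ m n j
    have h3 := h2 c (hf.in_let hc)
    left
    rw [h3]
    exact hc

/-- **F8** -/
theorem sixty (hf : Fr U T u F) (h : LT T z u F σ m n j i) : ¬ LT T z u F σ m n (j + 1) i := by
  have h1 := lt_sixty hf.irr (hf.lc σ (lp z u m n) (j.val : ℝ))
  unfold LT at h ⊢
  rw [lt_fin_add]
  show ¬ i ∈ lt (F σ) T (lp z u m n) ((j.val : ℝ) + ((1 : ℕ) : ℝ))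
  rw [Nat.cast_one]
  exact Set.disjoint_left.1 h1 h

/-- **F9** -/
theorem product (hf : Fr U T u F) (k : Fin 6) (h : LT T z u F σ m n j i) :
    ¬ LT T z u F σ (m + dx k) (n + dy k) j i := by
  have hd : dist (lp z u m n) (lp z u (m + dx k) (n + dy k)) = 1 := by
    rw [dist_comm]; exact dist_lp z u m n k
  have h2 : ∀ᶠ v in 𝓝 u, |v - u| < 1 / 2 := by
    have hcon : Continuous fun v : ℝ => |v - u| := by fun_prop
    refine hcon.continuousAt.eventually (Iio_mem_nhds ?_)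
    simp
  refine Set.disjoint_left.1 (lt_product hf.irr hd (hf.lc σ _ _) ?_) h
  filter_upwards [hf.ev_sg σ, hf.le σ h2] with v h3 h4
  obtain ⟨h5, h6⟩ := abs_lt.1 h4
  have h7 : v - u ≠ 0 := by
    intro h0
    rw [h0, mul_zero] at h3
    exact lt_irrefl _ h3
  have key : ∀ a : ℤ, pt (lp z u m n) (v + (a : ℝ)) ≠ lp z u (m + dx k) (n + dy k) := by
    intro a ha
    rw [← lp_step] at ha
    obtain ⟨c, hc⟩ := pt_eq ha
    have h8 : v - u = (((k.val : ℤ) + 6 * c - a : ℤ) : ℝ) := by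
      push_cast
      linarith
    rw [h8] at h5 h6 h7
    have h9 : (-1 : ℤ) < (k.val : ℤ) + 6 * c - a := by
      have : (-1 : ℝ) < (((k.val : ℤ) + 6 * c - a : ℤ) : ℝ) := by linarith
      exact_mod_cast this
    have h10 : (k.val : ℤ) + 6 * c - a < 1 := by
      have : (((k.val : ℤ) + 6 * c - a : ℤ) : ℝ) < 1 := by linarith
      exact_mod_cast this
    have h11 : (k.val : ℤ) + 6 * c - a = 0 := by omega
    exact h7 (by rw [h11]; simp)
  refine ⟨?_, ?_⟩
  · have := key (j.val : ℤ)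
    simpa using this
  · have := key ((j.val : ℤ) + 3)
    push_cast at this
    rwa [add_assoc]

/-- **F6, F7**, outside: `sgn (j - k) σ₂ = σ` -/
theorem sw_out (hf : Fr U T u F) (h : LT T z u F σ m n k i) (hs : sgn (j - k) σ₂ = σ) :
    ∃ c ≠ i, OUT T z u F σ₂ (m + dx k) (n + dy k) j c := by
  have h1 := hf.sweep_out (m := j) (σ₂ := σ₂) h hs
  rwa [lp_step] at h1

/-- **F6, F7**, inside: `sgn (j - k) σ₂ ≠ σ` -/
theorem sw_in (hf : Fr U T u F) (h : LT T z u F σ m n k i) (hs : sgn (j - k) σ₂ ≠ σ) :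
    ∃ c ≠ i, IN T z u F σ₂ (m + dx k) (n + dy k) j c := by
  have h1 := hf.sweep_inn (m := j) (σ₂ := σ₂) h hs
  rwa [lp_step] at h1

end Fr

end Vale.Agent.P032.H437
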