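import Vale.Agent.P032.H437.Fam

/-!
# P032: the frame for two times (K = 2)

Two times `u`, `u'` with `u < u' < u + 1` (units of 60 degrees), a frame `Fr` at each of them (the
letters at the two times are independent), the points of the lattice of rank 4
`lp2 z u u' m n m' n'`.  The class `c : Bool` of a letter: `false` = time `u`, `true` = time `u'`.
All families at every centre, and the sweep rule between the two classes.
-/

open Set Filter Topology Metric

noncomputable section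

namespace Vale.Agent.P032.H437

open Vale.Agent.P032.Six Vale.Agent.P032.Sweep Vale.Agent.P032.S5.H767 Vale.Agent.P032.S5.H122
  Vale.Agent.P032.H158 Vale.Agent.P032.H782 Vale.Agent.P032.H429

variable {U : Fin 6 → Set ℂ} {T : ℂ → Set (Fin 6)} {z : ℂ} {u u' : ℝ} {F F' : Bool → Ultrafilter ℝ}

namespace Fr

/-! ### The families at an arbitrary centre -/

theorem memb_w (hf : Fr U T u F) {σ : Bool} {w : ℂ} {j i : Fin 6}
    (h : i ∈ lt (F σ) T w (j.val : ℝ)) : i ∈ T (pt w (u + (j.val : ℝ))) :=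
  lt_sub hf.irr (hf.le σ) h

theorem side_w (hf : Fr U T u F) {σ : Bool} {w : ℂ} {j i : Fin 6}
    (h : i ∈ lt (F σ) T w (j.val : ℝ)) :
    Inn (F σ) T w (j.val : ℝ) i ∨ Out (F σ) T w (j.val : ℝ) i := by
  by_cases h2 : ∃ c, c ∈ lt (F σ) T w (j.val : ℝ) ∧ i ≠ c
  · obtain ⟨c, h3, h4⟩ := h2
    exact inn_or_out hf.irr (hf.lc σ _ _) h h3 h4
  · push Not at h2
    obtain ⟨c, hc⟩ := exists_inn (F := F σ) hf.irr w (j.val : ℝ)
    have h3 := h2 c (hc.mem hf.irr)
    left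
    rw [h3]
    exact hc

theorem sixty_w (hf : Fr U T u F) {σ : Bool} {w : ℂ} {j i : Fin 6}
    (h : i ∈ lt (F σ) T w (j.val : ℝ)) : i ∉ lt (F σ) T w ((j + 1 : Fin 6).val : ℝ) := by
  have h1 := lt_sixty hf.irr (hf.lc σ w (j.val : ℝ))
  rw [lt_fin_add]
  show ¬ i ∈ lt (F σ) T w ((j.val : ℝ) + ((1 : ℕ) : ℝ))
  rw [Nat.cast_one]
  exact Set.disjoint_left.1 h1 h

theorem product_w (hf : Fr U T u F) {σ : Bool} {w y : ℂ} {j i : Fin 6} (hy : dist w y = 1)
    (hyk : ∀ a : ℤ, ∀ᶠ v in (F σ : Filter ℝ), pt w (v + (a : ℝ)) ≠ y)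
    (h : i ∈ lt (F σ) T w (j.val : ℝ)) : i ∉ lt (F σ) T y (j.val : ℝ) := by
  refine Set.disjoint_left.1 (lt_product hf.irr hy (hf.lc σ _ _) ?_) h
  filter_upwards [hyk (j.val : ℤ), hyk ((j.val : ℤ) + 3)] with v h1 h2
  refine ⟨?_, ?_⟩
  · simpa using h1
  · push_cast at h2
    rwa [add_assoc]

/-- the neighbours at the time of the frame -/
theorem ne_slot (hf : Fr U T u F) (σ : Bool) (w : ℂ) (k : Fin 6) (a : ℤ) :
    ∀ᶠ v in (F σ : Filter ℝ), pt w (v + (a : ℝ)) ≠ pt w (u + (k.val : ℝ)) := by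
  have h2 : ∀ᶠ v in 𝓝 u, |v - u| < 1 / 2 := by
    have hcon : Continuous fun v : ℝ => |v - u| := by fun_prop
    refine hcon.continuousAt.eventually (Iio_mem_nhds ?_)
    simp
  filter_upwards [hf.ev_sg σ, hf.le σ h2] with v h3 h4 ha
  obtain ⟨h5, h6⟩ := abs_lt.1 h4
  have h7 : v - u ≠ 0 := by
    intro h0
    rw [h0, mul_zero] at h3
    exact lt_irrefl _ h3
  obtain ⟨c, hc⟩ := pt_eq ha
  have h8 : v - u = (((k.val : ℤ) + 6 * c - a : ℤ) : ℝ) := by
    push_cast
    linarith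
  rw [h8] at h5 h6 h7
  have h9 : (-1 : ℤ) < (k.val : ℤ) + 6 * c - a := by
    have : (-1 : ℝ) < (((k.val : ℤ) + 6 * c - a : ℤ) : ℝ) := by linarith
    exact_mod_cast this
  have h10 : (k.val : ℤ) + 6 * c - a < 1 := by
    have : (((k.val : ℤ) + 6 * c - a : ℤ) : ℝ) < 1 := by linarith
    exact_mod_cast this
  have h11 : (k.val : ℤ) + 6 * c - a = 0 := by omega
  exact h7 (by rw [h11]; simp)

/-- the neighbours at another time -/
theorem ne_slot' (hf : Fr U T u F) (σ : Bool) (w : ℂ) {b : ℝ} (hb : ∀ n : ℤ, b ≠ u + n) (a : ℤ) :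
    ∀ᶠ v in (F σ : Filter ℝ), pt w (v + (a : ℝ)) ≠ pt w b := by
  have h1 := tendsto_slot (hf.le σ) w (a : ℝ)
  refine h1.eventually (isOpen_ne.mem_nhds ?_)
  intro h2
  obtain ⟨c, hc⟩ := pt_eq h2
  refine hb (a - 6 * c) ?_
  push_cast
  linarith

/-- **F9** at the time of the frame -/
theorem product_slot (hf : Fr U T u F) {σ : Bool} {w : ℂ} {j i : Fin 6} (k : Fin 6)
    (h : i ∈ lt (F σ) T w (j.val : ℝ)) :
    i ∉ lt (F σ) T (pt w (u + (k.val : ℝ))) (j.val : ℝ) := by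
  refine hf.product_w (by rw [dist_comm]; exact dist_pt _ _) (fun a => hf.ne_slot σ w k a) h

/-- **F9** for a neighbour at another time -/
theorem product_slot' (hf : Fr U T u F) {σ : Bool} {w : ℂ} {j i : Fin 6} {b : ℝ}
    (hb : ∀ n : ℤ, b ≠ u + n) (h : i ∈ lt (F σ) T w (j.val : ℝ)) :
    i ∉ lt (F σ) T (pt w b) (j.val : ℝ) := by
  refine hf.product_w (by rw [dist_comm]; exact dist_pt _ _) (fun a => hf.ne_slot' σ w hb a) h

/-! ### The sweep between two frames -/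

theorem cross_real (hf : Fr U T u F) {σ : Bool} (G : Ultrafilter ℝ) {w : ℂ} {k m : ℝ} {i : Fin 6}
    (hi : i ∈ lt (F σ) T w k) :
    ((∀ᶠ v in (G : Filter ℝ), 0 < sg σ * Real.sin ((v + m - (u + k)) * (Real.pi / 3))) →
      ∃ j ≠ i, Out G T (pt w (u + k)) m j) ∧
    ((∀ᶠ v in (G : Filter ℝ), sg σ * Real.sin ((v + m - (u + k)) * (Real.pi / 3)) < 0) →
      ∃ j ≠ i, Inn G T (pt w (u + k)) m j) := by
  have hl : Filter.map (fun v : ℝ => v + k) (F σ : Filter ℝ) ≤ 𝓝 (u + k) := by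
    have hc : Continuous fun v : ℝ => v + k := by fun_prop
    exact (hc.tendsto u).mono_left (hf.le σ)
  have hi' : ∃ᶠ v in Filter.map (fun v : ℝ => v + k) (F σ : Filter ℝ), i ∈ T (pt w v) := by
    rw [frequently_map]
    have hi : ∀ᶠ v in (F σ : Filter ℝ), i ∈ T (pt w (v + k)) := hi
    exact hi.frequently
  have hc : ∀ᶠ v in Filter.map (fun v : ℝ => v + k) (F σ : Filter ℝ), 0 < sg σ * (v - (u + k)) := by
    rw [eventually_map]
    filter_upwards [hf.ev_sg σ] with v hv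
    rwa [show v + k - (u + k) = v - u by ring]
  constructor
  · intro hs
    refine uf_exists (F := G) (hs.mono fun v hv => ?_)
    refine sweep_pt hf.irr hl hi' (isOpen_lt continuous_const (continuous_id.dist
      continuous_const)) ?_
    filter_upwards [side_ev (w := w) hl hc hv.ne'] with v' hv'
    show 1 < dist _ _
    have h1 := (mul_pos_iff_of_pos_left hv).1 hv'
    exact (sq_lt dist_nonneg).2.2 h1
  · intro hs
    refine uf_exists (F := G) (hs.mono fun v hv => ?_)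
    refine sweep_pt hf.irr hl hi' (isOpen_lt (continuous_id.dist
      continuous_const) continuous_const) ?_
    filter_upwards [side_ev (w := w) hl hc hv.ne] with v' hv'
    show dist _ _ < 1
    have h1 := (neg_iff_neg_of_mul_pos hv').1 hv
    exact (sq_lt dist_nonneg).1.2 h1

end Fr

/-- the sign of `sin (60 (d + θ))`, `0 < θ < 1` -/
def sgc (d : Fin 6) : Bool := ![true, true, true, false, false, false] d

/-- the sign of `sin (60 (d - θ))`, `0 < θ < 1` -/
def sgd (d : Fin 6) : Bool := ![false, true, true, true, false, false] d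

theorem sin_c {x : ℝ} (h0 : 0 < x) (h1 : x < 1) (d : Fin 6) :
    0 < sg (sgc d) * Real.sin ((x + (d.val : ℝ)) * (Real.pi / 3)) := by
  have hp := Real.pi_pos
  have pos : ∀ y : ℝ, 0 < y → y < 3 → 0 < Real.sin (y * (Real.pi / 3)) := fun y hy hy3 =>
    Real.sin_pos_of_pos_of_lt_pi (by positivity) (by nlinarith)
  have neg : ∀ y : ℝ, 0 < y → y < 3 → Real.sin ((y + 3) * (Real.pi / 3)) < 0 := by
    intro y hy hy3
    have e : (y + 3) * (Real.pi / 3) = y * (Real.pi / 3) + Real.pi := by ring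
    rw [e, Real.sin_add_pi]
    linarith [pos y hy hy3]
  fin_cases d
  · show 0 < (1 : ℝ) * Real.sin ((x + ((0 : ℕ) : ℝ)) * (Real.pi / 3))
    rw [Nat.cast_zero, one_mul]
    exact pos _ (by linarith) (by linarith)
  · show 0 < (1 : ℝ) * Real.sin ((x + ((1 : ℕ) : ℝ)) * (Real.pi / 3))
    rw [Nat.cast_one, one_mul]
    exact pos _ (by linarith) (by linarith)
  · show 0 < (1 : ℝ) * Real.sin ((x + ((2 : ℕ) : ℝ)) * (Real.pi / 3))
    rw [one_mul]
    push_cast
    exact pos _ (by linarith) (by linarith)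
  · show 0 < (-1 : ℝ) * Real.sin ((x + ((3 : ℕ) : ℝ)) * (Real.pi / 3))
    have := neg x h0 (by linarith)
    push_cast
    linarith
  · show 0 < (-1 : ℝ) * Real.sin ((x + ((4 : ℕ) : ℝ)) * (Real.pi / 3))
    have := neg (x + 1) (by linarith) (by linarith)
    rw [show x + 1 + 3 = x + ((4 : ℕ) : ℝ) by push_cast; ring] at this
    linarith
  · show 0 < (-1 : ℝ) * Real.sin ((x + ((5 : ℕ) : ℝ)) * (Real.pi / 3))
    have := neg (x + 2) (by linarith) (by linarith)
    rw [show x + 2 + 3 = x + ((5 : ℕ) : ℝ) by push_cast; ring] at this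
    linarith

theorem sgd_eq (d : Fin 6) : sgd d = sgc (d - 1) := by
  revert d; decide

theorem sin_dd {x : ℝ} (h0 : 0 < x) (h1 : x < 1) (d : Fin 6) :
    0 < sg (sgd d) * Real.sin ((-x + (d.val : ℝ)) * (Real.pi / 3)) := by
  obtain ⟨n, hn⟩ := fin_sub_cast 1 d
  have h2 := sin_c (x := 1 - x) (by linarith) (by linarith) (d - 1)
  rw [← sgd_eq] at h2
  have e : (-x + (d.val : ℝ)) * (Real.pi / 3) =
      (1 - x + ((d - 1 : Fin 6).val : ℝ)) * (Real.pi / 3) + n * (2 * Real.pi) := by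
    have h3 : (d.val : ℝ) - ((1 : ℕ) : ℝ) = ((d - 1 : Fin 6).val : ℝ) + 6 * n := hn
    rw [Nat.cast_one] at h3
    have : -x + (d.val : ℝ) = 1 - x + ((d - 1 : Fin 6).val : ℝ) + 6 * n := by linarith
    rw [this]; ring
  rw [e, Real.sin_add_int_mul_two_pi]
  exact h2

namespace Fr

theorem cross_aux (hf : Fr U T u F) (hg : Fr U T u' F') {σ σ₂ : Bool} {w : ℂ} {k m i : Fin 6}
    {s : Fin 6 → Bool} {x : ℝ} (hx : u' - u = x)
    (hs : ∀ᶠ y in 𝓝 x, 0 < sg (s (m - k)) *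
      Real.sin ((y + ((m - k : Fin 6).val : ℝ)) * (Real.pi / 3)))
    (hi : i ∈ lt (F σ) T w (k.val : ℝ)) :
    (s (m - k) = σ → ∃ j ≠ i, Out (F' σ₂) T (pt w (u + (k.val : ℝ))) (m.val : ℝ) j) ∧
    (s (m - k) ≠ σ → ∃ j ≠ i, Inn (F' σ₂) T (pt w (u + (k.val : ℝ))) (m.val : ℝ) j) := by
  obtain ⟨n, hn⟩ := fin_sub_cast k m
  have h1 : Tendsto (fun v : ℝ => v - u) (F' σ₂ : Filter ℝ) (𝓝 x) := by
    have hc : Continuous fun v : ℝ => v - u := by fun_prop
    rw [← hx]
    exact (hc.tendsto u').mono_left (hg.le σ₂)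
  have h2 : ∀ᶠ v in (F' σ₂ : Filter ℝ), 0 < sg (s (m - k)) *
      Real.sin ((v + (m.val : ℝ) - (u + (k.val : ℝ))) * (Real.pi / 3)) := by
    filter_upwards [h1.eventually hs] with v hv
    have e : (v + (m.val : ℝ) - (u + (k.val : ℝ))) * (Real.pi / 3) =
        (v - u + ((m - k : Fin 6).val : ℝ)) * (Real.pi / 3) + n * (2 * Real.pi) := by
      have : v + (m.val : ℝ) - (u + (k.val : ℝ)) = v - u + ((m - k : Fin 6).val : ℝ) + 6 * n := by
        linarith
      rw [this]; ring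
    rw [e, Real.sin_add_int_mul_two_pi]
    exact hv
  constructor
  · intro h3
    refine (hf.cross_real (F' σ₂) hi).1 ?_
    rw [h3] at h2
    exact h2
  · intro h3
    refine (hf.cross_real (F' σ₂) hi).2 ?_
    have h4 : sg (s (m - k)) = -sg σ := by
      revert h3
      cases s (m - k) <;> cases σ <;> simp [sg]
    rw [h4] at h2
    filter_upwards [h2] with v hv
    linarith

theorem ev_pos {s : ℝ} {d : ℝ} {x : ℝ} (h : 0 < s * Real.sin ((x + d) * (Real.pi / 3))) :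
    ∀ᶠ y in 𝓝 x, 0 < s * Real.sin ((y + d) * (Real.pi / 3)) := by
  have hc : Continuous fun y : ℝ => s * Real.sin ((y + d) * (Real.pi / 3)) := by fun_prop
  exact hc.continuousAt.eventually (Ioi_mem_nhds h)

/-- **the sweep from the class `u` to the class `u'`**, `u < u' < u + 1` -/
theorem cross_up (hf : Fr U T u F) (hg : Fr U T u' F') (h0 : u < u') (h1 : u' < u + 1)
    {σ : Bool} (σ₂ : Bool) {w : ℂ} {k m i : Fin 6} (hi : i ∈ lt (F σ) T w (k.val : ℝ)) :
    (sgc (m - k) = σ → ∃ j ≠ i, Out (F' σ₂) T (pt w (u + (k.val : ℝ))) (m.val : ℝ) j) ∧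
    (sgc (m - k) ≠ σ → ∃ j ≠ i, Inn (F' σ₂) T (pt w (u + (k.val : ℝ))) (m.val : ℝ) j) :=
  hf.cross_aux hg (x := u' - u) rfl (ev_pos (sin_c (by linarith) (by linarith) (m - k))) hi

/-- **the sweep from the class `u'` to the class `u`**, `u < u' < u + 1` -/
theorem cross_down (hf : Fr U T u F) (hg : Fr U T u' F') (h0 : u < u') (h1 : u' < u + 1)
    {σ : Bool} (σ₂ : Bool) {w : ℂ} {k m i : Fin 6} (hi : i ∈ lt (F' σ) T w (k.val : ℝ)) :
    (sgd (m - k) = σ → ∃ j ≠ i, Out (F σ₂) T (pt w (u' + (k.val : ℝ))) (m.val : ℝ) j) ∧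
    (sgd (m - k) ≠ σ → ∃ j ≠ i, Inn (F σ₂) T (pt w (u' + (k.val : ℝ))) (m.val : ℝ) j) :=
  hg.cross_aux hf (x := -(u' - u)) (by ring)
    (ev_pos (sin_dd (x := u' - u) (by linarith) (by linarith) (m - k))) hi

end Fr

/-! ### The lattice of rank 4 -/

/-- the points of the lattice of rank 4 -/
def lp2 (z : ℂ) (u u' : ℝ) (m n m' n' : ℤ) : ℂ := lp (lp z u m n) u' m' n'

theorem lp2_step' (z : ℂ) (u u' : ℝ) (m n m' n' : ℤ) (j : Fin 6) :
    pt (lp2 z u u' m n m' n') (u' + (j.val : ℝ)) = lp2 z u u' m n (m' + dx j) (n' + dy j) :=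
  lp_step _ _ _ _ _

theorem lp2_step (z : ℂ) (u u' : ℝ) (m n m' n' : ℤ) (j : Fin 6) :
    pt (lp2 z u u' m n m' n') (u + (j.val : ℝ)) = lp2 z u u' (m + dx j) (n + dy j) m' n' := by
  have h1 := lp_step z u m n j
  unfold pt at h1
  unfold pt lp2
  have e : ∀ x : ℂ, lp x u' m' n' = x + (lp 0 u' m' n') := by
    intro x; unfold lp; ring
  rw [e (lp z u m n), e (lp z u (m + dx j) (n + dy j)), ← h1]
  ring

end Vale.Agent.P032.H437
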