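import Vale.Agent.P032.H437.Fr2
import Vale.Agent.P032.H183.Dj

/-!
# P032: the strong sweeps between two times (K = 2), rank 4 lattice

`Fr.up_out`, `Fr.up_inn` : from the letters at the time `u` to the letters at the time `u'`,
`Fr.down_out`, `Fr.down_inn` : from `u'` to `u`; `u < u' < u + 1`.  A colour outside the whole limit
palette occurs outside (inside).
-/

open Set Filter Topology Metric

noncomputable section

namespace Vale.Agent.P032.H437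

open Vale.Agent.P032.Six Vale.Agent.P032.Sweep Vale.Agent.P032.S5.H767 Vale.Agent.P032.S5.H122
  Vale.Agent.P032.H158 Vale.Agent.P032.H782 Vale.Agent.P032.H429 Vale.Agent.P032.H183

variable {U : Fin 6 → Set ℂ} {T : ℂ → Set (Fin 6)} {z : ℂ} {u u' : ℝ} {F F' : Bool → Ultrafilter ℝ}

namespace Fr

/-- the strong sweep with the sign as a hypothesis -/
theorem sweepS (hf : Fr U T u F) {σ : Bool} (G : Ultrafilter ℝ) (w : ℂ) {k m : ℝ} {b : Bool}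
    (hb : ∀ᶠ v in (G : Filter ℝ), 0 < sg b * Real.sin ((v - u + m - k) * (Real.pi / 3))) :
    (b = σ → ∃ j, j ∉ lt (F σ) T w k ∧ Out G T (pt w (u + k)) m j) ∧
    (b ≠ σ → ∃ j, j ∉ lt (F σ) T w k ∧ Inn G T (pt w (u + k)) m j) := by
  have hσ : sg σ = 1 ∨ sg σ = -1 := by cases σ <;> simp [sg]
  constructor
  · intro h3
    rw [h3] at hb
    exact dj_out hf.irr (hf.le σ) hσ (hf.ev_sg σ) (hf.lc σ w _) hb
  · intro h3
    have h4 : sg b = -sg σ := by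
      revert h3
      cases b <;> cases σ <;> simp [sg]
    rw [h4] at hb
    exact dj_inn hf.irr (hf.le σ) hσ (hf.ev_sg σ) (hf.lc σ w _) (hb.mono fun v hv => by linarith)

theorem crossS_aux (hf : Fr U T u F) (hg : Fr U T u' F') {σ : Bool} (σ₂ : Bool) (w : ℂ)
    {k m : Fin 6} {s : Fin 6 → Bool} {x : ℝ} (hx : u' - u = x)
    (hs : ∀ᶠ y in 𝓝 x, 0 < sg (s (m - k)) *
      Real.sin ((y + ((m - k : Fin 6).val : ℝ)) * (Real.pi / 3))) :
    (s (m - k) = σ → ∃ j, j ∉ lt (F σ) T w (k.val : ℝ) ∧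
      Out (F' σ₂) T (pt w (u + (k.val : ℝ))) (m.val : ℝ) j) ∧
    (s (m - k) ≠ σ → ∃ j, j ∉ lt (F σ) T w (k.val : ℝ) ∧
      Inn (F' σ₂) T (pt w (u + (k.val : ℝ))) (m.val : ℝ) j) := by
  obtain ⟨n, hn⟩ := fin_sub_cast k m
  have h1 : Tendsto (fun v : ℝ => v - u) (F' σ₂ : Filter ℝ) (𝓝 x) := by
    have hc : Continuous fun v : ℝ => v - u := by fun_prop
    rw [← hx]
    exact (hc.tendsto u').mono_left (hg.le σ₂)
  refine hf.sweepS (F' σ₂) w ?_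
  filter_upwards [h1.eventually hs] with v hv
  have e : (v - u + (m.val : ℝ) - (k.val : ℝ)) * (Real.pi / 3) =
      (v - u + ((m - k : Fin 6).val : ℝ)) * (Real.pi / 3) + n * (2 * Real.pi) := by
    have : v - u + (m.val : ℝ) - (k.val : ℝ) = v - u + ((m - k : Fin 6).val : ℝ) + 6 * n := by
      linarith
    rw [this]; ring
  rw [e, Real.sin_add_int_mul_two_pi]
  exact hv

/-- the strong sweep inside one class, any centre -/
theorem same_w (hf : Fr U T u F) (σ σ₂ : Bool) (w : ℂ) (k m : Fin 6) :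
    (sgn (m - k) σ₂ = σ → ∃ j, j ∉ lt (F σ) T w (k.val : ℝ) ∧
      Out (F σ₂) T (pt w (u + (k.val : ℝ))) (m.val : ℝ) j) ∧
    (sgn (m - k) σ₂ ≠ σ → ∃ j, j ∉ lt (F σ) T w (k.val : ℝ) ∧
      Inn (F σ₂) T (pt w (u + (k.val : ℝ))) (m.val : ℝ) j) := by
  refine hf.sweepS (F σ₂) w ?_
  filter_upwards [hf.ev_sgn σ₂ k m] with v hv
  rwa [show v - u + (m.val : ℝ) - (k.val : ℝ) = v + (m.val : ℝ) - (u + (k.val : ℝ)) by ring]

/-- the strong sweep from `u` to `u'`, any centre -/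
theorem up_w (hf : Fr U T u F) (hg : Fr U T u' F') (h0 : u < u') (h1 : u' < u + 1)
    (σ σ₂ : Bool) (w : ℂ) (k m : Fin 6) :
    (sgc (m - k) = σ → ∃ j, j ∉ lt (F σ) T w (k.val : ℝ) ∧
      Out (F' σ₂) T (pt w (u + (k.val : ℝ))) (m.val : ℝ) j) ∧
    (sgc (m - k) ≠ σ → ∃ j, j ∉ lt (F σ) T w (k.val : ℝ) ∧
      Inn (F' σ₂) T (pt w (u + (k.val : ℝ))) (m.val : ℝ) j) :=
  hf.crossS_aux hg σ₂ w (x := u' - u) rfl
    (ev_pos (sin_c (by linarith) (by linarith) (m - k)))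

/-- the strong sweep from `u'` to `u`, any centre -/
theorem down_w (hf : Fr U T u F) (hg : Fr U T u' F') (h0 : u < u') (h1 : u' < u + 1)
    (σ σ₂ : Bool) (w : ℂ) (k m : Fin 6) :
    (sgd (m - k) = σ → ∃ j, j ∉ lt (F' σ) T w (k.val : ℝ) ∧
      Out (F σ₂) T (pt w (u' + (k.val : ℝ))) (m.val : ℝ) j) ∧
    (sgd (m - k) ≠ σ → ∃ j, j ∉ lt (F' σ) T w (k.val : ℝ) ∧
      Inn (F σ₂) T (pt w (u' + (k.val : ℝ))) (m.val : ℝ) j) :=
  hg.crossS_aux hf σ₂ w (x := -(u' - u)) (by ring)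
    (ev_pos (sin_dd (x := u' - u) (by linarith) (by linarith) (m - k)))

end Fr

/-! ### Rank 4 -/

/-- the data of the two classes: time, ultrafilters, lattice step -/
def uu (u u' : ℝ) (c : Bool) : ℝ := cond c u' u
def FF (F F' : Bool → Ultrafilter ℝ) (c : Bool) : Bool → Ultrafilter ℝ := cond c F' F

/-- a step of the class `c` in the rank 4 lattice -/
def st4 (c : Bool) (q : ℤ × ℤ × ℤ × ℤ) (j : Fin 6) : ℤ × ℤ × ℤ × ℤ :=
  cond c (q.1, q.2.1, q.2.2.1 + dx j, q.2.2.2 + dy j) (q.1 + dx j, q.2.1 + dy j, q.2.2.1, q.2.2.2)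

/-- the points of the rank 4 lattice -/
def l4 (z : ℂ) (u u' : ℝ) (q : ℤ × ℤ × ℤ × ℤ) : ℂ := lp2 z u u' q.1 q.2.1 q.2.2.1 q.2.2.2

theorem l4_zero (z : ℂ) (u u' : ℝ) : l4 z u u' (0, 0, 0, 0) = z := by
  unfold l4 lp2
  simp only [lp_zero]

theorem l4_step (z : ℂ) (u u' : ℝ) (q : ℤ × ℤ × ℤ × ℤ) (c : Bool) (j : Fin 6) :
    pt (l4 z u u' q) (uu u u' c + (j.val : ℝ)) = l4 z u u' (st4 c q j) := by
  cases c
  · exact lp2_step z u u' _ _ _ _ j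
  · exact lp2_step' z u u' _ _ _ _ j

theorem dist_l4 (z : ℂ) (u u' : ℝ) (q : ℤ × ℤ × ℤ × ℤ) (c : Bool) (j : Fin 6) :
    dist (l4 z u u' (st4 c q j)) (l4 z u u' q) = 1 := by
  rw [← l4_step]; exact dist_pt _ _

/-- the atoms -/
def T4 (T : ℂ → Set (Fin 6)) (z : ℂ) (u u' : ℝ) (q : ℤ × ℤ × ℤ × ℤ) (i : Fin 6) : Prop :=
  i ∈ T (l4 z u u' q)

def L4 (T : ℂ → Set (Fin 6)) (z : ℂ) (u u' : ℝ) (F F' : Bool → Ultrafilter ℝ) (c σ : Bool)
    (q : ℤ × ℤ × ℤ × ℤ) (j i : Fin 6) : Prop := i ∈ lt (FF F F' c σ) T (l4 z u u' q) (j.val : ℝ)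

def I4 (T : ℂ → Set (Fin 6)) (z : ℂ) (u u' : ℝ) (F F' : Bool → Ultrafilter ℝ) (c σ : Bool)
    (q : ℤ × ℤ × ℤ × ℤ) (j i : Fin 6) : Prop := Inn (FF F F' c σ) T (l4 z u u' q) (j.val : ℝ) i

def O4 (T : ℂ → Set (Fin 6)) (z : ℂ) (u u' : ℝ) (F F' : Bool → Ultrafilter ℝ) (c σ : Bool)
    (q : ℤ × ℤ × ℤ × ℤ) (j i : Fin 6) : Prop := Out (FF F F' c σ) T (l4 z u u' q) (j.val : ℝ) i

/-- **the frame for two times** -/
structure Fr2 (U : Fin 6 → Set ℂ) (T : ℂ → Set (Fin 6)) (u u' : ℝ) (F F' : Bool → Ultrafilter ℝ) :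
    Prop where
  a : Fr U T u F
  b : Fr U T u' F'
  lt0 : u < u'
  lt1 : u' < u + 1

/-- the sign of the sweep from the class `c` to the class `c'` (`true` = out) -/
def sg4 (c c' : Bool) (d : Fin 6) (σ₂ : Bool) : Bool :=
  if c = c' then sgn d σ₂ else if c' then sgc d else sgd d

namespace Fr2

variable {c c' σ σ₂ : Bool} {q : ℤ × ℤ × ℤ × ℤ} {i j k : Fin 6}

theorem fr (h : Fr2 U T u u' F F') (c : Bool) : Fr U T (uu u u' c) (FF F F' c) := by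
  cases c
  · exact h.a
  · exact h.b

theorem memb (h : Fr2 U T u u' F F') (hl : L4 T z u u' F F' c σ q j i) :
    T4 T z u u' (st4 c q j) i := by
  have h1 := (h.fr c).memb_w hl
  rwa [l4_step] at h1

theorem ne_in (h : Fr2 U T u u' F F') (z : ℂ) (c σ : Bool) (q : ℤ × ℤ × ℤ × ℤ) (j : Fin 6) :
    ∃ i, I4 T z u u' F F' c σ q j i := exists_inn h.a.irr _ _

theorem ne_out (h : Fr2 U T u u' F F') (z : ℂ) (c σ : Bool) (q : ℤ × ℤ × ℤ × ℤ) (j : Fin 6) :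
    ∃ i, O4 T z u u' F F' c σ q j i := exists_out h.a.irr _ _

theorem in_let (h : Fr2 U T u u' F F') (hi : I4 T z u u' F F' c σ q j i) :
    L4 T z u u' F F' c σ q j i := Inn.mem h.a.irr hi

theorem out_let (h : Fr2 U T u u' F F') (hi : O4 T z u u' F F' c σ q j i) :
    L4 T z u u' F F' c σ q j i := Out.mem h.a.irr hi

theorem let_side (h : Fr2 U T u u' F F') (hl : L4 T z u u' F F' c σ q j i) :
    I4 T z u u' F F' c σ q j i ∨ O4 T z u u' F F' c σ q j i := (h.fr c).side_w hl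

theorem sixty (h : Fr2 U T u u' F F') (hl : L4 T z u u' F F' c σ q j i) :
    ¬ L4 T z u u' F F' c σ q (j + 1) i := (h.fr c).sixty_w hl

/-- `u' ≠ u + n` and `u ≠ u' + n` -/
theorem gen (h : Fr2 U T u u' F F') {c c' : Bool} (hc : c' ≠ c) (k : Fin 6) (n : ℤ) :
    uu u u' c' + (k.val : ℝ) ≠ uu u u' c + n := by
  have h0 := h.lt0
  have h1 := h.lt1
  have key : ∀ a : ℤ, u' - u ≠ (a : ℝ) := by
    intro a ha
    have h2 : (0 : ℝ) < (a : ℝ) := by linarith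
    have h3 : (a : ℝ) < 1 := by linarith
    have h4 : (0 : ℤ) < a := by exact_mod_cast h2
    have h5 : a < 1 := by exact_mod_cast h3
    omega
  intro h2
  cases c <;> cases c'
  · exact hc rfl
  · have h2 : u' + (k.val : ℝ) = u + n := h2
    refine key (n - (k.val : ℤ)) ?_
    push_cast
    linarith
  · have h2 : u + (k.val : ℝ) = u' + n := h2
    refine key ((k.val : ℤ) - n) ?_
    push_cast
    linarith
  · exact hc rfl

/-- **F9** : the neighbour may be of any class -/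
theorem product (h : Fr2 U T u u' F F') (c' : Bool) (k : Fin 6)
    (hl : L4 T z u u' F F' c σ q j i) : ¬ L4 T z u u' F F' c σ (st4 c' q k) j i := by
  unfold L4
  rw [← l4_step]
  by_cases hc : c' = c
  · rw [hc]
    exact (h.fr c).product_slot k hl
  · exact (h.fr c).product_slot' (fun n => h.gen hc k n) hl

/-- **the strong sweep**, between any two classes -/
theorem sweep (h : Fr2 U T u u' F F') (z : ℂ) (c c' σ σ₂ : Bool) (q : ℤ × ℤ × ℤ × ℤ)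
    (k j : Fin 6) :
    (sg4 c c' (j - k) σ₂ = σ → ∃ i, ¬ L4 T z u u' F F' c σ q k i ∧
      O4 T z u u' F F' c' σ₂ (st4 c q k) j i) ∧
    (sg4 c c' (j - k) σ₂ ≠ σ → ∃ i, ¬ L4 T z u u' F F' c σ q k i ∧
      I4 T z u u' F F' c' σ₂ (st4 c q k) j i) := by
  unfold L4 O4 I4
  rw [← l4_step]
  cases c <;> cases c'
  · exact h.a.same_w σ σ₂ _ k j
  · exact h.a.up_w h.b h.lt0 h.lt1 σ σ₂ _ k j
  · exact h.a.down_w h.b h.lt0 h.lt1 σ σ₂ _ k j
  · exact h.b.same_w σ σ₂ _ k j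

end Fr2

/-! ### Existence -/

theorem exists_fr2_of (h : Irr U T) (h0 : u < u') (h1 : u' < u + 1) {A A' B B' : Set ℝ}
    (hA : ∃ᶠ v in 𝓝[<] u, ∀ᶠ v' in 𝓝 v, v' ∈ A) (hA' : ∃ᶠ v in 𝓝[>] u, ∀ᶠ v' in 𝓝 v, v' ∈ A')
    (hB : ∃ᶠ v in 𝓝[<] u', ∀ᶠ v' in 𝓝 v, v' ∈ B)
    (hB' : ∃ᶠ v in 𝓝[>] u', ∀ᶠ v' in 𝓝 v, v' ∈ B') :
    ∃ F F' : Bool → Ultrafilter ℝ, Fr2 U T u u' F F' ∧ A ∈ F false ∧ A' ∈ F true ∧
      B ∈ F' false ∧ B' ∈ F' true := by
  obtain ⟨F, hF, h2, h3⟩ := exists_fr_of h hA hA'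
  obtain ⟨F', hF', h4, h5⟩ := exists_fr_of h hB hB'
  exact ⟨F, F', ⟨hF, hF', h0, h1⟩, h2, h3, h4, h5⟩

end Vale.Agent.P032.H437
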