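import Vale.Agent.P032.H437.Fr2s
import Vale.Agent.P032.H617.TLat2
import Vale.Agent.P032.H724.MDeg

/-!
# P032: the letters-only rule set for two times (K = 2)

`LO2 TT LT IN OUT MM` : all families which do not speak of windows, for two classes of slots, as
statements on the points `q` of the lattice of rank 4.
`lo2_of_fr2` : the frame `Fr2` gives `LO2` for the atoms `T4`, `L4`, `I4`, `O4`, `M4`.
-/

open Set Filter Topology Metric

noncomputable section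

namespace Vale.Agent.P032.H437

open Vale.Agent.P032.Six Vale.Agent.P032.Sweep Vale.Agent.P032.S5.H767 Vale.Agent.P032.S5.H122
  Vale.Agent.P032.H158 Vale.Agent.P032.H782 Vale.Agent.P032.H429 Vale.Agent.P032.H183
  Vale.Agent.P032.H605 Vale.Agent.P032.H617 Vale.Agent.P032.H724

/-- the points -/
abbrev Q4 := ℤ × ℤ × ℤ × ℤ

/-- the number of colours at a point is at least `n` -/
def GE4 (TT : Q4 → Fin 6 → Prop) (q : Q4) (n : ℕ) : Prop := n ≤ {i | TT q i}.ncard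

/-- **The rules (without windows)** -/
structure LO2 (TT : Q4 → Fin 6 → Prop) (LT IN OUT : Bool → Bool → Q4 → Fin 6 → Fin 6 → Prop)
    (MM : Q4 → Fin 6 → Fin 6 → Prop) : Prop where
  memb : ∀ {c σ q j i}, LT c σ q j i → TT (st4 c q j) i
  neI : ∀ c σ q j, ∃ i, IN c σ q j i
  neO : ∀ c σ q j, ∃ i, OUT c σ q j i
  IL : ∀ {c σ q j i}, IN c σ q j i → LT c σ q j i
  OL : ∀ {c σ q j i}, OUT c σ q j i → LT c σ q j i
  LIO : ∀ {c σ q j i}, LT c σ q j i → IN c σ q j i ∨ OUT c σ q j i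
  pair : ∀ {c σ q j i}, LT c σ q j i → TT q i → ∃ i', i' ≠ i ∧ LT c σ q j i'
  sub4 : ∀ c σ q j, GE4 TT q 4 ∨ ∃ i, LT c σ q j i ∧ ¬ TT q i
  defM : ∀ {c σ q j a b}, a ≠ b → LT c σ q j a → LT c σ q j b → TT q a → TT q b →
    MM q a b ∨ ∃ d, d ≠ a ∧ d ≠ b ∧ LT c σ q j d
  symM : ∀ {q a b}, MM q a b → MM q b a
  swO : ∀ (c c' σ σ₂ : Bool) (q : Q4) (k j : Fin 6), sg4 c c' (j - k) σ₂ = σ →
    ∃ i, ¬ LT c σ q k i ∧ OUT c' σ₂ (st4 c q k) j i
  swI : ∀ (c c' σ σ₂ : Bool) (q : Q4) (k j : Fin 6), sg4 c c' (j - k) σ₂ ≠ σ →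
    ∃ i, ¬ LT c σ q k i ∧ IN c' σ₂ (st4 c q k) j i
  sixty : ∀ {c σ q j i}, LT c σ q j i → ¬ LT c σ q (j + 1) i
  product : ∀ (c' : Bool) (k : Fin 6) {c σ q j i}, LT c σ q j i → ¬ LT c σ (st4 c' q k) j i
  m4 : ∀ {q i a b}, ¬ GE4 TT q 5 → MM q i a → MM q i b → a = b
  m5 : ∀ {q i a b c}, ¬ GE4 TT q 6 → a ≠ b → a ≠ c → b ≠ c → MM q i a → MM q i b → MM q i c → False
  m6 : ∀ {q i a b c d}, a ≠ b → a ≠ c → a ≠ d → b ≠ c → b ≠ d → c ≠ d → MM q i a → MM q i b →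
    MM q i c → MM q i d → False
  c5 : ∀ {q a b c d}, ¬ GE4 TT q 6 → a ≠ b → c ≠ d → MM q a c → MM q a d → MM q b c →
    MM q b d → False
  k23 : ∀ {q a b c d e}, a ≠ b → c ≠ d → c ≠ e → d ≠ e → MM q a c → MM q a d → MM q a e →
    MM q b c → MM q b d → MM q b e → False
  notsub : ∀ (q : Q4) (c : Bool) (j : Fin 6), GE4 TT q 4 ∨ ∃ i, TT (st4 c q j) i ∧ ¬ TT q i
  third : ∀ {q : Q4} {c c' : Bool} {j k t : Fin 6}, Np c c' j k = true →
    TT (st4 c' (st4 c q j) k) t → GE4 TT q 4 ∨ ∃ i, i ≠ t ∧ TT (st4 c q j) i ∧ ¬ TT q i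
  lemmaB : ∀ {q : Q4} {c c' : Bool} {j k a b : Fin 6}, Np c c' j k = true → TT (st4 c q j) a →
    TT (st4 c' q k) b → ∃ i, TT q i ∧ i ≠ a ∧ i ≠ b

variable {U : Fin 6 → Set ℂ} {T : ℂ → Set (Fin 6)} {z : ℂ} {u u' : ℝ} {F F' : Bool → Ultrafilter ℝ}

/-- exact pairs inside the palette of a point -/
def MM4 (T : ℂ → Set (Fin 6)) (z : ℂ) (u u' : ℝ) (q : Q4) (a b : Fin 6) : Prop :=
  M605 T (l4 z u u' q) a b

theorem tm_uu (u u' : ℝ) (c : Bool) (j : Fin 6) : dir2 u u' c j = uu u u' c + (j.val : ℝ) := by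
  cases c <;> rfl

theorem ge4_iff (T : ℂ → Set (Fin 6)) (z : ℂ) (u u' : ℝ) (q : Q4) (n : ℕ) :
    GE4 (T4 T z u u') q n ↔ n ≤ (T (l4 z u u' q)).ncard := Iff.rfl

/-- **The instance** -/
theorem lo2_of_fr2 (h : Fr2 U T u u' F F')
    (hmin : ∀ z, 4 ≤ (T z).ncard → ∀ s, s ⊆ T z → s ≠ T z →
      ¬ ∀ᶠ w in 𝓝 z, ∃ i ∈ s, w ∈ U i ∨ (w ∈ XX U ∧ i ∈ Pal U w)) (z : ℂ) :
    LO2 (T4 T z u u') (L4 T z u u' F F') (I4 T z u u' F F') (O4 T z u u' F F')
      (MM4 T z u u') where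
  memb := fun hl => h.memb hl
  neI := h.ne_in z
  neO := h.ne_out z
  IL := fun hl => h.in_let hl
  OL := fun hl => h.out_let hl
  LIO := fun hl => h.let_side hl
  pair := by
    intro c σ q j i hl ht
    by_contra hcon
    push Not at hcon
    have hsub : lt (FF F F' c σ) T (l4 z u u' q) (j.val : ℝ) ⊆ {i} := by
      intro m hm
      by_contra hmi
      exact hcon m hmi hm
    obtain ⟨v, hv⟩ := (lt_spec (FF F F' c σ) T (l4 z u u' q) (j.val : ℝ)).exists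
    rw [← hv] at hsub
    exact h.a.irr.mx.notMem' (h.a.irr.mem_of_single hsub) (dist_pt _ _) (h.a.irr.sub _ ht)
  sub4 := by
    intro c σ q j
    by_cases h4 : 4 ≤ (T (l4 z u u' q)).ncard
    · exact Or.inl h4
    · exact Or.inr (lt_three h.a.irr (by omega) _)
  defM := by
    intro c σ q j a b hab ha hb hta htb
    by_cases hd : ∃ d, d ≠ a ∧ d ≠ b ∧ L4 T z u u' F F' c σ q j d
    · exact Or.inr hd
    · left
      push Not at hd
      refine M605_of (F := FF F F' c σ) (k := (j.val : ℝ)) hab hta htb ?_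
      ext m
      constructor
      · intro hm
        by_contra hcon
        have hcon : ¬ (m = a ∨ m = b) := hcon
        push Not at hcon
        exact hd m hcon.1 hcon.2 hm
      · rintro (rfl | rfl)
        · exact ha
        · exact hb
  symM := fun hm => hm.symm
  swO := fun c c' σ σ₂ q k j hs => (h.sweep z c c' σ σ₂ q k j).1 hs
  swI := fun c c' σ σ₂ q k j hs => (h.sweep z c c' σ σ₂ q k j).2 hs
  sixty := fun hl => h.sixty hl
  product := fun c' k _ _ _ _ _ hl => h.product c' k hl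
  m4 := by
    intro q i a b h5 ha hb
    have h5 : ¬ 5 ≤ (T (l4 z u u' q)).ncard := h5
    exact M4_le605 h.a.irr hmin (by omega) ha hb
  m5 := by
    intro q i a b c h6 hab hac hbc ha hb hc
    have h6 : ¬ 6 ≤ (T (l4 z u u' q)).ncard := h6
    exact M5_724 h.a.irr hmin (by omega) hab hac hbc ha hb hc
  m6 := fun hab hac had hbc hbd hcd ha hb hc hd =>
    M6_724 h.a.irr hmin hab hac had hbc hbd hcd ha hb hc hd
  c5 := by
    intro q a b c d h6 hab hcd h1 h2 h3 h4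
    have h6 : ¬ 6 ≤ (T (l4 z u u' q)).ncard := h6
    exact C5_724 h.a.irr hmin (by omega) hab hcd h1 h2 h3 h4
  k23 := fun hab hcd hce hde h1 h2 h3 h4 h5 h6 =>
    K23_724 h.a.irr hmin hab hcd hce hde h1 h2 h3 h4 h5 h6
  notsub := by
    intro q c j
    have h1 := notsub2 (u := u) (u' := u') h.a.irr (l4 z u u' q) c j
    rw [tm_uu, l4_step] at h1
    exact h1
  third := by
    intro q c c' j k t hn ht
    have h1 := third2 (u := u) (u' := u') h.a.irr h.lt0 h.lt1 (l4 z u u' q) hn (t := t) (by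
      rw [tm_uu, tm_uu, l4_step, l4_step]
      exact ht)
    rw [tm_uu, l4_step] at h1
    exact h1
  lemmaB := by
    intro q c c' j k a b hn ha hb
    exact lemmaB2 (u := u) (u' := u') h.a.irr h.lt0 h.lt1 (l4 z u u' q) hn (a := a) (b := b)
      (by rw [tm_uu, l4_step]; exact ha) (by rw [tm_uu, l4_step]; exact hb)

end Vale.Agent.P032.H437
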