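import Vale.Agent.P032.H859.Rup
import Mathlib.Tactic.IntervalCases

/-!
# P032: certificates with a table of atoms

A base clause is a packed list of literals; the literal `l` stands for the atom `D (l / 2)` of a
table `D`; the clause is compared with a list of signed atoms.
-/

namespace Vale.Agent.P032.H437

open Vale.Agent.P032.H859.Rup

/-- atoms: kind, point, slot, side, two more arguments -/
inductive Am where
  | mk : ℕ → ℕ → ℕ → ℕ → ℕ → ℕ → Am

/-- signed atoms -/
inductive Sl where
  | P : Am → Sl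
  | N : Am → Sl

/-- tables of packed atoms -/
inductive TA where
  | l : ℕ → TA
  | n : TA → TA → TA

/-- unpack an atom: kind 0-3, point 4-11, slot 12-16, side 17, colour 18-20, the rest from 21 -/
noncomputable def dcA (a : ℕ) : Am :=
  .mk (Nat.land a 15) (Nat.land (Nat.shiftRight a 4) 255) (Nat.land (Nat.shiftRight a 12) 31)
    (Nat.land (Nat.shiftRight a 17) 1) (Nat.land (Nat.shiftRight a 18) 7) (Nat.shiftRight a 21)

/-- look up -/
noncomputable def getA (t : TA) : ℕ → Am :=
  TA.rec (motive := fun _ => ℕ → Am) (fun a _ => dcA a)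
    (fun _ _ gl gr i => Bool.rec (motive := fun _ => Am) (gr (Nat.shiftRight i 1))
      (gl (Nat.shiftRight i 1)) (Nat.beq (Nat.land i 1) 0)) t

/-- equality of atoms -/
noncomputable def eqb (a b : Am) : Bool :=
  Am.rec (motive := fun _ => Bool) (fun k p e s c d =>
    Am.rec (motive := fun _ => Bool) (fun k' p' e' s' c' d' =>
      Bool.rec (motive := fun _ => Bool) false
        (Bool.rec (motive := fun _ => Bool) false
          (Bool.rec (motive := fun _ => Bool) false
            (Bool.rec (motive := fun _ => Bool) false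
              (Bool.rec (motive := fun _ => Bool) false (Nat.beq d d') (Nat.beq c c'))
              (Nat.beq s s')) (Nat.beq e e')) (Nat.beq p p')) (Nat.beq k k')) b) a

/-- truth of a signed atom -/
def tr (ν : Am → Prop) : Sl → Prop
  | .P a => ν a
  | .N a => ¬ ν a

/-- a clause is true -/
def CL (ν : Am → Prop) (c : List Sl) : Prop := ∃ x ∈ c, tr ν x

/-- the literal `l` is the signed atom `x` -/
noncomputable def lm (D : ℕ → Am) (x : Sl) (l : ℕ) : Bool :=
  Sl.rec (motive := fun _ => Bool)
    (fun a => Bool.rec (motive := fun _ => Bool) false (eqb a (D (Nat.shiftRight l 1)))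
      (Nat.beq (Nat.land l 1) 0))
    (fun a => Bool.rec (motive := fun _ => Bool) false (eqb a (D (Nat.shiftRight l 1)))
      (Nat.beq (Nat.land l 1) 1)) x

/-- the packed list is the list of signed atoms -/
noncomputable def mt (D : ℕ → Am) (xs : List Sl) : ℕ → ℕ → Bool :=
  List.rec (motive := fun _ => ℕ → ℕ → Bool) (fun n _ => Nat.beq n 0)
    (fun x _ ih n P => Nat.rec (motive := fun _ => Bool) false
      (fun m _ => Bool.rec (motive := fun _ => Bool) false (ih m (Nat.shiftRight P 16))
        (lm D x (Nat.land P 65535))) n) xs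

theorem band {a b : Bool} (h : Bool.rec (motive := fun _ => Bool) false b a = true) :
    a = true ∧ b = true := by
  cases a
  · cases h
  · exact ⟨rfl, h⟩

theorem eqb_eq {a b : Am} (h : eqb a b = true) : a = b := by
  obtain ⟨k, p, e, s, c, d⟩ := a
  obtain ⟨k', p', e', s', c', d'⟩ := b
  have h0 := band (a := Nat.beq k k') h
  have h1 := band (a := Nat.beq p p') h0.2
  have h2 := band (a := Nat.beq e e') h1.2
  have h3 := band (a := Nat.beq s s') h2.2
  have h4 := band (a := Nat.beq c c') h3.2
  rw [Nat.eq_of_beq_eq_true h0.1, Nat.eq_of_beq_eq_true h1.1, Nat.eq_of_beq_eq_true h2.1,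
    Nat.eq_of_beq_eq_true h3.1, Nat.eq_of_beq_eq_true h4.1, Nat.eq_of_beq_eq_true h4.2]

theorem shr1 (l : ℕ) : Nat.shiftRight l 1 = l / 2 := by
  show l >>> 1 = _
  rw [Nat.shiftRight_eq_div_pow, pow_one]

theorem land1 (l : ℕ) : Nat.land l 1 = l % 2 := Nat.and_one_is_mod l

theorem lm_spec {ν : Am → Prop} {D : ℕ → Am} {x : Sl} {l : ℕ} (h : lm D x l = true)
    (hx : tr ν x) : Lit (fun v => ν (D v)) l := by
  cases x with
  | P a =>
    have h1 := band (a := Nat.beq (Nat.land l 1) 0) h
    have h2 := Nat.eq_of_beq_eq_true h1.1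
    have h3 := eqb_eq h1.2
    rw [land1] at h2
    rw [shr1] at h3
    unfold Lit
    rw [if_pos h2]
    rw [h3] at hx
    exact hx
  | N a =>
    have h1 := band (a := Nat.beq (Nat.land l 1) 1) h
    have h2 := Nat.eq_of_beq_eq_true h1.1
    have h3 := eqb_eq h1.2
    rw [land1] at h2
    rw [shr1] at h3
    unfold Lit
    rw [if_neg (by omega)]
    rw [h3] at hx
    exact hx

/-- the mask of a packed list, with an accumulator -/
noncomputable def decr (n P a : ℕ) : ℕ :=
  Nat.rec (motive := fun _ => ℕ → ℕ → ℕ) (fun _ a => a)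
    (fun _ ih P a => ih (Nat.shiftRight P 16) (Nat.lor a (Nat.shiftLeft 1 (Nat.land P 65535))))
    n P a

theorem dec_eq (c : ℕ) : dec c = decr (Nat.land c 255) (Nat.shiftRight c 8) 0 := rfl

theorem decr_acc {ν : ℕ → Prop} : ∀ (n P a : ℕ), (∃ l, a.testBit l = true ∧ Lit ν l) →
    Sat ν (decr n P a) := by
  intro n
  induction n with
  | zero => intro P a h; exact h
  | succ n ih =>
    intro P a ⟨l, hl, h2⟩
    refine ih (Nat.shiftRight P 16) (Nat.lor a (Nat.shiftLeft 1 (Nat.land P 65535))) ⟨l, ?_, h2⟩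
    show (a ||| _).testBit l = true
    rw [Nat.testBit_or, hl, Bool.true_or]

theorem mt_spec {ν : Am → Prop} {D : ℕ → Am} (xs : List Sl) : ∀ (n P a : ℕ),
    mt D xs n P = true → CL ν xs → Sat (fun v => ν (D v)) (decr n P a) := by
  induction xs with
  | nil =>
    rintro n P a _ ⟨x, hx, -⟩
    cases hx
  | cons x xs ih =>
    rintro n P a h ⟨y, hy, h2⟩
    cases n with
    | zero => cases h
    | succ n =>
      have h1 := band (a := lm D x (Nat.land P 65535)) h
      rcases List.mem_cons.1 hy with rfl | hy'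
      · refine decr_acc n _ _ ⟨Nat.land P 65535, ?_, lm_spec h1.1 h2⟩
        show (a ||| (1 <<< Nat.land P 65535)).testBit _ = true
        rw [Nat.testBit_or, Nat.one_shiftLeft, Nat.testBit_two_pow_self, Bool.or_true]
      · exact ih n _ _ h1.2 ⟨y, hy', h2⟩

/-- the test of all leaves, which must be packed -/
noncomputable def allp (g : ℕ → ℕ → ℕ → Bool) (t : Tr) : Bool :=
  Tr.rec (motive := fun _ => Bool) (fun _ _ _ => false) (fun c H k => g c H k)
    (fun _ _ a b => Bool.rec (motive := fun _ => Bool) false b a) t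

/-- if the test recognises only true clauses, all clauses of the tree are true -/
theorem sat_of_allp {ν : ℕ → Prop} {g : ℕ → ℕ → ℕ → Bool}
    (hg : ∀ c H k, g c H k = true → Sat ν (dec c)) (t : Tr) :
    allp g t = true → ∀ i, Sat ν (getC t i) := by
  induction t with
  | l c H k => intro h i; cases h
  | p c H k => intro h i; exact hg c H k h
  | n a b iha ihb =>
    intro h i
    have h1 := band (a := allp g a) h
    rw [getC_n]
    by_cases hi : i % 2 = 0
    · rw [if_pos hi]; exact iha h1.1 _
    · rw [if_neg hi]; exact ihb h1.2 _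

theorem allp_n {g : ℕ → ℕ → ℕ → Bool} {a b : Tr} (h1 : allp g a = true) (h2 : allp g b = true) :
    allp g (Tr.n a b) = true := by
  show Bool.rec (motive := fun _ => Bool) false (allp g b) (allp g a) = true
  rw [h1]; exact h2

/-! ### Clauses -/

theorem CL_cons {ν : Am → Prop} {x : Sl} {c : List Sl} : CL ν (x :: c) ↔ tr ν x ∨ CL ν c := by
  unfold CL; simp

theorem CL_nil {ν : Am → Prop} : CL ν [] ↔ False := by unfold CL; simp

theorem CL_append {ν : Am → Prop} {c d : List Sl} : CL ν (c ++ d) ↔ CL ν c ∨ CL ν d := by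
  unfold CL; simp [or_and_right, exists_or]

/-- one more literal if `b` -/
noncomputable def k1 (b : Bool) (x : Sl) (xs : List Sl) : List Sl :=
  Bool.rec (motive := fun _ => List Sl) xs (x :: xs) b

theorem CL_k1 {ν : Am → Prop} {b : Bool} {x : Sl} {xs : List Sl} :
    CL ν (k1 b x xs) ↔ (b = true ∧ tr ν x) ∨ CL ν xs := by
  cases b
  · show CL ν xs ↔ _
    simp
  · show CL ν (x :: xs) ↔ _
    rw [CL_cons]
    simp

/-- the colours which satisfy `g` -/
noncomputable def c6 (g : ℕ → Bool) (f : ℕ → Sl) : List Sl :=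
  k1 (g 0) (f 0) (k1 (g 1) (f 1) (k1 (g 2) (f 2) (k1 (g 3) (f 3) (k1 (g 4) (f 4)
    (k1 (g 5) (f 5) [])))))

theorem CL_c6 {ν : Am → Prop} {g : ℕ → Bool} {f : ℕ → Sl} :
    CL ν (c6 g f) ↔ ∃ c, c < 6 ∧ g c = true ∧ tr ν (f c) := by
  unfold c6
  simp only [CL_k1, CL_nil, or_false]
  constructor
  · rintro (h | h | h | h | h | h)
    · exact ⟨0, by omega, h⟩
    · exact ⟨1, by omega, h⟩
    · exact ⟨2, by omega, h⟩
    · exact ⟨3, by omega, h⟩
    · exact ⟨4, by omega, h⟩
    · exact ⟨5, by omega, h⟩
  · rintro ⟨c, hc, h⟩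
    interval_cases c
    · exact Or.inl h
    · exact Or.inr (Or.inl h)
    · exact Or.inr (Or.inr (Or.inl h))
    · exact Or.inr (Or.inr (Or.inr (Or.inl h)))
    · exact Or.inr (Or.inr (Or.inr (Or.inr (Or.inl h))))
    · exact Or.inr (Or.inr (Or.inr (Or.inr (Or.inr h))))

/-- all `x < n`, downwards -/
noncomputable def upto (f : ℕ → Sl) (n : ℕ) : List Sl :=
  Nat.rec (motive := fun _ => List Sl) [] (fun m ih => f m :: ih) n

theorem CL_upto {ν : Am → Prop} {f : ℕ → Sl} {n : ℕ} :
    CL ν (upto f n) ↔ ∃ x, x < n ∧ tr ν (f x) := by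
  induction n with
  | zero =>
    show CL ν [] ↔ _
    rw [CL_nil]
    simp
  | succ n ih =>
    show CL ν (f n :: upto f n) ↔ _
    rw [CL_cons, ih]
    constructor
    · rintro (h | ⟨x, hx, h⟩)
      · exact ⟨n, by omega, h⟩
      · exact ⟨x, by omega, h⟩
    · rintro ⟨x, hx, h⟩
      by_cases hxn : x = n
      · subst hxn; exact Or.inl h
      · exact Or.inr ⟨x, by omega, h⟩

end Vale.Agent.P032.H437
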