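import Vale.Agent.P032.H437.SatK
import Mathlib.Data.Fintype.Card

/-!
# P032: the families of clauses for any number of times
-/

namespace Vale.Agent.P032.H437

open Vale.Agent.P032.H859.Rup

/-- a finite set of points: `pt` gives the coordinates, `nb p e` the number of the neighbour in the
slot `e = 6 c + j` (or a number `≥ np`) -/
structure Geo (K : ℕ) [NeZero K] where
  np : ℕ
  pt : ℕ → QK K
  nb : ℕ → ℕ → ℕ
  zero : pt 0 = q0 K
  np0 : 0 < np
  spec : ∀ p < np, ∀ e < 6 * K, nb p e < np → pt (nb p e) = stK (cl K e) (pt p) (f6 e)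

/-! the atoms -/

def aT (p c : ℕ) : Am := .mk 0 p 0 0 c 0
def aG (p n : ℕ) : Am := .mk 1 p 0 0 n 0
def aM (p a b : ℕ) : Am := .mk 2 p 0 0 a b
def aD (p e c : ℕ) : Am := .mk 3 p e 0 c 0
def aL (p e s c : ℕ) : Am := .mk 4 p e s c 0
def aI (p e s c : ℕ) : Am := .mk 5 p e s c 0
def aO (p e s c : ℕ) : Am := .mk 6 p e s c 0
def aX (p e s c : ℕ) : Am := .mk 7 p e s c 0
def aY (p e s c e2 s2 : ℕ) : Am := .mk 8 p e s c (Nat.add (Nat.mul 2 e2) s2)
def aAT (i x : ℕ) : Am := .mk 9 0 0 0 i x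
def aIC (e i : ℕ) : Am := .mk 10 0 e 0 i 0
def aOC (e i : ℕ) : Am := .mk 11 0 e 0 i 0
def aHC (e s d : ℕ) : Am := .mk 12 0 e s 0 d

/-- a digit of a packed column -/
def dg (d n : ℕ) : ℕ := Nat.land (Nat.shiftRight d (Nat.mul 3 n)) 7

/-- the unordered pair -/
def aMs (p a b : ℕ) : Am := bif Nat.ble a b then aM p a b else aM p b a

section
variable {K : ℕ} [NeZero K] (G : Geo K) (A : AtK K)

/-- the column `d` stands at the centre in the class of the slot `e` -/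
def Hcol (e : ℕ) (s : Bool) (d : ℕ) : Prop :=
  ∀ j : Fin 6, A.IN (cl K e) s (q0 K) j (f6 (dg d (2 * j.val))) ∧
    A.OUT (cl K e) s (q0 K) j (f6 (dg d (2 * j.val + 1)))

/-- the target of the sweep -/
def Swp (p e s c e2 s2 : ℕ) : Prop :=
  if sgK (cl K e) (cl K e2) (f6 e2 - f6 e) (bb s2) = bb s then
    A.OUT (cl K e2) (bb s2) (stK (cl K e) (G.pt p) (f6 e)) (f6 e2) (f6 c)
  else A.IN (cl K e2) (bb s2) (stK (cl K e) (G.pt p) (f6 e)) (f6 e2) (f6 c)

/-- the valuation, by kinds -/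
def nuk : ℕ → ℕ → ℕ → ℕ → ℕ → ℕ → Prop
  | 0, p, _, _, c, _ => A.TT (G.pt p) (f6 c)
  | 1, p, _, _, n, _ => GEK A.TT (G.pt p) n
  | 2, p, _, _, a, b => A.MM (G.pt p) (f6 a) (f6 b)
  | 3, p, e, _, c, _ => A.TT (stK (cl K e) (G.pt p) (f6 e)) (f6 c) ∧ ¬ A.TT (G.pt p) (f6 c)
  | 4, p, e, s, c, _ => A.LT (cl K e) (bb s) (G.pt p) (f6 e) (f6 c)
  | 5, p, e, s, c, _ => A.IN (cl K e) (bb s) (G.pt p) (f6 e) (f6 c)
  | 6, p, e, s, c, _ => A.OUT (cl K e) (bb s) (G.pt p) (f6 e) (f6 c)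
  | 7, p, e, s, c, _ => A.LT (cl K e) (bb s) (G.pt p) (f6 e) (f6 c) ∧ ¬ A.TT (G.pt p) (f6 c)
  | 8, p, e, s, c, d => ¬ A.LT (cl K e) (bb s) (G.pt p) (f6 e) (f6 c) ∧ Swp G A p e s c (d / 2) d
  | 9, _, _, _, i, x => A.AT (f6 i) x
  | 10, _, e, _, i, _ => A.IC (cl K e) (f6 e) (f6 i)
  | 11, _, e, _, i, _ => A.OC (cl K e) (f6 e) (f6 i)
  | 12, _, e, s, _, d => Hcol A e (bb s) d
  | _, _, _, _, _, _ => False

/-- **the valuation** -/
def nu : Am → Prop
  | .mk k p e s c d => nuk G A k p e s c d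

variable {G A}

theorem bb_eq {a b : ℕ} (h : a % 2 = b % 2) : bb a = bb b := by unfold bb; rw [h]

theorem nuT {p c : ℕ} : nu G A (aT p c) ↔ A.TT (G.pt p) (f6 c) := Iff.rfl
theorem nuG {p c : ℕ} : nu G A (aG p c) ↔ GEK A.TT (G.pt p) c := Iff.rfl
theorem nuM {p a b : ℕ} : nu G A (aM p a b) ↔ A.MM (G.pt p) (f6 a) (f6 b) := Iff.rfl
theorem nuD {p e c : ℕ} : nu G A (aD p e c) ↔
    A.TT (stK (cl K e) (G.pt p) (f6 e)) (f6 c) ∧ ¬ A.TT (G.pt p) (f6 c) := Iff.rfl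
theorem nuL {p e s c : ℕ} : nu G A (aL p e s c) ↔ A.LT (cl K e) (bb s) (G.pt p) (f6 e) (f6 c) :=
  Iff.rfl
theorem nuI {p e s c : ℕ} : nu G A (aI p e s c) ↔ A.IN (cl K e) (bb s) (G.pt p) (f6 e) (f6 c) :=
  Iff.rfl
theorem nuO {p e s c : ℕ} : nu G A (aO p e s c) ↔ A.OUT (cl K e) (bb s) (G.pt p) (f6 e) (f6 c) :=
  Iff.rfl
theorem nuX {p e s c : ℕ} : nu G A (aX p e s c) ↔
    A.LT (cl K e) (bb s) (G.pt p) (f6 e) (f6 c) ∧ ¬ A.TT (G.pt p) (f6 c) := Iff.rfl
theorem nuAT {i x : ℕ} : nu G A (aAT i x) ↔ A.AT (f6 i) x := Iff.rfl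
theorem nuIC {e i : ℕ} : nu G A (aIC e i) ↔ A.IC (cl K e) (f6 e) (f6 i) := Iff.rfl
theorem nuOC {e i : ℕ} : nu G A (aOC e i) ↔ A.OC (cl K e) (f6 e) (f6 i) := Iff.rfl
theorem nuHC {e s d : ℕ} : nu G A (aHC e s d) ↔ Hcol A e (bb s) d := Iff.rfl
theorem nuY {p e s c e2 s2 : ℕ} (hs : s2 < 2) : nu G A (aY p e s c e2 s2) ↔
    ¬ A.LT (cl K e) (bb s) (G.pt p) (f6 e) (f6 c) ∧ Swp G A p e s c e2 s2 := by
  have h1 : (2 * e2 + s2) / 2 = e2 := by omega
  show (_ ∧ Swp G A p e s c ((2 * e2 + s2) / 2) (2 * e2 + s2)) ↔ _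
  rw [h1]
  have h2 : Swp G A p e s c e2 (2 * e2 + s2) ↔ Swp G A p e s c e2 s2 := by
    unfold Swp
    rw [bb_eq (show (2 * e2 + s2) % 2 = s2 % 2 by omega)]
  rw [h2]

/-! ### Small facts -/

theorem bb_sub {s : ℕ} (hs : s < 2) : bb (1 - s) = !bb s := by
  interval_cases s <;> rfl

/-- the six colours in a mask -/
def fs (S : ℕ) : Finset (Fin 6) := Finset.univ.filter fun i => S.testBit i.val
def tb (S n : ℕ) : Bool := Nat.beq (Nat.land (Nat.shiftRight S n) 1) 1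
def pc (S : ℕ) : ℕ :=
  Nat.add (Nat.add (Nat.add (Nat.add (Nat.add (Nat.land S 1) (Nat.land (Nat.shiftRight S 1) 1))
    (Nat.land (Nat.shiftRight S 2) 1)) (Nat.land (Nat.shiftRight S 3) 1))
    (Nat.land (Nat.shiftRight S 4) 1)) (Nat.land (Nat.shiftRight S 5) 1)

theorem card_fs : ∀ S < 64, (fs S).card = pc S := by decide

theorem tb_fs : ∀ S < 64, ∀ c < 6, (f6 c ∈ fs S ↔ tb S c = true) := by decide

theorem beq_false {a b : ℕ} : Nat.beq a b = false ↔ a ≠ b := by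
  constructor
  · intro h e; subst e; rw [Nat.beq_refl] at h; cases h
  · intro h
    cases hb : Nat.beq a b
    · rfl
    · exact absurd (Nat.eq_of_beq_eq_true hb) h

def ne (c d : ℕ) : Bool := !Nat.beq d c

theorem ne_iff {c d : ℕ} : ne c d = true ↔ d ≠ c := by
  unfold ne
  rw [Bool.not_eq_true', beq_false]

theorem ne2_iff {c d e : ℕ} : (ne c e && ne d e) = true ↔ e ≠ c ∧ e ≠ d := by
  rw [Bool.and_eq_true, ne_iff, ne_iff]

/-! ### The families (letters) -/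

section
variable (h : RK A) {p e e2 s s2 c d g i y S n : ℕ}
include h

theorem f_six (_ : c < 6) : CL (nu G A) [.P (aT 0 c)] := by
  simp only [CL_cons, CL_nil, tr, or_false, nuT, G.zero]
  exact h.six _

theorem f_memb (hp : p < G.np) (he : e < 6 * K) (hu : G.nb p e < G.np) :
    CL (nu G A) [.N (aL p e s c), .P (aT (G.nb p e) c)] := by
  simp only [CL_cons, CL_nil, tr, or_false, nuT, nuL, G.spec p hp e he hu]
  by_contra hcon
  push Not at hcon
  exact hcon.2 (h.lok.memb hcon.1)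

theorem f_neI : CL (nu G A) (c6 (fun _ => true) fun c => .P (aI p e s c)) := by
  rw [CL_c6]
  obtain ⟨c, hc, h1⟩ := ex6 (h.lok.neI (cl K e) (bb s) (G.pt p) (f6 e))
  exact ⟨c, hc, rfl, h1⟩

theorem f_neO : CL (nu G A) (c6 (fun _ => true) fun c => .P (aO p e s c)) := by
  rw [CL_c6]
  obtain ⟨c, hc, h1⟩ := ex6 (h.lok.neO (cl K e) (bb s) (G.pt p) (f6 e))
  exact ⟨c, hc, rfl, h1⟩

theorem f_IL : CL (nu G A) [.N (aI p e s c), .P (aL p e s c)] := by
  simp only [CL_cons, CL_nil, tr, or_false, nuI, nuL]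
  by_contra hcon
  push Not at hcon
  exact hcon.2 (h.lok.IL hcon.1)

theorem f_OL : CL (nu G A) [.N (aO p e s c), .P (aL p e s c)] := by
  simp only [CL_cons, CL_nil, tr, or_false, nuO, nuL]
  by_contra hcon
  push Not at hcon
  exact hcon.2 (h.lok.OL hcon.1)

theorem f_LIO : CL (nu G A) [.N (aL p e s c), .P (aI p e s c), .P (aO p e s c)] := by
  simp only [CL_cons, CL_nil, tr, or_false, nuO, nuI, nuL]
  by_contra hcon
  push Not at hcon
  rcases h.lok.LIO hcon.1 with h1 | h1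
  · exact hcon.2.1 h1
  · exact hcon.2.2 h1

theorem f_pair (_ : c < 6) :
    CL (nu G A) (.N (aL p e s c) :: .N (aT p c) :: c6 (ne c) fun d => .P (aL p e s d)) := by
  simp only [CL_cons, tr, nuL, nuT, CL_c6]
  by_contra hcon
  push Not at hcon
  obtain ⟨h1, h2, h3⟩ := hcon
  obtain ⟨d, hd, h4, h5⟩ := ex6 (h.lok.pair h1 h2)
  exact h3 d hd (ne_iff.2 (f6_ne' h4)) h5

theorem f_sub4 : CL (nu G A) (.P (aG p 4) :: c6 (fun _ => true) fun c => .P (aX p e s c)) := by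
  simp only [CL_cons, tr, nuG, nuX, CL_c6]
  rcases h.lok.sub4 (cl K e) (bb s) (G.pt p) (f6 e) with h1 | h1
  · exact Or.inl h1
  · obtain ⟨c, hc, h2⟩ := ex6 h1
    exact Or.inr ⟨c, hc, trivial, h2⟩

theorem f_defM (hc : c < 6) (hd : d < 6) (hcd : c ≠ d) :
    CL (nu G A) (.N (aL p e s c) :: .N (aL p e s d) :: .N (aT p c) :: .N (aT p d) ::
      .P (aM p c d) :: c6 (fun g => ne c g && ne d g) fun g => .P (aL p e s g)) := by
  simp only [CL_cons, tr, nuL, nuT, nuM, CL_c6]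
  by_contra hcon
  push Not at hcon
  obtain ⟨h1, h2, h3, h4, h5, h6⟩ := hcon
  rcases h.lok.defM (f6_ne hc hd hcd) h1 h2 h3 h4 with h7 | h7
  · exact h5 h7
  · obtain ⟨g, hg, h8, h9, h10⟩ := ex6 h7
    exact h6 g hg (ne2_iff.2 ⟨f6_ne' h8, f6_ne' h9⟩) h10

theorem f_yE (hs2 : s2 < 2) :
    CL (nu G A) (c6 (fun _ => true) fun c => .P (aY p e s c e2 s2)) := by
  simp only [tr, nuY hs2, CL_c6]
  by_cases h1 : sgK (cl K e) (cl K e2) (f6 e2 - f6 e) (bb s2) = bb s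
  · obtain ⟨c, hc, h2, h3⟩ := ex6 (h.lok.swO (cl K e) (cl K e2) (bb s) (bb s2) (G.pt p) (f6 e)
      (f6 e2) h1)
    refine ⟨c, hc, trivial, h2, ?_⟩
    unfold Swp
    rw [if_pos h1]
    exact h3
  · obtain ⟨c, hc, h2, h3⟩ := ex6 (h.lok.swI (cl K e) (cl K e2) (bb s) (bb s2) (G.pt p) (f6 e)
      (f6 e2) h1)
    refine ⟨c, hc, trivial, h2, ?_⟩
    unfold Swp
    rw [if_neg h1]
    exact h3

theorem f_sO (hp : p < G.np) (he : e < 6 * K) (he2 : e2 < 6 * K)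
    (hu : G.nb p e < G.np) (hb : sgB e e2 s2 = bb s) :
    CL (nu G A) (c6 (fun c => tb S c) (fun c => .N (aL p e s c)) ++
      c6 (fun c => !tb S c) fun c => .P (aO (G.nb p e) e2 s2 c)) := by
  have h1 : sgK (cl K e) (cl K e2) (f6 e2 - f6 e) (bb s2) = bb s := by rw [sg_eq he he2, hb]
  obtain ⟨c, hc, h2, h3⟩ := ex6 (h.lok.swO (cl K e) (cl K e2) (bb s) (bb s2) (G.pt p) (f6 e)
    (f6 e2) h1)
  simp only [CL_append, CL_c6, tr, nuL, nuO, G.spec p hp e he hu]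
  cases hb : tb S c
  · exact Or.inr ⟨c, hc, by rw [hb]; rfl, h3⟩
  · exact Or.inl ⟨c, hc, hb, h2⟩

theorem f_sI (hp : p < G.np) (he : e < 6 * K) (he2 : e2 < 6 * K)
    (hu : G.nb p e < G.np) (hb : sgB e e2 s2 ≠ bb s) :
    CL (nu G A) (c6 (fun c => tb S c) (fun c => .N (aL p e s c)) ++
      c6 (fun c => !tb S c) fun c => .P (aI (G.nb p e) e2 s2 c)) := by
  have h1 : sgK (cl K e) (cl K e2) (f6 e2 - f6 e) (bb s2) ≠ bb s := by rw [sg_eq he he2]; exact hb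
  obtain ⟨c, hc, h2, h3⟩ := ex6 (h.lok.swI (cl K e) (cl K e2) (bb s) (bb s2) (G.pt p) (f6 e)
    (f6 e2) h1)
  simp only [CL_append, CL_c6, tr, nuL, nuI, G.spec p hp e he hu]
  cases hb : tb S c
  · exact Or.inr ⟨c, hc, by rw [hb]; rfl, h3⟩
  · exact Or.inl ⟨c, hc, hb, h2⟩

theorem f_sixty : CL (nu G A) [.N (aL p e s c), .N (aL p (nx e) s c)] := by
  simp only [CL_cons, CL_nil, tr, or_false, nuL, cl_nx, f6_nx]
  by_contra hcon
  push Not at hcon
  exact h.lok.sixty hcon.1 hcon.2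

theorem f_product (hp : p < G.np) (he2 : e2 < 6 * K) (hu : G.nb p e2 < G.np) :
    CL (nu G A) [.N (aL p e s c), .N (aL (G.nb p e2) e s c)] := by
  simp only [CL_cons, CL_nil, tr, or_false, nuL, G.spec p hp e2 he2 hu]
  by_contra hcon
  push Not at hcon
  exact h.lok.product _ _ hcon.1 hcon.2

theorem nuMs {a b : ℕ} : nu G A (aMs p a b) ↔ A.MM (G.pt p) (f6 a) (f6 b) := by
  unfold aMs
  cases hb' : Nat.ble a b
  · rw [cond_false, nuM]; exact ⟨h.lok.symM, h.lok.symM⟩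
  · rw [cond_true, nuM]

theorem f_side4 (hc : c < 6) (hd : d < 6) (hg : g < 6) (hi : i < 6) (hcd : c ≠ d) (hcg : c ≠ g)
    (hci : c ≠ i) (hdg : d ≠ g) (hdi : d ≠ i) (hgi : g ≠ i) :
    CL (nu G A) [.N (aI p e s c), .N (aO p e s c), .N (aMs p c d), .N (aMs p g i),
      .P (aG p 5)] := by
  simp only [CL_cons, CL_nil, tr, or_false, nuI, nuO, nuMs h, nuG]
  by_contra hcon
  push Not at hcon
  obtain ⟨h1, h2, h3, h4, h5⟩ := hcon
  exact h5 (h.side4 (f6_ne hc hd hcd) (f6_ne hc hg hcg) (f6_ne hc hi hci)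
    (f6_ne hd hg hdg) (f6_ne hd hi hdi) (f6_ne hg hi hgi) h3 h4 h1 h2)

theorem f_M4 (hc : c < 6) (hd : d < 6) (hcd : c ≠ d) :
    CL (nu G A) [.P (aG p 5), .N (aMs p i c), .N (aMs p i d)] := by
  simp only [CL_cons, CL_nil, tr, or_false, nuMs h, nuG]
  by_contra hcon
  push Not at hcon
  exact f6_ne hc hd hcd (h.lok.m4 hcon.1 hcon.2.1 hcon.2.2)

theorem f_M5 (hc : c < 6) (hd : d < 6) (hg : g < 6) (hcd : c ≠ d) (hcg : c ≠ g) (hdg : d ≠ g) :
    CL (nu G A) [.P (aG p 6), .N (aMs p i c), .N (aMs p i d), .N (aMs p i g)] := by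
  simp only [CL_cons, CL_nil, tr, or_false, nuMs h, nuG]
  by_contra hcon
  push Not at hcon
  exact h.lok.m5 hcon.1 (f6_ne hc hd hcd) (f6_ne hc hg hcg) (f6_ne hd hg hdg) hcon.2.1
    hcon.2.2.1 hcon.2.2.2

theorem f_M6 (hc : c < 6) (hd : d < 6) (hg : g < 6) (hy : y < 6) (hcd : c ≠ d) (hcg : c ≠ g)
    (hcy : c ≠ y) (hdg : d ≠ g) (hdy : d ≠ y) (hgy : g ≠ y) :
    CL (nu G A) [.N (aMs p i c), .N (aMs p i d), .N (aMs p i g), .N (aMs p i y)] := by
  simp only [CL_cons, CL_nil, tr, or_false, nuMs h]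
  by_contra hcon
  push Not at hcon
  exact h.lok.m6 (f6_ne hc hd hcd) (f6_ne hc hg hcg) (f6_ne hc hy hcy) (f6_ne hd hg hdg)
    (f6_ne hd hy hdy) (f6_ne hg hy hgy) hcon.1 hcon.2.1 hcon.2.2.1 hcon.2.2.2

theorem f_K23 (hi : i < 6) (hy : y < 6) (hc : c < 6) (hd : d < 6) (hg : g < 6) (hiy : i ≠ y)
    (hcd : c ≠ d) (hcg : c ≠ g) (hdg : d ≠ g) :
    CL (nu G A) [.N (aMs p i c), .N (aMs p i d), .N (aMs p i g), .N (aMs p y c), .N (aMs p y d),
      .N (aMs p y g)] := by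
  simp only [CL_cons, CL_nil, tr, or_false, nuMs h]
  by_contra hcon
  push Not at hcon
  obtain ⟨h1, h2, h3, h4, h5, h6⟩ := hcon
  exact h.lok.k23 (f6_ne hi hy hiy) (f6_ne hc hd hcd) (f6_ne hc hg hcg) (f6_ne hd hg hdg)
    h1 h2 h3 h4 h5 h6

theorem f_C5 (hi : i < 6) (hy : y < 6) (hc : c < 6) (hd : d < 6) (hiy : i ≠ y) (hcd : c ≠ d) :
    CL (nu G A) [.P (aG p 6), .N (aMs p i c), .N (aMs p i d), .N (aMs p y c),
      .N (aMs p y d)] := by
  simp only [CL_cons, CL_nil, tr, or_false, nuMs h, nuG]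
  by_contra hcon
  push Not at hcon
  obtain ⟨h0, h1, h2, h3, h4⟩ := hcon
  exact h.lok.c5 h0 (f6_ne hi hy hiy) (f6_ne hc hd hcd) h1 h2 h3 h4

theorem f_notsub : CL (nu G A) (.P (aG p 4) :: c6 (fun _ => true) fun c => .P (aD p e c)) := by
  simp only [CL_cons, tr, nuG, nuD, CL_c6]
  rcases h.lok.notsub (G.pt p) (cl K e) (f6 e) with h1 | h1
  · exact Or.inl h1
  · obtain ⟨c, hc, h2⟩ := ex6 h1
    exact Or.inr ⟨c, hc, trivial, h2⟩

theorem f_third (hp : p < G.np) (he : e < 6 * K) (he2 : e2 < 6 * K) (hu : G.nb p e < G.np)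
    (hu2 : G.nb (G.nb p e) e2 < G.np) (hn : npB e e2 = true) (_ : c < 6) :
    CL (nu G A) (.P (aG p 4) :: .N (aT (G.nb (G.nb p e) e2) c) ::
      c6 (ne c) fun d => .P (aD p e d)) := by
  simp only [CL_cons, tr, nuG, nuD, nuT, CL_c6, G.spec _ hu e2 he2 hu2, G.spec p hp e he hu]
  by_cases h1 : A.TT (stK (cl K e2) (stK (cl K e) (G.pt p) (f6 e)) (f6 e2)) (f6 c)
  · rcases h.lok.third (np_eq he he2 hn) h1 with h2 | h2
    · exact Or.inl h2
    · obtain ⟨d, hd, h3, h4, h5⟩ := ex6 h2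
      exact Or.inr (Or.inr ⟨d, hd, ne_iff.2 (f6_ne' h3), h4, h5⟩)
  · exact Or.inr (Or.inl h1)

theorem f_lemB (hp : p < G.np) (he : e < 6 * K) (he2 : e2 < 6 * K) (hu : G.nb p e < G.np)
    (hu2 : G.nb p e2 < G.np) (hn : npB e e2 = true) (_ : c < 6) (_ : d < 6) :
    CL (nu G A) (.N (aT (G.nb p e) c) :: .N (aT (G.nb p e2) d) ::
      c6 (fun g => ne c g && ne d g) fun g => .P (aT p g)) := by
  simp only [CL_cons, tr, nuT, CL_c6, G.spec _ hp e2 he2 hu2, G.spec p hp e he hu]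
  by_contra hcon
  push Not at hcon
  obtain ⟨h1, h2, h3⟩ := hcon
  obtain ⟨g, hg, h4, h5, h6⟩ := ex6 (h.lok.lemmaB (np_eq he he2 hn) h1 h2)
  exact h3 g hg (ne2_iff.2 ⟨f6_ne' h5, f6_ne' h6⟩) h4

theorem f_room3 (hc : c < 6) (hd : d < 6) (hg : g < 6) (hcd : c ≠ d) (hcg : c ≠ g)
    (hdg : d ≠ g) :
    CL (nu G A) (.N (aL p e s c) :: .N (aL p e s d) :: .N (aL p e s g) :: .P (aG p 5) ::
      c6 (fun _ => true) fun y => .P (aX p e s y)) := by
  simp only [CL_cons, tr, nuL, nuG, nuX, CL_c6]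
  by_contra hcon
  push Not at hcon
  obtain ⟨h1, h2, h3, h4, h5⟩ := hcon
  have hs : ∀ i, A.LT (cl K e) (bb s) (G.pt p) (f6 e) i → A.TT (G.pt p) i := by
    intro i hi
    have h6 := h5 i.val i.2 trivial
    rw [f6_val] at h6
    exact h6 hi
  have h7 := h.lok.two (cl K e) (bb s) (G.pt p) (f6 e) hs
  refine h4 ?_
  unfold GEK
  have h8 : (({f6 c, f6 d, f6 g} : Finset (Fin 6)) : Set (Fin 6)).ncard = 3 := by
    rw [Set.ncard_coe_finset]
    exact Finset.card_eq_three.2 ⟨_, _, _, f6_ne hc hd hcd, f6_ne hc hg hcg, f6_ne hd hg hdg, rfl⟩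
  have h9 : Disjoint (({f6 c, f6 d, f6 g} : Finset (Fin 6)) : Set (Fin 6))
      {i | A.TT (G.pt p) i ∧ ¬ A.LT (cl K e) (bb s) (G.pt p) (f6 e) i} := by
    rw [Set.disjoint_left]
    intro i hi hi2
    simp only [Finset.coe_insert, Finset.coe_singleton, Set.mem_insert_iff,
      Set.mem_singleton_iff] at hi
    rcases hi with rfl | rfl | rfl
    · exact hi2.2 h1
    · exact hi2.2 h2
    · exact hi2.2 h3
  have h10 : (({f6 c, f6 d, f6 g} : Finset (Fin 6)) : Set (Fin 6)) ∪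
      {i | A.TT (G.pt p) i ∧ ¬ A.LT (cl K e) (bb s) (G.pt p) (f6 e) i} ⊆
      {i | A.TT (G.pt p) i} := by
    intro i hi
    rcases hi with hi | hi
    · simp only [Finset.coe_insert, Finset.coe_singleton, Set.mem_insert_iff,
        Set.mem_singleton_iff] at hi
      rcases hi with rfl | rfl | rfl
      · exact hs _ h1
      · exact hs _ h2
      · exact hs _ h3
    · exact hi.1
  have h11 := Set.ncard_le_ncard h10 (Set.toFinite _)
  rw [Set.ncard_union_eq h9 (Set.toFinite _) (Set.toFinite _), h8] at h11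
  omega

theorem f_room4 (hc : c < 6) (hd : d < 6) (hg : g < 6) (hi : i < 6) (hcd : c ≠ d) (hcg : c ≠ g)
    (hci : c ≠ i) (hdg : d ≠ g) (hdi : d ≠ i) (hgi : g ≠ i) :
    CL (nu G A) [.N (aL p e s c), .N (aL p e s d), .N (aL p e s g), .N (aL p e s i)] := by
  simp only [CL_cons, CL_nil, tr, or_false, nuL]
  by_contra hcon
  push Not at hcon
  obtain ⟨h1, h2, h3, h4⟩ := hcon
  have h7 := h.lok.card (cl K e) (bb s) (G.pt p) (f6 e)
  have h8 : (({f6 c, f6 d, f6 g, f6 i} : Finset (Fin 6)) : Set (Fin 6)).ncard = 4 := by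
    rw [Set.ncard_coe_finset, Finset.card_insert_of_notMem, Finset.card_eq_three.2
      ⟨_, _, _, f6_ne hd hg hdg, f6_ne hd hi hdi, f6_ne hg hi hgi, rfl⟩]
    simp only [Finset.mem_insert, Finset.mem_singleton]
    push Not
    exact ⟨f6_ne hc hd hcd, f6_ne hc hg hcg, f6_ne hc hi hci⟩
  have h9 : (({f6 c, f6 d, f6 g, f6 i} : Finset (Fin 6)) : Set (Fin 6)) ⊆
      {i | A.LT (cl K e) (bb s) (G.pt p) (f6 e) i} := by
    intro j hj
    simp only [Finset.coe_insert, Finset.coe_singleton, Set.mem_insert_iff,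
      Set.mem_singleton_iff] at hj
    rcases hj with rfl | rfl | rfl | rfl
    · exact h1
    · exact h2
    · exact h3
    · exact h4
  have h11 := Set.ncard_le_ncard h9 (Set.toFinite _)
  rw [h8] at h11
  omega

end

section
variable {p e e2 s s2 c d g i y S n : ℕ}

theorem f_yL (hs2 : s2 < 2) : CL (nu G A) [.N (aY p e s c e2 s2), .N (aL p e s c)] := by
  simp only [CL_cons, CL_nil, tr, or_false, nuY hs2, nuL]
  by_contra hcon
  push Not at hcon
  exact hcon.1.1 hcon.2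

theorem f_yO (hp : p < G.np) (he : e < 6 * K) (he2 : e2 < 6 * K) (hs2 : s2 < 2)
    (hu : G.nb p e < G.np) (hb : sgB e e2 s2 = bb s) :
    CL (nu G A) [.N (aY p e s c e2 s2), .P (aO (G.nb p e) e2 s2 c)] := by
  have h1 : sgK (cl K e) (cl K e2) (f6 e2 - f6 e) (bb s2) = bb s := by rw [sg_eq he he2, hb]
  simp only [CL_cons, CL_nil, tr, or_false, nuY hs2, nuO, G.spec p hp e he hu]
  unfold Swp
  rw [if_pos h1]
  by_contra hcon
  push Not at hcon
  exact hcon.2 hcon.1.2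

theorem f_yI (hp : p < G.np) (he : e < 6 * K) (he2 : e2 < 6 * K) (hs2 : s2 < 2)
    (hu : G.nb p e < G.np) (hb : sgB e e2 s2 ≠ bb s) :
    CL (nu G A) [.N (aY p e s c e2 s2), .P (aI (G.nb p e) e2 s2 c)] := by
  have h1 : sgK (cl K e) (cl K e2) (f6 e2 - f6 e) (bb s2) ≠ bb s := by rw [sg_eq he he2]; exact hb
  simp only [CL_cons, CL_nil, tr, or_false, nuY hs2, nuI, G.spec p hp e he hu]
  unfold Swp
  rw [if_neg h1]
  by_contra hcon
  push Not at hcon
  exact hcon.2 hcon.1.2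

theorem f_GEa (hS : S < 64) (h7 : pc S + n = 7) :
    CL (nu G A) (.N (aG p n) :: c6 (fun c => tb S c) fun c => .P (aT p c)) := by
  simp only [CL_cons, tr, nuG, nuT, CL_c6]
  by_contra hcon
  push Not at hcon
  obtain ⟨h1, h2⟩ := hcon
  have h3 : {i | A.TT (G.pt p) i} ⊆ (((fs S)ᶜ : Finset (Fin 6)) : Set (Fin 6)) := by
    intro i hi
    rw [Finset.mem_coe, Finset.mem_compl]
    intro h4
    have h5 := h2 i.val i.2 ((tb_fs S hS i.val i.2).1 (by rw [f6_val]; exact h4))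
    rw [f6_val] at h5
    exact h5 hi
  have h6 := Set.ncard_le_ncard h3 (Set.toFinite _)
  have h8 := Finset.card_le_univ (fs S)
  rw [Fintype.card_fin, card_fs S hS] at h8
  rw [Set.ncard_coe_finset, Finset.card_compl, Fintype.card_fin, card_fs S hS] at h6
  unfold GEK at h1
  omega

theorem f_GEb (hS : S < 64) (h7 : pc S = n) :
    CL (nu G A) (.P (aG p n) :: c6 (fun c => tb S c) fun c => .N (aT p c)) := by
  simp only [CL_cons, tr, nuG, nuT, CL_c6]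
  by_contra hcon
  push Not at hcon
  obtain ⟨h1, h2⟩ := hcon
  refine h1 ?_
  have h3 : ((fs S : Finset (Fin 6)) : Set (Fin 6)) ⊆ {i | A.TT (G.pt p) i} := by
    intro i hi
    have h5 := h2 i.val i.2 ((tb_fs S hS i.val i.2).1 (by rw [f6_val]; exact hi))
    rw [f6_val] at h5
    exact h5
  have h6 := Set.ncard_le_ncard h3 (Set.toFinite _)
  rw [Set.ncard_coe_finset, card_fs S hS, h7] at h6
  exact h6

theorem f_DT (hp : p < G.np) (he : e < 6 * K) (hu : G.nb p e < G.np) :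
    CL (nu G A) [.N (aD p e c), .P (aT (G.nb p e) c)] := by
  simp only [CL_cons, CL_nil, tr, or_false, nuD, nuT, G.spec p hp e he hu]
  by_contra hcon
  push Not at hcon
  exact hcon.2 hcon.1.1

theorem f_DX : CL (nu G A) [.N (aD p e c), .N (aT p c)] := by
  simp only [CL_cons, CL_nil, tr, or_false, nuD, nuT]
  by_contra hcon
  push Not at hcon
  exact hcon.1.2 hcon.2

theorem f_XL : CL (nu G A) [.N (aX p e s c), .P (aL p e s c)] := by
  simp only [CL_cons, CL_nil, tr, or_false, nuX, nuL]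
  by_contra hcon
  push Not at hcon
  exact hcon.2 hcon.1.1

theorem f_XT : CL (nu G A) [.N (aX p e s c), .N (aT p c)] := by
  simp only [CL_cons, CL_nil, tr, or_false, nuX, nuT]
  by_contra hcon
  push Not at hcon
  exact hcon.1.2 hcon.2

/-- the slot of the direction `j` in the class of the slot `e` -/
def sj (e j : ℕ) : ℕ := Nat.add e j

/-- the negated letters of the column -/
def hcl (e s d : ℕ) : List Sl :=
  [.N (aI 0 (sj e 0) s (dg d 0)), .N (aO 0 (sj e 0) s (dg d 1)),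
    .N (aI 0 (sj e 1) s (dg d 2)), .N (aO 0 (sj e 1) s (dg d 3)),
    .N (aI 0 (sj e 2) s (dg d 4)), .N (aO 0 (sj e 2) s (dg d 5)),
    .N (aI 0 (sj e 3) s (dg d 6)), .N (aO 0 (sj e 3) s (dg d 7)),
    .N (aI 0 (sj e 4) s (dg d 8)), .N (aO 0 (sj e 4) s (dg d 9)),
    .N (aI 0 (sj e 5) s (dg d 10)), .N (aO 0 (sj e 5) s (dg d 11))]

theorem f_HC (he6 : e % 6 = 0) :
    CL (nu G A) (.P (aHC e s d) :: hcl e s d) := by
  unfold hcl
  simp only [CL_cons, CL_nil, tr, or_false, nuHC, nuI, nuO, G.zero]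
  by_contra hcon
  push Not at hcon
  obtain ⟨h0, a0, b0, a1, b1, a2, b2, a3, b3, a4, b4, a5, b5⟩ := hcon
  have hc : ∀ j < 6, cl K (sj e j) = cl K e := fun j hj => cl_eq (by
    show (e + j) / 6 = e / 6
    omega)
  have hf : ∀ j < 6, f6 (sj e j) = f6 j := fun j hj => f6_eq (by
    show (e + j) % 6 = j % 6
    omega)
  rw [hc 0 (by omega), hf 0 (by omega)] at a0 b0
  rw [hc 1 (by omega), hf 1 (by omega)] at a1 b1
  rw [hc 2 (by omega), hf 2 (by omega)] at a2 b2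
  rw [hc 3 (by omega), hf 3 (by omega)] at a3 b3
  rw [hc 4 (by omega), hf 4 (by omega)] at a4 b4
  rw [hc 5 (by omega), hf 5 (by omega)] at a5 b5
  refine h0 fun j => ?_
  match j with
  | 0 => exact ⟨a0, b0⟩
  | 1 => exact ⟨a1, b1⟩
  | 2 => exact ⟨a2, b2⟩
  | 3 => exact ⟨a3, b3⟩
  | 4 => exact ⟨a4, b4⟩
  | 5 => exact ⟨a5, b5⟩

theorem f_HI (he6 : e % 6 = 0) (hy : y < 6) :
    CL (nu G A) [.N (aHC e s d), .P (aI 0 (sj e y) s (dg d (Nat.mul 2 y)))] := by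
  have hc : cl K (sj e y) = cl K e := cl_eq (by
    show (e + y) / 6 = e / 6
    omega)
  have hf : f6 (sj e y) = f6 y := f6_eq (by
    show (e + y) % 6 = y % 6
    omega)
  have hv : (f6 y).val = y := Nat.mod_eq_of_lt hy
  simp only [CL_cons, CL_nil, tr, or_false, nuHC, nuI, G.zero, hc, hf]
  by_contra hcon
  push Not at hcon
  have h1 := (hcon.1 (f6 y)).1
  rw [hv] at h1
  exact hcon.2 h1

theorem f_HO (he6 : e % 6 = 0) (hy : y < 6) :
    CL (nu G A) [.N (aHC e s d), .P (aO 0 (sj e y) s (dg d (Nat.succ (Nat.mul 2 y))))] := by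
  have hc : cl K (sj e y) = cl K e := cl_eq (by
    show (e + y) / 6 = e / 6
    omega)
  have hf : f6 (sj e y) = f6 y := f6_eq (by
    show (e + y) % 6 = y % 6
    omega)
  have hv : (f6 y).val = y := Nat.mod_eq_of_lt hy
  simp only [CL_cons, CL_nil, tr, or_false, nuHC, nuO, G.zero, hc, hf]
  by_contra hcon
  push Not at hcon
  have h1 := (hcon.1 (f6 y)).2
  rw [hv] at h1
  exact hcon.2 h1

end

/-! ### The families (windows) -/

/-- the number of steps -/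
def dB (K e x : ℕ) : ℕ :=
  Nat.mod (Nat.sub (Nat.sub (Nat.add x (Nat.mul 16 K)) (Nat.mul (Nat.mul 2 K) (Nat.mod e 6)))
    (Nat.mul 2 (Nat.div e 6))) (Nat.mul 12 K)

theorem dB_eq {e : ℕ} (he : e < 6 * K) (x : ℕ) :
    dK K (cl K e).val (f6 e).val x = dB K e x := by
  rw [cl_val he]
  rfl

section
variable (h : WK A) {p e e2 s s2 c d g i x y S n : ℕ}
include h

theorem f_sideIO : CL (nu G A) [.N (aI 0 e s c), .N (aO 0 e s c)] := by
  simp only [CL_cons, CL_nil, tr, or_false, nuI, nuO, G.zero]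
  by_contra hcon
  push Not at hcon
  exact h.sideIO hcon.1 hcon.2

theorem f_atE : CL (nu G A) (upto (fun x => .P (aAT i x)) (Nat.mul 12 K)) := by
  rw [CL_upto]
  obtain ⟨x, hx, h1⟩ := h.atE (f6 i)
  exact ⟨x, hx, h1⟩

theorem f_icd (he : e < 6 * K) (hd : Nat.ble (dB K e x) (6 * K) = false) :
    CL (nu G A) [.N (aIC e i), .N (aAT i x)] := by
  simp only [CL_cons, CL_nil, tr, or_false, nuIC, nuAT]
  by_contra hcon
  push Not at hcon
  have h1 := h.icd hcon.1 hcon.2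
  rw [dB_eq he] at h1
  rw [Nat.ble_eq_true_of_le h1] at hd
  cases hd

theorem f_ocd (he : e < 6 * K) (h0 : Nat.ble 1 (dB K e x) = true)
    (hd : Nat.ble (6 * K) (dB K e x) = false) : CL (nu G A) [.N (aOC e i), .N (aAT i x)] := by
  simp only [CL_cons, CL_nil, tr, or_false, nuOC, nuAT]
  by_contra hcon
  push Not at hcon
  have h1 := h.ocd hcon.1 hcon.2
  rw [dB_eq he] at h1
  have h2 := Nat.le_of_ble_eq_true h0
  rcases h1 with h1 | h1
  · omega
  · rw [Nat.ble_eq_true_of_le h1] at hd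
    cases hd

theorem f_inb (he : e < 6 * K) (hd : Nat.ble (6 * K) (dB K e x) = true) :
    CL (nu G A) [.N (aI 0 e 0 i), .N (aAT i x)] := by
  simp only [CL_cons, CL_nil, tr, or_false, nuI, nuAT, G.zero]
  by_contra hcon
  push Not at hcon
  have h1 := h.inb hcon.1 hcon.2
  rw [dB_eq he] at h1
  have h2 := Nat.le_of_ble_eq_true hd
  omega

theorem f_ina (he : e < 6 * K)
    (hd : (bif Nat.ble 1 (dB K e x) then Nat.ble (dB K e x) (6 * K) else false) = false) :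
    CL (nu G A) [.N (aI 0 e 1 i), .N (aAT i x)] := by
  simp only [CL_cons, CL_nil, tr, or_false, nuI, nuAT, G.zero]
  by_contra hcon
  push Not at hcon
  have h1 := h.ina hcon.1 hcon.2
  rw [dB_eq he] at h1
  rw [Nat.ble_eq_true_of_le h1.1, cond_true, Nat.ble_eq_true_of_le h1.2] at hd
  cases hd

theorem f_oub (he : e < 6 * K) (hd : Nat.ble (6 * K) (dB K e x) = false) :
    CL (nu G A) [.N (aO 0 e 0 i), .N (aAT i x)] := by
  simp only [CL_cons, CL_nil, tr, or_false, nuO, nuAT, G.zero]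
  by_contra hcon
  push Not at hcon
  have h1 := h.oub hcon.1 hcon.2
  rw [dB_eq he] at h1
  rw [Nat.ble_eq_true_of_le h1] at hd
  cases hd

theorem f_oua (he : e < 6 * K) (h0 : Nat.ble 1 (dB K e x) = true)
    (hd : Nat.ble (dB K e x) (6 * K) = true) : CL (nu G A) [.N (aO 0 e 1 i), .N (aAT i x)] := by
  simp only [CL_cons, CL_nil, tr, or_false, nuO, nuAT, G.zero]
  by_contra hcon
  push Not at hcon
  have h1 := h.oua hcon.1 hcon.2
  rw [dB_eq he] at h1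
  have h2 := Nat.le_of_ble_eq_true h0
  have h3 := Nat.le_of_ble_eq_true hd
  omega

theorem f_side (he : e < 6 * K) (hu : G.nb 0 e < G.np) :
    CL (nu G A) [.N (aT (G.nb 0 e) i), .P (aIC e i), .P (aOC e i)] := by
  simp only [CL_cons, CL_nil, tr, or_false, nuT, nuIC, nuOC, G.spec 0 G.np0 e he hu, G.zero]
  by_contra hcon
  push Not at hcon
  rcases h.side hcon.1 with h1 | h1
  · exact hcon.2.1 h1
  · exact hcon.2.2 h1

theorem f_icT (he : e < 6 * K) (hu : G.nb 0 e < G.np) :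
    CL (nu G A) [.N (aIC e i), .P (aT (G.nb 0 e) i)] := by
  simp only [CL_cons, CL_nil, tr, or_false, nuT, nuIC, G.spec 0 G.np0 e he hu, G.zero]
  by_contra hcon
  push Not at hcon
  exact hcon.2 (h.icT hcon.1)

theorem f_ocT (he : e < 6 * K) (hu : G.nb 0 e < G.np) :
    CL (nu G A) [.N (aOC e i), .P (aT (G.nb 0 e) i)] := by
  simp only [CL_cons, CL_nil, tr, or_false, nuT, nuOC, G.spec 0 G.np0 e he hu, G.zero]
  by_contra hcon
  push Not at hcon
  exact hcon.2 (h.ocT hcon.1)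

theorem f_zi : CL (nu G A) [.N (aI 0 e s i), .P (aIC e i)] := by
  simp only [CL_cons, CL_nil, tr, or_false, nuI, nuIC, G.zero]
  by_contra hcon
  push Not at hcon
  exact hcon.2 (h.zi hcon.1)

theorem f_zo : CL (nu G A) [.N (aO 0 e s i), .P (aOC e i)] := by
  simp only [CL_cons, CL_nil, tr, or_false, nuO, nuOC, G.zero]
  by_contra hcon
  push Not at hcon
  exact hcon.2 (h.zo hcon.1)

omit h in
theorem sd_side {a b : ℕ} (ha : a < 6 * K) (hb : b < 6 * K) (hne : b ≠ op a) :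
    cl K b = cl K a → f6 b ≠ f6 a + 3 := by
  intro h1 h2
  apply hne
  have h3 := congrArg Fin.val h1
  rw [cl_val ha, cl_val hb] at h3
  rw [← f6_op] at h2
  have h4 : b % 6 = op a % 6 := congrArg Fin.val h2
  unfold op at h4 ⊢
  omega

theorem f_sdO (he : e < 6 * K) (he2 : e2 < 6 * K) (hu : G.nb 0 e < G.np)
    (hu2 : G.nb (G.nb 0 e) e2 < G.np) (hne : e2 ≠ op e) (hb : sgB e e2 s = bb s) :
    CL (nu G A) [.N (aL (G.nb (G.nb 0 e) e2) (op e2) s i), .P (aOC e i)] := by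
  simp only [CL_cons, CL_nil, tr, or_false, nuL, nuOC, G.spec _ hu e2 he2 hu2,
    G.spec 0 G.np0 e he hu, G.zero, cl_op, f6_op]
  by_contra hcon
  push Not at hcon
  exact hcon.2 (h.sdO (sd_side he he2 hne) hcon.1 (by rw [sg_eq he he2]; exact hb))

theorem f_sdI (he : e < 6 * K) (he2 : e2 < 6 * K) (hu : G.nb 0 e < G.np)
    (hu2 : G.nb (G.nb 0 e) e2 < G.np) (hne : e2 ≠ op e) (hb : sgB e e2 s ≠ bb s) :
    CL (nu G A) [.N (aL (G.nb (G.nb 0 e) e2) (op e2) s i), .P (aIC e i)] := by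
  simp only [CL_cons, CL_nil, tr, or_false, nuL, nuIC, G.spec _ hu e2 he2 hu2,
    G.spec 0 G.np0 e he hu, G.zero, cl_op, f6_op]
  by_contra hcon
  push Not at hcon
  exact hcon.2 (h.sdI (sd_side he he2 hne) hcon.1 (by rw [sg_eq he he2]; exact hb))

end

end

end Vale.Agent.P032.H437
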