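import Vale.Agent.P032.H437.SatF

/-!
# P032: the test of the clauses, any number of times

`cls G f a` : the clause of the family `f` with the packed arguments `a`; `ok` : its side conditions;
`tst G w D c a f` : the packed list `c` of literals is this clause (table `D`); `w = true` allows the
families of the windows.  `learned_RK`, `learned_WK` : all learned clauses are true.
-/

namespace Vale.Agent.P032.H437

open Vale.Agent.P032.H859.Rup

def ltb (a b : ℕ) : Bool := Nat.ble (Nat.succ a) b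

theorem lt_iff {a b : ℕ} : ltb a b = true ↔ a < b := by
  unfold ltb
  exact ⟨fun h => Nat.le_of_ble_eq_true h, fun h => Nat.ble_eq_true_of_le h⟩

theorem beq_iff {a b : ℕ} : Nat.beq a b = true ↔ a = b :=
  ⟨fun h => Nat.eq_of_beq_eq_true h, fun h => by rw [h]; exact Nat.beq_refl b⟩

section
variable {K : ℕ} [NeZero K] (G : Geo K)

/-- the clause -/
noncomputable def clsX (f p e e2 s s2 c d g i y S x Z : ℕ) : List Sl :=
  match f with
  | 0 => [.P (aT 0 c)]
  | 1 => [.N (aL p e s c), .P (aT (G.nb p e) c)]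
  | 2 => c6 (fun _ => true) fun c => .P (aI p e s c)
  | 3 => c6 (fun _ => true) fun c => .P (aO p e s c)
  | 4 => [.N (aI p e s c), .P (aL p e s c)]
  | 5 => [.N (aO p e s c), .P (aL p e s c)]
  | 6 => [.N (aL p e s c), .P (aI p e s c), .P (aO p e s c)]
  | 7 => .N (aL p e s c) :: .N (aT p c) :: c6 (ne c) fun d => .P (aL p e s d)
  | 8 => .P (aG p 4) :: c6 (fun _ => true) fun c => .P (aX p e s c)
  | 9 => [.N (aI p e s c), .N (aO p e s c), .N (aMs p c d), .N (aMs p g i), .P (aG p 5)]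
  | 10 => .N (aL p e s c) :: .N (aL p e s d) :: .N (aT p c) :: .N (aT p d) ::
      .P (aM p c d) :: c6 (fun g => ne c g && ne d g) fun g => .P (aL p e s g)
  | 11 => c6 (fun _ => true) fun c => .P (aY p e s c e2 s2)
  | 12 => [.N (aY p e s c e2 s2), .P (aO (G.nb p e) e2 s2 c)]
  | 13 => [.N (aY p e s c e2 s2), .P (aI (G.nb p e) e2 s2 c)]
  | 14 => [.N (aY p e s c e2 s2), .N (aL p e s c)]
  | 15 => [.N (aL p e s c), .N (aL p (nx e) s c)]
  | 16 => [.N (aL p e s c), .N (aL (G.nb p e2) e s c)]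
  | 17 => .N (aG p c) :: c6 (fun c => tb S c) fun c => .P (aT p c)
  | 18 => .P (aG p c) :: c6 (fun c => tb S c) fun c => .N (aT p c)
  | 19 => [.P (aG p 5), .N (aMs p i c), .N (aMs p i d)]
  | 20 => [.P (aG p 6), .N (aMs p i c), .N (aMs p i d), .N (aMs p i g)]
  | 21 => [.N (aMs p i c), .N (aMs p i d), .N (aMs p i g), .N (aMs p i y)]
  | 22 => [.N (aMs p i c), .N (aMs p i d), .N (aMs p i g), .N (aMs p y c), .N (aMs p y d),
      .N (aMs p y g)]
  | 23 => [.P (aG p 6), .N (aMs p i c), .N (aMs p i d), .N (aMs p y c), .N (aMs p y d)]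
  | 24 => .P (aG p 4) :: c6 (fun _ => true) fun c => .P (aD p e c)
  | 25 => .P (aG p 4) :: .N (aT (G.nb (G.nb p e) e2) c) :: c6 (ne c) fun d => .P (aD p e d)
  | 26 => .N (aT (G.nb p e) c) :: .N (aT (G.nb p e2) d) ::
      c6 (fun g => ne c g && ne d g) fun g => .P (aT p g)
  | 27 => [.N (aD p e c), .P (aT (G.nb p e) c)]
  | 28 => [.N (aD p e c), .N (aT p c)]
  | 29 => [.N (aX p e s c), .P (aL p e s c)]
  | 30 => [.N (aX p e s c), .N (aT p c)]
  | 31 => .N (aL p e s c) :: .N (aL p e s d) :: .N (aL p e s g) :: .P (aG p 5) ::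
      c6 (fun _ => true) fun y => .P (aX p e s y)
  | 32 => [.N (aL p e s c), .N (aL p e s d), .N (aL p e s g), .N (aL p e s i)]
  | 33 => .P (aHC e s Z) :: hcl e s Z
  | 34 => [.N (aI 0 e s c), .N (aO 0 e s c)]
  | 35 => upto (fun x => .P (aAT i x)) (Nat.mul 12 K)
  | 36 => [.N (aIC e i), .N (aAT i x)]
  | 37 => [.N (aOC e i), .N (aAT i x)]
  | 38 => [.N (aI 0 e 0 i), .N (aAT i x)]
  | 39 => [.N (aI 0 e 1 i), .N (aAT i x)]
  | 40 => [.N (aO 0 e 0 i), .N (aAT i x)]
  | 41 => [.N (aO 0 e 1 i), .N (aAT i x)]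
  | 42 => [.N (aT (G.nb 0 e) i), .P (aIC e i), .P (aOC e i)]
  | 43 => [.N (aIC e i), .P (aT (G.nb 0 e) i)]
  | 44 => [.N (aOC e i), .P (aT (G.nb 0 e) i)]
  | 45 => [.N (aI 0 e s i), .P (aIC e i)]
  | 46 => [.N (aO 0 e s i), .P (aOC e i)]
  | 47 => [.N (aL (G.nb (G.nb 0 e) e2) (op e2) s i), .P (aOC e i)]
  | 48 => [.N (aL (G.nb (G.nb 0 e) e2) (op e2) s i), .P (aIC e i)]
  | 49 => [.N (aHC e s Z), .P (aI 0 (sj e y) s (dg Z (Nat.mul 2 y)))]
  | 50 => [.N (aHC e s Z), .P (aO 0 (sj e y) s (dg Z (Nat.succ (Nat.mul 2 y))))]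
  | 51 => c6 (fun c => tb S c) (fun c => .N (aL p e s c)) ++
      c6 (fun c => !tb S c) fun c => .P (aO (G.nb p e) e2 s2 c)
  | 52 => c6 (fun c => tb S c) (fun c => .N (aL p e s c)) ++
      c6 (fun c => !tb S c) fun c => .P (aI (G.nb p e) e2 s2 c)
  | _ => []

/-- the side conditions of the families -/
def okX (f p e e2 s s2 c d g i y S x : ℕ) : Bool :=
  match f with
  | 1 => ltb (G.nb p e) G.np
  | 9 => ne d c && (ne g c && (ne i c && (ne g d && (ne i d && ne i g))))
  | 10 => ne d c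
  | 12 => ltb (G.nb p e) G.np && !(Bool.xor (sgB e e2 s2) (bb s))
  | 13 => ltb (G.nb p e) G.np && Bool.xor (sgB e e2 s2) (bb s)
  | 16 => ltb (G.nb p e2) G.np
  | 17 => Nat.beq (pc S + c) 7
  | 18 => Nat.beq (pc S) c
  | 19 => ne d c
  | 20 => ne d c && (ne g c && ne g d)
  | 21 => ne d c && (ne g c && (ne y c && (ne g d && (ne y d && ne y g))))
  | 22 => ne y i && (ne d c && (ne g c && ne g d))
  | 23 => ne y i && ne d c
  | 25 => ltb (G.nb p e) G.np && (ltb (G.nb (G.nb p e) e2) G.np && npB e e2)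
  | 26 => ltb (G.nb p e) G.np && (ltb (G.nb p e2) G.np && npB e e2)
  | 27 => ltb (G.nb p e) G.np
  | 31 => ne d c && (ne g c && ne g d)
  | 32 => ne d c && (ne g c && (ne i c && (ne g d && (ne i d && ne i g))))
  | 33 => Nat.beq (e % 6) 0
  | 36 => !(Nat.ble (dB K e x) (6 * K))
  | 37 => Nat.ble 1 (dB K e x) && !(Nat.ble (6 * K) (dB K e x))
  | 38 => Nat.ble (6 * K) (dB K e x)
  | 39 => !(bif Nat.ble 1 (dB K e x) then Nat.ble (dB K e x) (6 * K) else false)
  | 40 => !(Nat.ble (6 * K) (dB K e x))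
  | 41 => Nat.ble 1 (dB K e x) && Nat.ble (dB K e x) (6 * K)
  | 42 => ltb (G.nb 0 e) G.np
  | 43 => ltb (G.nb 0 e) G.np
  | 44 => ltb (G.nb 0 e) G.np
  | 47 => ltb (G.nb 0 e) G.np && (ltb (G.nb (G.nb 0 e) e2) G.np &&
      (ne (op e) e2 && !(Bool.xor (sgB e e2 s) (bb s))))
  | 48 => ltb (G.nb 0 e) G.np && (ltb (G.nb (G.nb 0 e) e2) G.np &&
      (ne (op e) e2 && Bool.xor (sgB e e2 s) (bb s)))
  | 49 => Nat.beq (e % 6) 0
  | 50 => Nat.beq (e % 6) 0
  | 51 => ltb (G.nb p e) G.np && !(Bool.xor (sgB e e2 s2) (bb s))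
  | 52 => ltb (G.nb p e) G.np && Bool.xor (sgB e e2 s2) (bb s)
  | _ => true

/-- the bounds of the arguments (`c ≤ 7` in the families 17, 18 only; `w`: windows allowed) -/
def bdX (w : Bool) (f p e e2 s s2 c d g i y S : ℕ) : Bool :=
  ltb f 53 && ((w || (ltb f 34 || Nat.ble 49 f)) && (ltb p G.np && (ltb e (6 * K) &&
    (ltb e2 (6 * K) && (ltb s 2 && (ltb s2 2 && (ltb d 6 && (ltb g 6 &&
    (ltb i 6 && (ltb y 6 && (ltb S 64 && (ltb c 6 ||
      (Nat.beq f 17 || Nat.beq f 18)))))))))))))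

variable {G} {A : AtK K}

theorem xor_f {a b : Bool} (h : (!(Bool.xor a b)) = true) : a = b := by
  cases a <;> cases b <;> first | rfl | cases h

theorem xor_t {a b : Bool} (h : Bool.xor a b = true) : a ≠ b := by
  cases a <;> cases b <;> first | (cases h; done) | decide

theorem clsX_true {w : Bool} (h : RK A) (hw : w = true → WK A)
    {f p e e2 s s2 c d g i y S x Z : ℕ}
    (hb : bdX G w f p e e2 s s2 c d g i y S = true)
    (ho : okX G f p e e2 s s2 c d g i y S x = true) :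
    CL (nu G A) (clsX G f p e e2 s s2 c d g i y S x Z) := by
  unfold bdX at hb
  simp only [Bool.and_eq_true, Bool.or_eq_true, lt_iff, beq_iff, Nat.ble_eq] at hb
  obtain ⟨h53, hww, hp, he, he2, hs, hs2, hd, hg, hi, hy, hS, hc'⟩ := hb
  by_cases hf : f = 17
  · subst hf
    simp only [okX, beq_iff] at ho
    exact f_GEa hS ho
  by_cases hf' : f = 18
  · subst hf'
    simp only [okX, beq_iff] at ho
    exact f_GEb hS ho
  have hc : c < 6 := by omega
  have hW : 34 ≤ f → f < 49 → WK A := fun h34 h49 => hw (hww.resolve_right (by omega))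
  match f, ho with
  | 0, _ => exact f_six h hc
  | 1, ho => exact f_memb h hp he (lt_iff.1 ho)
  | 2, _ => exact f_neI h
  | 3, _ => exact f_neO h
  | 4, _ => exact f_IL h
  | 5, _ => exact f_OL h
  | 6, _ => exact f_LIO h
  | 7, _ => exact f_pair h hc
  | 8, _ => exact f_sub4 h
  | 9, ho =>
    simp only [okX, Bool.and_eq_true, ne_iff] at ho
    obtain ⟨h1, h2, h3, h4, h5, h6⟩ := ho
    exact f_side4 h hc hd hg hi h1 h2 h3 h4 h5 h6
  | 10, ho => exact f_defM h hc hd (ne_iff.1 ho)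
  | 11, _ => exact f_yE h hs2
  | 12, ho =>
    simp only [okX, Bool.and_eq_true, lt_iff] at ho
    exact f_yO hp he he2 hs2 ho.1 (xor_f ho.2)
  | 13, ho =>
    simp only [okX, Bool.and_eq_true, lt_iff] at ho
    exact f_yI hp he he2 hs2 ho.1 (xor_t ho.2)
  | 14, _ => exact f_yL hs2
  | 15, _ => exact f_sixty h
  | 16, ho => exact f_product h hp he2 (lt_iff.1 ho)
  | 17, _ => exact absurd rfl hf
  | 18, _ => exact absurd rfl hf'
  | 19, ho => exact f_M4 h hc hd (ne_iff.1 ho)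
  | 20, ho =>
    simp only [okX, Bool.and_eq_true, ne_iff] at ho
    obtain ⟨h1, h2, h3⟩ := ho
    exact f_M5 h hc hd hg h1 h2 h3
  | 21, ho =>
    simp only [okX, Bool.and_eq_true, ne_iff] at ho
    obtain ⟨h1, h2, h3, h4, h5, h6⟩ := ho
    exact f_M6 h hc hd hg hy h1 h2 h3 h4 h5 h6
  | 22, ho =>
    simp only [okX, Bool.and_eq_true, ne_iff] at ho
    obtain ⟨h1, h2, h3, h4⟩ := ho
    exact f_K23 h hi hy hc hd hg h1 h2 h3 h4
  | 23, ho =>
    simp only [okX, Bool.and_eq_true, ne_iff] at ho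
    exact f_C5 h hi hy hc hd ho.1 ho.2
  | 24, _ => exact f_notsub h
  | 25, ho =>
    simp only [okX, Bool.and_eq_true, lt_iff] at ho
    exact f_third h hp he he2 ho.1 ho.2.1 ho.2.2 hc
  | 26, ho =>
    simp only [okX, Bool.and_eq_true, lt_iff] at ho
    exact f_lemB h hp he he2 ho.1 ho.2.1 ho.2.2 hc hd
  | 27, ho => exact f_DT hp he (lt_iff.1 ho)
  | 28, _ => exact f_DX
  | 29, _ => exact f_XL
  | 30, _ => exact f_XT
  | 31, ho =>
    simp only [okX, Bool.and_eq_true, ne_iff] at ho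
    obtain ⟨h1, h2, h3⟩ := ho
    exact f_room3 h hc hd hg h1 h2 h3
  | 32, ho =>
    simp only [okX, Bool.and_eq_true, ne_iff] at ho
    obtain ⟨h1, h2, h3, h4, h5, h6⟩ := ho
    exact f_room4 h hc hd hg hi h1 h2 h3 h4 h5 h6
  | 33, ho => exact f_HC (beq_iff.1 ho)
  | 34, _ => exact f_sideIO (hW (by omega) (by omega))
  | 35, _ => exact f_atE (hW (by omega) (by omega))
  | 36, ho =>
    simp only [okX, Bool.not_eq_true'] at ho
    exact f_icd (hW (by omega) (by omega)) he ho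
  | 37, ho =>
    simp only [okX, Bool.and_eq_true, Bool.not_eq_true'] at ho
    exact f_ocd (hW (by omega) (by omega)) he ho.1 ho.2
  | 38, ho => exact f_inb (hW (by omega) (by omega)) he ho
  | 39, ho =>
    simp only [okX, Bool.not_eq_true'] at ho
    exact f_ina (hW (by omega) (by omega)) he ho
  | 40, ho =>
    simp only [okX, Bool.not_eq_true'] at ho
    exact f_oub (hW (by omega) (by omega)) he ho
  | 41, ho =>
    simp only [okX, Bool.and_eq_true] at ho
    exact f_oua (hW (by omega) (by omega)) he ho.1 ho.2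
  | 42, ho => exact f_side (hW (by omega) (by omega)) he (lt_iff.1 ho)
  | 43, ho => exact f_icT (hW (by omega) (by omega)) he (lt_iff.1 ho)
  | 44, ho => exact f_ocT (hW (by omega) (by omega)) he (lt_iff.1 ho)
  | 45, _ => exact f_zi (hW (by omega) (by omega))
  | 46, _ => exact f_zo (hW (by omega) (by omega))
  | 47, ho =>
    simp only [okX, Bool.and_eq_true, lt_iff, ne_iff] at ho
    exact f_sdO (hW (by omega) (by omega)) he he2 ho.1 ho.2.1 ho.2.2.1 (xor_f ho.2.2.2)
  | 48, ho =>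
    simp only [okX, Bool.and_eq_true, lt_iff, ne_iff] at ho
    exact f_sdI (hW (by omega) (by omega)) he he2 ho.1 ho.2.1 ho.2.2.1 (xor_t ho.2.2.2)
  | 49, ho => exact f_HI (beq_iff.1 ho) hy
  | 50, ho => exact f_HO (beq_iff.1 ho) hy
  | 51, ho =>
    simp only [okX, Bool.and_eq_true, lt_iff] at ho
    exact f_sO h hp he he2 ho.1 (xor_f ho.2)
  | 52, ho =>
    simp only [okX, Bool.and_eq_true, lt_iff] at ho
    exact f_sI h hp he he2 ho.1 (xor_t ho.2)
  | n + 53, _ => exact absurd h53 (by omega)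

variable (G)

/-- a field of the packed arguments -/
def fld (a n w : ℕ) : ℕ := Nat.land (Nat.shiftRight a n) w

/-- the clause of the family `f` with the packed arguments `a` -/
noncomputable def cls (f a : ℕ) : List Sl :=
  clsX G f (fld a 0 255) (fld a 8 31) (fld a 13 31) (fld a 18 1) (fld a 19 1) (fld a 20 7)
    (fld a 23 7) (fld a 26 7) (fld a 29 7) (fld a 32 7) (fld a 35 63) (fld a 41 63)
    (Nat.shiftRight a 47)

def ok (w : Bool) (f a : ℕ) : Bool :=
  bdX G w f (fld a 0 255) (fld a 8 31) (fld a 13 31) (fld a 18 1) (fld a 19 1) (fld a 20 7)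
    (fld a 23 7) (fld a 26 7) (fld a 29 7) (fld a 32 7) (fld a 35 63) &&
  okX G f (fld a 0 255) (fld a 8 31) (fld a 13 31) (fld a 18 1) (fld a 19 1) (fld a 20 7)
    (fld a 23 7) (fld a 26 7) (fld a 29 7) (fld a 32 7) (fld a 35 63) (fld a 41 63)

/-- the test of a leaf -/
noncomputable def tst (w : Bool) (D : ℕ → Am) (c a f : ℕ) : Bool :=
  Bool.rec (motive := fun _ => Bool) false
    (mt D (cls G f a) (Nat.land c 255) (Nat.shiftRight c 8)) (ok G w f a)

variable {G}

theorem sat_tst {w : Bool} (h : RK A) (hw : w = true → WK A) (D : ℕ → Am) (c a f : ℕ)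
    (ht : tst G w D c a f = true) : Sat (fun v => nu G A (D v)) (dec c) := by
  have h1 := band (a := ok G w f a) ht
  have h2 := h1.1
  unfold ok at h2
  rw [Bool.and_eq_true] at h2
  rw [dec_eq]
  exact mt_spec _ _ _ _ h1.2 (clsX_true h hw h2.1 h2.2)

/-- **all learned clauses are true** -/
theorem learned_K {w : Bool} (h : RK A) (hw : w = true → WK A) {DT : TA} {E n : ℕ}
    (hE : Even' E) {B D : Tr} (hB : allp (tst G w (getA DT)) B = true)
    (hD : run E (look (getC B) n D) n D 0 1 = true) (j : ℕ) :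
    Sat (fun v => nu G A (getA DT v)) (getC D j) :=
  learned hE hD (fun i _ => sat_of_allp (fun c H k => sat_tst h hw (getA DT) c H k) B hB i) j

end

end Vale.Agent.P032.H437
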