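import Vale.Agent.P032.H437.SatK
import Vale.Agent.P032.H617.WK
import Vale.Agent.P032.H894.Side4

/-!
# P032: the atoms of the frame satisfy the rules `RK` and `WK`
-/

open Set Filter Topology Metric

noncomputable section

namespace Vale.Agent.P032.H437

open Vale.Agent.P032.Six Vale.Agent.P032.Sweep Vale.Agent.P032.H429 Vale.Agent.P032.H266
  Vale.Agent.P032.H617 Vale.Agent.P032.H894

variable {U : Fin 6 → Set ℂ} {T : ℂ → Set (Fin 6)} {K : ℕ} {uu : Fin K → ℝ}
  {FF : Fin K → Bool → Ultrafilter ℝ}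

/-- the atoms of the frame -/
def atkOf (U : Fin 6 → Set ℂ) (T : ℂ → Set (Fin 6)) (z : ℂ) (uu : Fin K → ℝ)
    (FF : Fin K → Bool → Ultrafilter ℝ) (X : Fin 6 → ℝ) : AtK K where
  TT := TK T z uu
  LT := LK T z uu FF
  IN := IK T z uu FF
  OUT := OK T z uu FF
  MM := MK T z uu
  AT := fun i x => atK uu X i = x
  IC := fun c k i => TK T z uu (stK c (H437.q0 K) k) i ∧ ICK U z uu c k i
  OC := fun c k i => TK T z uu (stK c (H437.q0 K) k) i ∧ OCK U z uu c k i

theorem rk_of (h : FrK U T uu FF)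
    (hmin : ∀ z, 4 ≤ (T z).ncard → ∀ s, s ⊆ T z → s ≠ T z →
      ¬ ∀ᶠ w in 𝓝 z, ∃ i ∈ s, w ∈ U i ∨ (w ∈ XX U ∧ i ∈ Pal U w)) (z : ℂ)
    (h6 : ∀ i, i ∈ T z) (X : Fin 6 → ℝ) : RK (atkOf U T z uu FF X) where
  lok := lok_of_frK h hmin z
  six := by
    intro i
    show i ∈ T (lK z uu (H437.q0 K))
    have e : lK z uu (H437.q0 K) = z := lK_zero z uu
    rw [e]
    exact h6 i
  side4 := by
    intro c σ q j x y a b _ hxa hxb hya hyb _ hM hM' hi ho
    by_contra h5
    exact side4K h.irr z hxa hxb hya hyb h5 hM hM' hi ho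

theorem dx_three : ∀ m : Fin 6, dx m + dx (m + 3) = 0 := by decide

theorem dy_three : ∀ m : Fin 6, dy m + dy (m + 3) = 0 := by decide

theorem stK_back (c : Fin K) (q : QK K) (m : Fin 6) : stK c (stK c q m) (m + 3) = q := by
  unfold stK
  rw [Function.update_self, Function.update_idem]
  have h1 := dx_three m
  have h2 := dy_three m
  have e1 : (q c).1 + dx m + dx (m + 3) = (q c).1 := by omega
  have e2 : (q c).2 + dy m + dy (m + 3) = (q c).2 := by omega
  rw [e1, e2]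
  exact Function.update_eq_self c q

theorem sx_same : ∀ (k m : Fin 6) (σ : Bool), m ≠ k → m ≠ k + 3 →
    (decide (k - (m + 3) = 1) || decide (k - (m + 3) = 2)) = sgn (m - k) σ := by decide

theorem sx_up : ∀ k m : Fin 6, sgc (k - (m + 3)) = sgd (m - k) := by decide

theorem sx_down : ∀ k m : Fin 6, sgd (k - (m + 3)) = sgc (m - k) := by decide

theorem sx_eq {c c' : Fin K} {k m : Fin 6} {σ : Bool} (h : c' = c → m ≠ k ∧ m ≠ k + 3) :
    sxK c' c (k - (m + 3)) = sgK c c' (m - k) σ := by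
  unfold sxK sgK
  rcases lt_trichotomy c c' with h1 | h1 | h1
  · rw [if_neg h1.ne', if_neg (not_lt.2 h1.le), if_neg h1.ne, if_pos h1]
    exact sx_down k m
  · subst h1
    rw [if_pos rfl, if_pos rfl]
    exact sx_same k m σ (h rfl).1 (h rfl).2
  · rw [if_neg h1.ne, if_pos h1, if_neg h1.ne', if_neg (not_lt.2 h1.le)]
    exact sx_up k m

theorem m33 : ∀ m : Fin 6, m + 3 + 3 = m := by decide

theorem wk_of [NeZero K] (h : FrK U T uu FF) {z : ℂ} {X : Fin 6 → ℝ}
    (hX : ∀ i, X i ∈ HD U z i) : H437.WK (atkOf U T z uu FF X) := by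
  have hW := wk_of_frK h hX
  have hmem : ∀ {c σ q j i}, LK T z uu FF c σ q j i → TK T z uu (stK c q j) i := by
    intro c σ q j i hl
    have h1 := (h.fr c).memb_w hl
    rwa [lK_step] at h1
  have hIL : ∀ {c σ q j i}, IK T z uu FF c σ q j i → LK T z uu FF c σ q j i :=
    fun hl => Inn.mem h.irr hl
  have hOL : ∀ {c σ q j i}, OK T z uu FF c σ q j i → LK T z uu FF c σ q j i :=
    fun hl => Out.mem h.irr hl
  refine
    { sideIO := ?_, atE := ?_, icd := ?_, ocd := ?_, inb := ?_, ina := ?_, oub := ?_, oua := ?_,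
      side := ?_, icT := fun h1 => h1.1, ocT := fun h1 => h1.1, zi := ?_, zo := ?_, sdO := ?_,
      sdI := ?_ }
  · intro c σ j i h1 h2
    cases σ
    · have h3 := hW.atI0 h1
      have h4 := hW.atO0 h2
      omega
    · have h3 := hW.atI1 h1
      have h4 := hW.atO1 h2
      omega
  · intro i
    exact ⟨_, hW.at_lt i (Nat.pos_of_ne_zero (NeZero.ne K)), rfl⟩
  · rintro c k i x ⟨-, h1⟩ rfl
    exact hW.atIC h1
  · rintro c k i x ⟨-, h1⟩ rfl
    exact hW.atOC h1
  · rintro c k i x h1 rfl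
    exact hW.atI0 h1
  · rintro c k i x h1 rfl
    exact hW.atI1 h1
  · rintro c k i x h1 rfl
    exact hW.atO0 h1
  · rintro c k i x h1 rfl
    exact hW.atO1 h1
  · intro c k i h1
    rcases hW.ty h1 with h2 | h2
    · exact Or.inl ⟨h1, h2⟩
    · exact Or.inr ⟨h1, h2⟩
  · intro c σ k i h1
    exact ⟨hmem (hIL h1), hW.inz h1⟩
  · intro c σ k i h1
    exact ⟨hmem (hOL h1), hW.outz h1⟩
  · intro c c' σ k m i hm hl hs
    have e := stK_back c' (stK c (H437.q0 K) k) m
    have h1 := hmem hl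
    rw [e] at h1
    refine ⟨h1, ?_⟩
    by_cases hc : c' = c ∧ m = k
    · obtain ⟨rfl, rfl⟩ := hc
      exact hW.opp e (m33 m).symm hl
    · have hc' : c' = c → m ≠ k ∧ m ≠ k + 3 := fun e1 => ⟨fun e2 => hc ⟨e1, e2⟩, hm e1⟩
      refine hW.ltO e (fun e1 => ⟨(hm e1) ∘ fun e2 => ?_, fun e2 => (hc' e1).1 ?_⟩) ?_ hl
      · rw [e2, m33]
      · rw [e2, m33]
      · rw [sx_eq (σ := σ) hc']
        exact hs
  · intro c c' σ k m i hm hl hs
    have e := stK_back c' (stK c (H437.q0 K) k) m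
    have h1 := hmem hl
    rw [e] at h1
    refine ⟨h1, ?_⟩
    have hc' : c' = c → m ≠ k ∧ m ≠ k + 3 := by
      intro e1
      refine ⟨fun e2 => hs ?_, hm e1⟩
      rw [e1, e2, sub_self]
      unfold sgK
      rw [if_pos rfl]
      rfl
    refine hW.ltI e (fun e1 => ⟨(hm e1) ∘ fun e2 => ?_, fun e2 => (hc' e1).1 ?_⟩) ?_ hl
    · rw [e2, m33]
    · rw [e2, m33]
    · rw [sx_eq (σ := σ) hc']
      exact hs

end Vale.Agent.P032.H437
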