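import Vale.Agent.P032.H437.LOK
import Vale.Agent.P032.H437.SatB

/-!
# P032: the clauses of the rules for any number of times

`AtK K` : the atoms; `RK A` : the rules for letters; `WK A` : the rules for windows (one position for
each colour); `Geo K` : a finite set of points; `nu G A` : the valuation of the atoms of the
certificates; one theorem for each family of clauses.
-/

namespace Vale.Agent.P032.H437

open Vale.Agent.P032.H859.Rup

/-- the atoms -/
structure AtK (K : ℕ) where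
  TT : QK K → Fin 6 → Prop
  LT : Fin K → Bool → QK K → Fin 6 → Fin 6 → Prop
  IN : Fin K → Bool → QK K → Fin 6 → Fin 6 → Prop
  OUT : Fin K → Bool → QK K → Fin 6 → Fin 6 → Prop
  MM : QK K → Fin 6 → Fin 6 → Prop
  AT : Fin 6 → ℕ → Prop
  IC : Fin K → Fin 6 → Fin 6 → Prop
  OC : Fin K → Fin 6 → Fin 6 → Prop

/-- the centre -/
def q0 (K : ℕ) : QK K := fun _ => (0, 0)

/-- the rules for letters -/
structure RK {K : ℕ} (A : AtK K) : Prop where
  lok : LOK A.TT A.LT A.IN A.OUT A.MM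
  six : ∀ i, A.TT (q0 K) i
  side4 : ∀ {c σ q j x y a b}, x ≠ y → x ≠ a → x ≠ b → y ≠ a → y ≠ b → a ≠ b → A.MM q x y →
    A.MM q a b → A.IN c σ q j x → A.OUT c σ q j x → GEK A.TT q 5

/-- the number of steps from the first ray of the front half of the slot `(c, k)` to the
position `x` -/
def dK (K : ℕ) (c k x : ℕ) : ℕ := (x + 16 * K - 2 * K * k - 2 * c) % (12 * K)

/-- the rules for windows -/
structure WK {K : ℕ} (A : AtK K) : Prop where
  sideIO : ∀ {c σ j i}, A.IN c σ (q0 K) j i → ¬ A.OUT c σ (q0 K) j i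
  atE : ∀ i, ∃ x, x < 12 * K ∧ A.AT i x
  icd : ∀ {c k i x}, A.IC c k i → A.AT i x → dK K c.val k.val x ≤ 6 * K
  ocd : ∀ {c k i x}, A.OC c k i → A.AT i x → dK K c.val k.val x = 0 ∨ 6 * K ≤ dK K c.val k.val x
  inb : ∀ {c k i x}, A.IN c false (q0 K) k i → A.AT i x → dK K c.val k.val x < 6 * K
  ina : ∀ {c k i x}, A.IN c true (q0 K) k i → A.AT i x →
    1 ≤ dK K c.val k.val x ∧ dK K c.val k.val x ≤ 6 * K
  oub : ∀ {c k i x}, A.OUT c false (q0 K) k i → A.AT i x → 6 * K ≤ dK K c.val k.val x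
  oua : ∀ {c k i x}, A.OUT c true (q0 K) k i → A.AT i x →
    dK K c.val k.val x = 0 ∨ 6 * K < dK K c.val k.val x
  side : ∀ {c k i}, A.TT (stK c (q0 K) k) i → A.IC c k i ∨ A.OC c k i
  icT : ∀ {c k i}, A.IC c k i → A.TT (stK c (q0 K) k) i
  ocT : ∀ {c k i}, A.OC c k i → A.TT (stK c (q0 K) k) i
  zi : ∀ {c σ k i}, A.IN c σ (q0 K) k i → A.IC c k i
  zo : ∀ {c σ k i}, A.OUT c σ (q0 K) k i → A.OC c k i
  sdO : ∀ {c c' : Fin K} {σ : Bool} {k m i : Fin 6}, (c' = c → m ≠ k + 3) →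
    A.LT c' σ (stK c' (stK c (q0 K) k) m) (m + 3) i → sgK c c' (m - k) σ = σ → A.OC c k i
  sdI : ∀ {c c' : Fin K} {σ : Bool} {k m i : Fin 6}, (c' = c → m ≠ k + 3) →
    A.LT c' σ (stK c' (stK c (q0 K) k) m) (m + 3) i → sgK c c' (m - k) σ ≠ σ → A.IC c k i

/-! ### Numbers -/

def f6 (n : ℕ) : Fin 6 := ⟨n % 6, Nat.mod_lt _ (by decide)⟩
def bb (n : ℕ) : Bool := n % 2 == 1

theorem f6_ne {a b : ℕ} (ha : a < 6) (hb : b < 6) (h : a ≠ b) : f6 a ≠ f6 b := by
  intro e
  have := congrArg Fin.val e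
  simp only [f6] at this
  omega

theorem f6_val (i : Fin 6) : f6 i.val = i := Fin.ext (Nat.mod_eq_of_lt i.2)

theorem f6_eq {a b : ℕ} (h : a % 6 = b % 6) : f6 a = f6 b := Fin.ext h

/-- the colour `i` as a number -/
theorem ex6 {Q : Fin 6 → Prop} (h : ∃ i, Q i) : ∃ c, c < 6 ∧ Q (f6 c) := by
  obtain ⟨i, hi⟩ := h
  exact ⟨i.val, i.2, by rwa [f6_val]⟩

theorem f6_ne' {c d : ℕ} (h : f6 c ≠ f6 d) : c ≠ d := fun e => h (by rw [e])

theorem f6_add_one {k : ℕ} (hk : k < 6) : f6 ((k + 1) % 6) = f6 k + 1 := by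
  interval_cases k <;> rfl

theorem f6_add_three {k : ℕ} (hk : k < 6) : f6 ((k + 3) % 6) = f6 k + 3 := by
  interval_cases k <;> rfl

theorem f6_mod (k : ℕ) : f6 (k % 6) = f6 k := f6_eq (Nat.mod_mod _ _)

section
variable {K : ℕ} [NeZero K]

/-- the class of a slot -/
def cl (K : ℕ) [NeZero K] (e : ℕ) : Fin K := Fin.ofNat K (e / 6)

theorem cl_val {e : ℕ} (he : e < 6 * K) : (cl K e).val = e / 6 := by
  show e / 6 % K = e / 6
  exact Nat.mod_eq_of_lt (by omega)

/-- the next slot and the opposite slot -/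
def nx (e : ℕ) : ℕ := 6 * (e / 6) + (e % 6 + 1) % 6
def op (e : ℕ) : ℕ := 6 * (e / 6) + (e % 6 + 3) % 6

theorem cl_eq {a b : ℕ} (h : a / 6 = b / 6) : cl K a = cl K b := by unfold cl; rw [h]

theorem cl_nx (e : ℕ) : cl K (nx e) = cl K e := cl_eq (by unfold nx; omega)
theorem cl_op (e : ℕ) : cl K (op e) = cl K e := cl_eq (by unfold op; omega)

theorem f6_nx (e : ℕ) : f6 (nx e) = f6 e + 1 := by
  have h1 : f6 (nx e) = f6 ((e % 6 + 1) % 6) := f6_eq (by unfold nx; omega)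
  rw [h1, f6_add_one (Nat.mod_lt _ (by omega)), f6_mod]

theorem f6_op (e : ℕ) : f6 (op e) = f6 e + 3 := by
  have h1 : f6 (op e) = f6 ((e % 6 + 3) % 6) := f6_eq (by unfold op; omega)
  rw [h1, f6_add_three (Nat.mod_lt _ (by omega)), f6_mod]

omit [NeZero K] in
theorem nx_lt {e : ℕ} (he : e < 6 * K) : nx e < 6 * K := by unfold nx; omega
omit [NeZero K] in
theorem op_lt {e : ℕ} (he : e < 6 * K) : op e < 6 * K := by unfold op; omega

/-! tests -/

def df (e e2 : ℕ) : ℕ := Nat.mod (Nat.sub (Nat.add (Nat.mod e2 6) 6) (Nat.mod e 6)) 6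

/-- the sign of the sweep -/
def sgB (e e2 s2 : ℕ) : Bool :=
  bif Nat.beq (Nat.div e 6) (Nat.div e2 6) then
    bif Nat.beq (df e e2) 0 then bb s2 else bif Nat.beq (df e e2) 3 then !bb s2
    else Nat.ble (df e e2) 2
  else bif Nat.ble (Nat.div e 6) (Nat.div e2 6) then Nat.ble (df e e2) 2
  else bif Nat.ble 1 (df e e2) then Nat.ble (df e e2) 3 else false

/-- not parallel -/
def npB (e e2 : ℕ) : Bool :=
  bif Nat.beq (Nat.div e 6) (Nat.div e2 6) then
    bif Nat.beq (df e e2) 0 then false else !Nat.beq (df e e2) 3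
  else true

theorem sgn_df : ∀ a < 6, ∀ b < 6, ∀ s : Bool, sgn (f6 b - f6 a) s =
    (bif Nat.beq (df a b) 0 then s else bif Nat.beq (df a b) 3 then !s
      else Nat.ble (df a b) 2) := by decide

theorem sgc_df : ∀ a < 6, ∀ b < 6, sgc (f6 b - f6 a) = Nat.ble (df a b) 2 := by decide

theorem sgd_df : ∀ a < 6, ∀ b < 6, sgd (f6 b - f6 a) =
    (bif Nat.ble 1 (df a b) then Nat.ble (df a b) 3 else false) := by decide

theorem df_mod (a b : ℕ) : df (a % 6) (b % 6) = df a b := by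
  show (b % 6 % 6 + 6 - a % 6 % 6) % 6 = (b % 6 + 6 - a % 6) % 6
  rw [Nat.mod_mod, Nat.mod_mod]

theorem sg_eq {e e2 : ℕ} (he : e < 6 * K) (he2 : e2 < 6 * K) (s2 : ℕ) :
    sgK (cl K e) (cl K e2) (f6 e2 - f6 e) (bb s2) = sgB e e2 s2 := by
  have h1 := sgn_df (e % 6) (Nat.mod_lt _ (by omega)) (e2 % 6) (Nat.mod_lt _ (by omega)) (bb s2)
  have h2 := sgc_df (e % 6) (Nat.mod_lt _ (by omega)) (e2 % 6) (Nat.mod_lt _ (by omega))
  have h3 := sgd_df (e % 6) (Nat.mod_lt _ (by omega)) (e2 % 6) (Nat.mod_lt _ (by omega))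
  rw [f6_mod, f6_mod, df_mod] at h1 h2 h3
  unfold sgK sgB
  rw [h1, h2, h3]
  have e1 : (cl K e).val = Nat.div e 6 := cl_val he
  have e2' : (cl K e2).val = Nat.div e2 6 := cl_val he2
  by_cases h4 : cl K e = cl K e2
  · have h5 : Nat.beq (Nat.div e 6) (Nat.div e2 6) = true := by
      rw [← e1, ← e2', h4]; exact Nat.beq_refl _
    rw [if_pos h4, h5, cond_true]
  · have h5 : Nat.beq (Nat.div e 6) (Nat.div e2 6) = false := by
      cases hb : Nat.beq (Nat.div e 6) (Nat.div e2 6)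
      · rfl
      · exact absurd (Fin.ext (by rw [e1, e2', Nat.eq_of_beq_eq_true hb])) h4
    rw [if_neg h4, h5, cond_false]
    by_cases h6 : cl K e < cl K e2
    · have h7 : Nat.ble (Nat.div e 6) (Nat.div e2 6) = true := by
        rw [← e1, ← e2']
        exact Nat.ble_eq_true_of_le (le_of_lt h6)
      rw [if_pos h6, h7, cond_true]
    · have h7 : Nat.ble (Nat.div e 6) (Nat.div e2 6) = false := by
        cases hb : Nat.ble (Nat.div e 6) (Nat.div e2 6)
        · rfl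
        · exfalso
          have h8 := Nat.le_of_ble_eq_true hb
          rw [← e1, ← e2'] at h8
          have h9 : (cl K e).val ≠ (cl K e2).val := fun h => h4 (Fin.ext h)
          exact h6 (Fin.lt_def.2 (lt_of_le_of_ne h8 h9))
      rw [if_neg h6, h7, cond_false]

theorem np_df : ∀ a < 6, ∀ b < 6, (bif Nat.beq (df a b) 0 then false else !Nat.beq (df a b) 3) =
    (!decide (f6 b = f6 a) && !decide (f6 b = f6 a + 3)) := by decide

theorem np_eq {e e2 : ℕ} (he : e < 6 * K) (he2 : e2 < 6 * K) (h : npB e e2 = true) :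
    NpK (cl K e) (cl K e2) (f6 e) (f6 e2) = true := by
  have h3 := np_df (e % 6) (Nat.mod_lt _ (by omega)) (e2 % 6) (Nat.mod_lt _ (by omega))
  rw [f6_mod, f6_mod, df_mod] at h3
  unfold npB at h
  unfold NpK
  rw [h3] at h
  by_cases h4 : cl K e = cl K e2
  · cases hb : Nat.beq (Nat.div e 6) (Nat.div e2 6)
    · exfalso
      have h5 := congrArg Fin.val h4
      rw [cl_val he, cl_val he2] at h5
      have h6 : Nat.beq (e / 6) (e2 / 6) = true := by rw [h5]; exact Nat.beq_refl _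
      exact Bool.false_ne_true (hb.symm.trans h6)
    · rw [hb, cond_true] at h
      rw [h, Bool.or_true]
  · rw [decide_eq_false h4]
    rfl
end

end Vale.Agent.P032.H437
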