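import Vale.Agent.P032.H437.SatG
import Vale.Agent.P032.H437.SatI
import Vale.Agent.P032.H416.XDef0

/-!
# P032: the world `NoThree` for the certificates

`NK A` : no point with at least four colours has three neighbours with at least four colours.
`nk_of` : the instance from `NoThree T`.  `tstN` : the test of `SatG` with the family `53`.
-/

open Set Filter Topology Metric

namespace Vale.Agent.P032.H437

open Vale.Agent.P032.Six Vale.Agent.P032.Sweep Vale.Agent.P032.S5.H767 Vale.Agent.P032.H617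
  Vale.Agent.P032.H859.Rup

/-- the slots `(c, j)` and `(c', j')` are different -/
def DfK {K : ℕ} (c c' : Fin K) (j j' : Fin 6) : Prop := c ≠ c' ∨ j ≠ j'

/-- no three big neighbours -/
structure NK {K : ℕ} (A : AtK K) : Prop where
  n3 : ∀ {q : QK K} {c c' c'' : Fin K} {j j' j'' : Fin 6}, DfK c c' j j' → DfK c c'' j j'' →
    DfK c' c'' j' j'' → GEK A.TT q 4 → GEK A.TT (stK c q j) 4 → GEK A.TT (stK c' q j') 4 →
    GEK A.TT (stK c'' q j'') 4 → False

section
variable {U : Fin 6 → Set ℂ} {T : ℂ → Set (Fin 6)} {K : ℕ} {uu : Fin K → ℝ}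
  {FF : Fin K → Bool → Ultrafilter ℝ}

theorem cos_of_pt {w : ℂ} {a b : ℝ} (h : pt w a = pt w b) :
    Real.sin ((b - a) * (Real.pi / 3)) = 0 ∧ Real.cos ((b - a) * (Real.pi / 3)) = 1 := by
  have h1 : cis (a * (Real.pi / 3)) = cis (b * (Real.pi / 3)) := add_left_cancel h
  have h2 := congrArg Complex.re h1
  have h3 := congrArg Complex.im h1
  rw [cis_re, cis_re] at h2
  rw [cis_im, cis_im] at h3
  rw [show (b - a) * (Real.pi / 3) = b * (Real.pi / 3) - a * (Real.pi / 3) by ring, Real.sin_sub,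
    Real.cos_sub, h2, h3]
  have h4 := Real.sin_sq_add_cos_sq (b * (Real.pi / 3))
  constructor
  · ring
  · nlinarith

theorem pt_ne_npar {w : ℂ} {a b : ℝ} (h : Npar a b) : pt w a ≠ pt w b :=
  fun h1 => h (cos_of_pt h1).1

theorem pt_ne_fin {w : ℂ} (u : ℝ) {j k : Fin 6} (h : j ≠ k) :
    pt w (u + (j.val : ℝ)) ≠ pt w (u + (k.val : ℝ)) := by
  by_cases h3 : k = j + 3
  · intro h1
    have h2 := (cos_of_pt h1).2
    obtain ⟨n, hn⟩ := fin_sub_cast j k
    have h4 : ((k - j : Fin 6).val : ℝ) = 3 := by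
      rw [h3]
      have : (j + 3 - j : Fin 6) = 3 := by abel
      rw [this]
      rfl
    have e : (u + (k.val : ℝ) - (u + (j.val : ℝ))) * (Real.pi / 3) =
        Real.pi + n * (2 * Real.pi) := by
      rw [show u + (k.val : ℝ) - (u + (j.val : ℝ)) = (k.val : ℝ) - (j.val : ℝ) by ring, hn, h4]
      ring
    rw [e, Real.cos_add_int_mul_two_pi, Real.cos_pi] at h2
    norm_num at h2
  · exact pt_ne_npar (npar_fin u (fun e => h e.symm) h3)

theorem pt_ne_df (h : FrK U T uu FF) {w : ℂ} {c c' : Fin K} {j j' : Fin 6}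
    (hd : DfK c c' j j') : pt w (uu c + (j.val : ℝ)) ≠ pt w (uu c' + (j'.val : ℝ)) := by
  by_cases hc : c = c'
  · subst hc
    rcases hd with h1 | h1
    · exact absurd rfl h1
    · exact pt_ne_fin (uu c) h1
  · refine pt_ne_npar (h.npar ?_)
    unfold NpK
    rw [decide_eq_false hc]
    rfl

theorem nk_of (h : FrK U T uu FF) (z : ℂ) (X : Fin 6 → ℝ) (hN : H154.NoThree T) :
    NK (atkOf U T z uu FF X) where
  n3 := by
    intro q c c' c'' j j' j'' h1 h2 h3 hq ha hb hc
    have ha : 4 ≤ (T (lK z uu (stK c q j))).ncard := ha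
    have hb : 4 ≤ (T (lK z uu (stK c' q j'))).ncard := hb
    have hc : 4 ≤ (T (lK z uu (stK c'' q j''))).ncard := hc
    have hq : 4 ≤ (T (lK z uu q)).ncard := hq
    rw [← lK_step] at ha hb hc
    rcases hN _ _ _ _ hq (dist_pt _ _) (dist_pt _ _) (dist_pt _ _) ha hb hc with h4 | h4 | h4
    · exact pt_ne_df h h1 h4
    · exact pt_ne_df h h2 h4
    · exact pt_ne_df h h3 h4

end

section
variable {K : ℕ} [NeZero K] (G : Geo K)

/-- the clause of the family `53`; the third slot is the field `x` -/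
noncomputable def clsN (a : ℕ) : List Sl :=
  [.N (aG (fld a 0 255) 4), .N (aG (G.nb (fld a 0 255) (fld a 8 31)) 4),
    .N (aG (G.nb (fld a 0 255) (fld a 13 31)) 4), .N (aG (G.nb (fld a 0 255) (fld a 41 63)) 4)]

def okN (a : ℕ) : Bool :=
  ltb (fld a 0 255) G.np && (ltb (fld a 8 31) (6 * K) && (ltb (fld a 13 31) (6 * K) &&
    (ltb (fld a 41 63) (6 * K) && (ne (fld a 8 31) (fld a 13 31) &&
    (ne (fld a 8 31) (fld a 41 63) && (ne (fld a 13 31) (fld a 41 63) &&
    (ltb (G.nb (fld a 0 255) (fld a 8 31)) G.np && (ltb (G.nb (fld a 0 255) (fld a 13 31)) G.np &&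
    ltb (G.nb (fld a 0 255) (fld a 41 63)) G.np))))))))

theorem df_of {e e' : ℕ} (he : e < 6 * K) (he' : e' < 6 * K) (h : e' ≠ e) :
    DfK (cl K e) (cl K e') (f6 e) (f6 e') := by
  by_contra hcon
  unfold DfK at hcon
  push Not at hcon
  have h1 := congrArg Fin.val hcon.1
  rw [cl_val he, cl_val he'] at h1
  have h2 : e % 6 = e' % 6 := congrArg Fin.val hcon.2
  omega

variable {G} {A : AtK K}

theorem clsN_true (h : NK A) {a : ℕ} (ho : okN G a = true) : CL (nu G A) (clsN G a) := by
  unfold okN at ho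
  simp only [Bool.and_eq_true, lt_iff, ne_iff] at ho
  obtain ⟨hp, h1, h2, h3, h12, h13, h23, n1, n2, n3⟩ := ho
  unfold clsN
  simp only [CL_cons, CL_nil, tr, or_false, nuG, G.spec _ hp _ h1 n1, G.spec _ hp _ h2 n2,
    G.spec _ hp _ h3 n3]
  by_contra hcon
  push Not at hcon
  obtain ⟨g0, g1, g2, g3⟩ := hcon
  exact h.n3 (df_of h1 h2 h12) (df_of h1 h3 h13) (df_of h2 h3 h23) g0 g1 g2 g3

variable (G)

/-- the test with the family `53` -/
noncomputable def tstN (w : Bool) (D : ℕ → Am) (c a f : ℕ) : Bool :=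
  Bool.rec (motive := fun _ => Bool) (tst G w D c a f)
    (Bool.rec (motive := fun _ => Bool) false
      (mt D (clsN G a) (Nat.land c 255) (Nat.shiftRight c 8)) (okN G a)) (Nat.beq f 53)

variable {G}

theorem sat_tstN {w : Bool} (h : RK A) (hw : w = true → WK A) (hn : NK A) (D : ℕ → Am)
    (c a f : ℕ) (ht : tstN G w D c a f = true) : Sat (fun v => nu G A (D v)) (dec c) := by
  unfold tstN at ht
  cases hf : Nat.beq f 53 with
  | false =>
    rw [hf] at ht
    exact sat_tst h hw D c a f ht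
  | true =>
    rw [hf] at ht
    have h1 := band (a := okN G a) ht
    rw [dec_eq]
    exact mt_spec _ _ _ _ h1.2 (clsN_true hn h1.1)

/-- **all learned clauses are true (world `NoThree`)** -/
theorem learned_N {w : Bool} (h : RK A) (hw : w = true → WK A) (hn : NK A) {DT : TA} {E n : ℕ}
    (hE : Even' E) {B D : Tr} (hB : allp (tstN G w (getA DT)) B = true)
    (hD : run E (look (getC B) n D) n D 0 1 = true) (j : ℕ) :
    Sat (fun v => nu G A (getA DT v)) (getC D j) :=
  learned hE hD (fun i _ => sat_of_allp (fun c H k => sat_tstN h hw hn (getA DT) c H k) B hB i) j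

end

end Vale.Agent.P032.H437
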