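import Vale.Agent.P032.H437.Fr

/-!
# P032: the sweep rule for letters

`x = pt w v` runs through points of `S(w)` with `i ∈ T x`, `v → a`; `y` is a fixed point of `S(u)`,
`u = pt w a`.  The circles about the points `x` run near `y` outside or inside of the disc about `u`,
and do not meet `U i`; so a colour different from `i` occurs there (`sweep_pt`).

`Fr.sweepL` : the same for the letters of the frame.  `sgn d σ₂` is the sign of
`sin (60 d + 0±)` (`+0` for `σ₂ = true`).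
-/

open Set Filter Topology Metric

noncomputable section

namespace Vale.Agent.P032.H437

open Vale.Agent.P032.Six Vale.Agent.P032.Sweep Vale.Agent.P032.S5.H767 Vale.Agent.P032.S5.H122
  Vale.Agent.P032.H158 Vale.Agent.P032.H782 Vale.Agent.P032.H429

variable {U : Fin 6 → Set ℂ} {T : ℂ → Set (Fin 6)} {u : ℝ} {F : Bool → Ultrafilter ℝ}

/-- the distance of the moved point -/
theorem swl_sq (w : ℂ) (a t v : ℝ) :
    dist (pt (pt w a) t + (pt w v - pt w a)) (pt w a) ^ 2 - 1 =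
      8 * (Real.sin ((v - a) * (Real.pi / 6)) * (Real.sin ((t - a) * (Real.pi / 6)) *
        Real.cos ((v - t) * (Real.pi / 6)))) := by
  set x := a * (Real.pi / 6) with hx
  set y := t * (Real.pi / 6) with hy
  set s := v * (Real.pi / 6) with hs
  have e1 : a * (Real.pi / 3) = 2 * x := by rw [hx]; ring
  have e2 : t * (Real.pi / 3) = 2 * y := by rw [hy]; ring
  have e3 : v * (Real.pi / 3) = 2 * s := by rw [hs]; ring
  have f1 : (v - a) * (Real.pi / 6) = s - x := by rw [hx, hs]; ring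
  have f2 : (t - a) * (Real.pi / 6) = y - x := by rw [hx, hy]; ring
  have f3 : (v - t) * (Real.pi / 6) = s - y := by rw [hy, hs]; ring
  rw [f1, f2, f3, sq_dist]
  unfold pt
  rw [e1, e2, e3]
  simp only [Complex.add_re, Complex.add_im, Complex.sub_re, Complex.sub_im, cis_re, cis_im]
  rw [Real.cos_two_mul, Real.cos_two_mul, Real.cos_two_mul, Real.sin_two_mul, Real.sin_two_mul,
    Real.sin_two_mul, Real.sin_sub, Real.sin_sub, Real.cos_sub]
  have h1 := Real.sin_sq_add_cos_sq x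
  have h2 := Real.sin_sq_add_cos_sq y
  have h3 := Real.sin_sq_add_cos_sq s
  generalize Real.sin x = sx at *
  generalize Real.cos x = cx at *
  generalize Real.sin y = sy at *
  generalize Real.cos y = cy at *
  generalize Real.sin s = ss at *
  generalize Real.cos s = cs at *
  have k1 : sx ^ 2 = 1 - cx ^ 2 := by linarith
  have k2 : sy ^ 2 = 1 - cy ^ 2 := by linarith
  have k3 : ss ^ 2 = 1 - cs ^ 2 := by linarith
  have lhs : (w.re + (2 * cx ^ 2 - 1) + (2 * cy ^ 2 - 1) + (w.re + (2 * cs ^ 2 - 1) -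
        (w.re + (2 * cx ^ 2 - 1))) - (w.re + (2 * cx ^ 2 - 1))) ^ 2 +
      (w.im + 2 * sx * cx + 2 * sy * cy + (w.im + 2 * ss * cs - (w.im + 2 * sx * cx)) -
        (w.im + 2 * sx * cx)) ^ 2 - 1 =
      (2 * cy ^ 2 + 2 * cs ^ 2 - 2 * cx ^ 2 - 1) ^ 2 + 4 * sy ^ 2 * cy ^ 2 + 4 * ss ^ 2 * cs ^ 2 +
        4 * sx ^ 2 * cx ^ 2 + 8 * (sy * cy * (ss * cs)) - 8 * (sy * cy * (sx * cx)) -
        8 * (ss * cs * (sx * cx)) - 1 := by ring
  have rhs : 8 * ((ss * cx - cs * sx) * ((sy * cx - cy * sx) * (cs * cy + ss * sy))) =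
      8 * (ss * cs * (sy * cy)) * cx ^ 2 + 8 * ss ^ 2 * sy ^ 2 * cx ^ 2
        - 8 * (sx * cx * (ss * cs)) * cy ^ 2 - 8 * ss ^ 2 * (sx * cx * (sy * cy))
        - 8 * cs ^ 2 * (sx * cx * (sy * cy)) - 8 * (sx * cx * (ss * cs)) * sy ^ 2
        + 8 * sx ^ 2 * cs ^ 2 * cy ^ 2 + 8 * sx ^ 2 * (ss * cs * (sy * cy)) := by ring
  rw [lhs, rhs, k1, k2, k3]
  ring

theorem dist_moved (w : ℂ) (a t v : ℝ) :
    dist (pt (pt w a) t + (pt w v - pt w a)) (pt w v) = 1 := by
  have h1 := dist_pt (pt w a) t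
  rw [dist_eq_norm] at h1 ⊢
  rw [← h1]
  congr 1
  ring

/-- **The sweep at a point**, with the side as a hypothesis -/
theorem sweep_pt (h : Irr U T) {w : ℂ} {a t : ℝ} {i : Fin 6} {l : Filter ℝ} (hl : l ≤ 𝓝 a)
    (hi : ∃ᶠ v in l, i ∈ T (pt w v)) {C : Set ℂ} (hC : IsOpen C)
    (hd : ∀ᶠ v in l, pt (pt w a) t + (pt w v - pt w a) ∈ C) :
    ∃ j ≠ i, OccIn T (pt (pt w a) t) C j := by
  have htd : Tendsto (fun v : ℝ => pt (pt w a) t + (pt w v - pt w a)) l (𝓝 (pt (pt w a) t)) := by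
    have hc : Continuous fun v : ℝ => pt (pt w a) t + (pt w v - pt w a) :=
      continuous_const.add ((continuous_pt w).sub continuous_const)
    have h1 := hc.tendsto a
    rw [sub_self, add_zero] at h1
    exact h1.mono_left hl
  have h2 : ∃ᶠ q in 𝓝 (pt (pt w a) t), (∃ j, j ≠ i ∧ j ∈ T q) ∧ q ∈ C := by
    refine htd.frequently ((hi.and_eventually hd).mono fun v hv => ⟨?_, hv.2⟩)
    by_contra hcon
    push Not at hcon
    have h3 : T (pt (pt w a) t + (pt w v - pt w a)) ⊆ {i} := by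
      intro j hj
      by_contra hji
      exact hcon j hji hj
    exact h.mx.notMem' (h.mem_of_single h3) (dist_moved w a t v) (h.sub _ hv.1)
  have h4 : ∃ j, ∃ᶠ q in 𝓝 (pt (pt w a) t), j ≠ i ∧ j ∈ T q ∧ q ∈ C := by
    by_contra hcon
    have h5 : ∀ᶠ q in 𝓝 (pt (pt w a) t), ∀ j, ¬ (j ≠ i ∧ j ∈ T q ∧ q ∈ C) :=
      eventually_all.2 fun j => not_frequently.1 (not_exists.1 hcon j)
    obtain ⟨q, ⟨⟨j, h6, h7⟩, h8⟩, h9⟩ := (h2.and_eventually h5).exists
    exact h9 j ⟨h6, h7, h8⟩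
  obtain ⟨j, hj⟩ := h4
  obtain ⟨q, hq⟩ := hj.exists
  exact ⟨j, hq.1, occ_of_T h hC (hj.mono fun q hq => ⟨hq.2.1, hq.2.2⟩)⟩

/-- the sign of the displacement -/
def sg (σ : Bool) : ℝ := cond σ 1 (-1)

theorem side_ev {w : ℂ} {a t c : ℝ} {l : Filter ℝ} (hl : l ≤ 𝓝 a)
    (hc : ∀ᶠ v in l, 0 < c * (v - a)) (hs : c * Real.sin ((t - a) * (Real.pi / 3)) ≠ 0) :
    ∀ᶠ v in l, 0 < (c * Real.sin ((t - a) * (Real.pi / 3))) *
      (dist (pt (pt w a) t + (pt w v - pt w a)) (pt w a) ^ 2 - 1) := by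
  set S := Real.sin ((t - a) * (Real.pi / 3)) with hS
  have hc0 : c ≠ 0 := fun h => hs (by rw [h, zero_mul])
  have hS0 : S ≠ 0 := fun h => hs (by rw [h, mul_zero])
  -- the product of the two last factors has the sign of `S`
  have h1 : ∀ᶠ v in 𝓝 a, 0 < S * (Real.sin ((t - a) * (Real.pi / 6)) *
      Real.cos ((v - t) * (Real.pi / 6))) := by
    have hcon : Continuous fun v : ℝ => S * (Real.sin ((t - a) * (Real.pi / 6)) *
      Real.cos ((v - t) * (Real.pi / 6))) := by fun_prop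
    refine hcon.continuousAt.eventually (Ioi_mem_nhds ?_)
    show 0 < S * (Real.sin ((t - a) * (Real.pi / 6)) * Real.cos ((a - t) * (Real.pi / 6)))
    have e1 : (a - t) * (Real.pi / 6) = -((t - a) * (Real.pi / 6)) := by ring
    have e2 : S = 2 * Real.sin ((t - a) * (Real.pi / 6)) * Real.cos ((t - a) * (Real.pi / 6)) := by
      rw [hS, ← Real.sin_two_mul]; congr 1; ring
    rw [e1, Real.cos_neg]
    have e3 : Real.sin ((t - a) * (Real.pi / 6)) * Real.cos ((t - a) * (Real.pi / 6)) = S / 2 := by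
      rw [e2]; ring
    rw [e3]
    have : 0 < S * S := mul_self_pos.2 hS0
    linarith
  have h2 : ∀ᶠ v in 𝓝 a, |v - a| < 1 := by
    have hcon : Continuous fun v : ℝ => |v - a| := by fun_prop
    refine hcon.continuousAt.eventually (Iio_mem_nhds ?_)
    simp
  filter_upwards [hl h1, hl h2, hc] with v h3 h4 h5
  rw [swl_sq]
  have h3 : 0 < S * (Real.sin ((t - a) * (Real.pi / 6)) * Real.cos ((v - t) * (Real.pi / 6))) := h3
  have h4 : |v - a| < 1 := h4
  obtain ⟨h6, h7⟩ := abs_lt.1 h4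
  have hp := Real.pi_pos
  have h8 : 0 < c * Real.sin ((v - a) * (Real.pi / 6)) := by
    rcases lt_or_gt_of_ne (fun h0 => by rw [h0, mul_zero] at h5; exact lt_irrefl _ h5 :
      v - a ≠ 0) with h9 | h9
    · have hcn : c < 0 := by
        by_contra hcon
        push Not at hcon
        nlinarith [mul_nonneg hcon (neg_nonneg.2 h9.le)]
      have h10 : Real.sin ((v - a) * (Real.pi / 6)) < 0 :=
        Real.sin_neg_of_neg_of_neg_pi_lt (by nlinarith) (by nlinarith)
      exact mul_pos_of_neg_of_neg hcn h10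
    · have hcn : 0 < c := by
        by_contra hcon
        push Not at hcon
        nlinarith [mul_nonneg (neg_nonneg.2 hcon) h9.le]
      have h10 : 0 < Real.sin ((v - a) * (Real.pi / 6)) :=
        Real.sin_pos_of_pos_of_lt_pi (by nlinarith) (by nlinarith)
      exact mul_pos hcn h10
  have h11 := mul_pos h8 h3
  have e : c * S * (8 * (Real.sin ((v - a) * (Real.pi / 6)) *
      (Real.sin ((t - a) * (Real.pi / 6)) * Real.cos ((v - t) * (Real.pi / 6))))) =
      8 * (c * Real.sin ((v - a) * (Real.pi / 6)) * (S * (Real.sin ((t - a) * (Real.pi / 6)) *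
        Real.cos ((v - t) * (Real.pi / 6))))) := by ring
  rw [e]
  linarith

/-- finite choice for an ultrafilter -/
theorem uf_exists {F : Ultrafilter ℝ} {P : Fin 6 → ℝ → Prop} {i : Fin 6}
    (h : ∀ᶠ v in (F : Filter ℝ), ∃ j ≠ i, P j v) : ∃ j ≠ i, ∀ᶠ v in (F : Filter ℝ), P j v := by
  by_contra hcon
  have h1 : ∀ j, ∀ᶠ v in (F : Filter ℝ), j ≠ i → ¬ P j v := by
    intro j
    by_cases hj : j = i
    · exact Eventually.of_forall fun _ hn => absurd hj hn
    · have h2 : ¬ ∀ᶠ v in (F : Filter ℝ), P j v := fun h3 => hcon ⟨j, hj, h3⟩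
      filter_upwards [Ultrafilter.eventually_not.2 h2] with v hv _
      exact hv
  obtain ⟨v, ⟨j, h2, h3⟩, h4⟩ := (h.and (eventually_all.2 h1)).exists
  exact h4 j h2 h3

namespace Fr

theorem le (hf : Fr U T u F) (σ : Bool) : (F σ : Filter ℝ) ≤ 𝓝 u := by
  cases σ
  · exact hf.left.trans nhdsWithin_le_nhds
  · exact hf.right.trans nhdsWithin_le_nhds

theorem ev_sg (hf : Fr U T u F) (σ : Bool) : ∀ᶠ v in (F σ : Filter ℝ), 0 < sg σ * (v - u) := by
  cases σ
  · have h1 : ∀ᶠ v in 𝓝[<] u, v < u := self_mem_nhdsWithin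
    filter_upwards [hf.left h1] with v hv
    have hv : v < u := hv
    show 0 < (-1 : ℝ) * (v - u)
    linarith
  · have h1 : ∀ᶠ v in 𝓝[>] u, u < v := self_mem_nhdsWithin
    filter_upwards [hf.right h1] with v hv
    have hv : u < v := hv
    show 0 < (1 : ℝ) * (v - u)
    linarith

/-- **The sweep rule**, real form -/
theorem sweep_real (hf : Fr U T u F) {σ σ₂ : Bool} {w : ℂ} {k m : ℝ} {i : Fin 6}
    (hi : i ∈ lt (F σ) T w k) :
    ((∀ᶠ v in (F σ₂ : Filter ℝ), 0 < sg σ * Real.sin ((v + m - (u + k)) * (Real.pi / 3))) →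
      ∃ j ≠ i, Out (F σ₂) T (pt w (u + k)) m j) ∧
    ((∀ᶠ v in (F σ₂ : Filter ℝ), sg σ * Real.sin ((v + m - (u + k)) * (Real.pi / 3)) < 0) →
      ∃ j ≠ i, Inn (F σ₂) T (pt w (u + k)) m j) := by
  have hl : Filter.map (fun v : ℝ => v + k) (F σ : Filter ℝ) ≤ 𝓝 (u + k) := by
    have hc : Continuous fun v : ℝ => v + k := by fun_prop
    exact (hc.tendsto u).mono_left (hf.le σ)
  have hi' : ∃ᶠ v in Filter.map (fun v : ℝ => v + k) (F σ : Filter ℝ), i ∈ T (pt w v) := by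
    rw [frequently_map]
    have hi : ∀ᶠ v in (F σ : Filter ℝ), i ∈ T (pt w (v + k)) := hi
    exact hi.frequently
  have hc : ∀ᶠ v in Filter.map (fun v : ℝ => v + k) (F σ : Filter ℝ), 0 < sg σ * (v - (u + k)) := by
    rw [eventually_map]
    filter_upwards [hf.ev_sg σ] with v hv
    rwa [show v + k - (u + k) = v - u by ring]
  constructor
  · intro hs
    refine uf_exists (F := F σ₂) (hs.mono fun v hv => ?_)
    refine sweep_pt hf.irr hl hi' (isOpen_lt continuous_const (continuous_id.dist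
      continuous_const)) ?_
    filter_upwards [side_ev (w := w) hl hc hv.ne'] with v' hv'
    show 1 < dist _ _
    have h1 := (mul_pos_iff_of_pos_left hv).1 hv'
    exact (sq_lt dist_nonneg).2.2 h1
  · intro hs
    refine uf_exists (F := F σ₂) (hs.mono fun v hv => ?_)
    refine sweep_pt hf.irr hl hi' (isOpen_lt (continuous_id.dist
      continuous_const) continuous_const) ?_
    filter_upwards [side_ev (w := w) hl hc hv.ne] with v' hv'
    show dist _ _ < 1
    have h1 := (neg_iff_neg_of_mul_pos hv').1 hv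
    exact (sq_lt dist_nonneg).1.2 h1

end Fr

/-- the sign of `sin (60 d + 0±)` -/
def sgn (d : Fin 6) (σ : Bool) : Bool := ![σ, true, true, !σ, false, false] d

theorem sin_d {x : ℝ} {σ : Bool} (h0 : 0 < sg σ * x) (h1 : |x| < 1 / 2) (d : Fin 6) :
    0 < sg (sgn d σ) * Real.sin ((x + (d.val : ℝ)) * (Real.pi / 3)) := by
  obtain ⟨h2, h3⟩ := abs_lt.1 h1
  have hp := Real.pi_pos
  have key : 0 < sg σ * Real.sin (x * (Real.pi / 3)) := by
    cases σ
    · have h0 : 0 < (-1 : ℝ) * x := h0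
      have h4 : Real.sin (x * (Real.pi / 3)) < 0 :=
        Real.sin_neg_of_neg_of_neg_pi_lt (by nlinarith) (by nlinarith)
      show 0 < (-1 : ℝ) * _
      linarith
    · have h0 : 0 < (1 : ℝ) * x := h0
      have h4 : 0 < Real.sin (x * (Real.pi / 3)) :=
        Real.sin_pos_of_pos_of_lt_pi (by nlinarith) (by nlinarith)
      show 0 < (1 : ℝ) * _
      linarith
  have neg : ∀ τ : Bool, sg (!τ) = -sg τ := by
    intro τ; cases τ <;> simp [sg]
  fin_cases d
  · show 0 < sg σ * Real.sin ((x + ((0 : ℕ) : ℝ)) * (Real.pi / 3))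
    rw [Nat.cast_zero, add_zero]
    exact key
  · show 0 < (1 : ℝ) * Real.sin ((x + ((1 : ℕ) : ℝ)) * (Real.pi / 3))
    rw [Nat.cast_one, one_mul]
    exact Real.sin_pos_of_pos_of_lt_pi (by nlinarith) (by nlinarith)
  · show 0 < (1 : ℝ) * Real.sin ((x + ((2 : ℕ) : ℝ)) * (Real.pi / 3))
    rw [one_mul]
    push_cast
    exact Real.sin_pos_of_pos_of_lt_pi (by nlinarith) (by nlinarith)
  · show 0 < sg (!σ) * Real.sin ((x + ((3 : ℕ) : ℝ)) * (Real.pi / 3))
    have e : (x + ((3 : ℕ) : ℝ)) * (Real.pi / 3) = x * (Real.pi / 3) + Real.pi := by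
      push_cast; ring
    rw [e, Real.sin_add_pi, neg]
    linarith
  · show 0 < (-1 : ℝ) * Real.sin ((x + ((4 : ℕ) : ℝ)) * (Real.pi / 3))
    have e : (x + ((4 : ℕ) : ℝ)) * (Real.pi / 3) = (x + 1) * (Real.pi / 3) + Real.pi := by
      push_cast; ring
    rw [e, Real.sin_add_pi]
    have : 0 < Real.sin ((x + 1) * (Real.pi / 3)) :=
      Real.sin_pos_of_pos_of_lt_pi (by nlinarith) (by nlinarith)
    linarith
  · show 0 < (-1 : ℝ) * Real.sin ((x + ((5 : ℕ) : ℝ)) * (Real.pi / 3))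
    have e : (x + ((5 : ℕ) : ℝ)) * (Real.pi / 3) = (x + 2) * (Real.pi / 3) + Real.pi := by
      push_cast; ring
    rw [e, Real.sin_add_pi]
    have : 0 < Real.sin ((x + 2) * (Real.pi / 3)) :=
      Real.sin_pos_of_pos_of_lt_pi (by nlinarith) (by nlinarith)
    linarith

theorem fin_sub_cast (k m : Fin 6) : ∃ n : ℤ, (m.val : ℝ) - (k.val : ℝ) =
    ((m - k : Fin 6).val : ℝ) + 6 * n := by
  have h : ∀ k m : Fin 6, ((m.val : ℤ) - (k.val : ℤ) - ((m - k : Fin 6).val : ℤ)) % 6 = 0 := by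
    decide
  obtain ⟨n, hn⟩ := Int.dvd_of_emod_eq_zero (h k m)
  refine ⟨n, ?_⟩
  have h1 : ((m.val : ℤ) : ℝ) - ((k.val : ℤ) : ℝ) - (((m - k : Fin 6).val : ℤ) : ℝ) = 6 * (n : ℝ) := by
    exact_mod_cast hn
  simp only [Int.cast_natCast] at h1
  linarith

namespace Fr

theorem ev_sgn (hf : Fr U T u F) (σ₂ : Bool) (k m : Fin 6) : ∀ᶠ v in (F σ₂ : Filter ℝ),
    0 < sg (sgn (m - k) σ₂) *
      Real.sin ((v + (m.val : ℝ) - (u + (k.val : ℝ))) * (Real.pi / 3)) := by
  obtain ⟨n, hn⟩ := fin_sub_cast k m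
  have h1 : ∀ᶠ v in 𝓝 u, |v - u| < 1 / 2 := by
    have hcon : Continuous fun v : ℝ => |v - u| := by fun_prop
    refine hcon.continuousAt.eventually (Iio_mem_nhds ?_)
    simp
  filter_upwards [hf.ev_sg σ₂, hf.le σ₂ h1] with v h2 h3
  have h4 := sin_d h2 h3 (m - k)
  have e : (v + (m.val : ℝ) - (u + (k.val : ℝ))) * (Real.pi / 3) =
      (v - u + ((m - k : Fin 6).val : ℝ)) * (Real.pi / 3) + n * (2 * Real.pi) := by
    have : v + (m.val : ℝ) - (u + (k.val : ℝ)) = v - u + ((m - k : Fin 6).val : ℝ) + 6 * n := by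
      linarith
    rw [this]; ring
  rw [e, Real.sin_add_int_mul_two_pi]
  exact h4

/-- **F6, F7: the sweep rule**, outside -/
theorem sweep_out (hf : Fr U T u F) {σ σ₂ : Bool} {w : ℂ} {k m i : Fin 6}
    (hi : i ∈ lt (F σ) T w (k.val : ℝ)) (hs : sgn (m - k) σ₂ = σ) :
    ∃ j ≠ i, Out (F σ₂) T (pt w (u + (k.val : ℝ))) (m.val : ℝ) j := by
  refine (hf.sweep_real hi).1 ?_
  have := hf.ev_sgn σ₂ k m
  rwa [hs] at this

/-- **F6, F7: the sweep rule**, inside -/
theorem sweep_inn (hf : Fr U T u F) {σ σ₂ : Bool} {w : ℂ} {k m i : Fin 6}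
    (hi : i ∈ lt (F σ) T w (k.val : ℝ)) (hs : sgn (m - k) σ₂ ≠ σ) :
    ∃ j ≠ i, Inn (F σ₂) T (pt w (u + (k.val : ℝ))) (m.val : ℝ) j := by
  refine (hf.sweep_real hi).2 ?_
  have h1 := hf.ev_sgn σ₂ k m
  have h2 : sg (sgn (m - k) σ₂) = -sg σ := by
    revert hs
    cases sgn (m - k) σ₂ <;> cases σ <;> simp [sg]
  rw [h2] at h1
  filter_upwards [h1] with v hv
  linarith

end Fr

end Vale.Agent.P032.H437
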