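import Vale.Agent.P032.H158.XC
import Vale.Agent.P032.H429.Line
import Vale.Agent.P032.S5.H767.Five
import Vale.Agent.P032.H338.Letters
import Vale.Agent.P032.H782.Cel

/-!
# P032: joint limit letters by ultrafilters

`F` is an ultrafilter of times.  `lt F T w k` is the limit palette at the slot `k` of the unit circle
about `w`: for `F`-almost all times `v` the palette of `pt w (v + k)` is `lt F T w k`.  All centres
and all slots are treated at once, without subsequences; a rule for the palettes at one time gives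
a rule for the limit palettes.

`LcF F T w k` : `F`-almost all times are times of constant palette at the slot `k` of `w`.
`Inn F T w k i`, `Out F T w k i` : `F`-almost always the colour `i` occurs near the slot point inside
(outside) the disc about `w`.
-/

open Set Filter Topology Metric

noncomputable section

namespace Vale.Agent.P032.H437

open Vale.Agent.P032.Six Vale.Agent.P032.Sweep Vale.Agent.P032.S5.H767 Vale.Agent.P032.S5.H122
  Vale.Agent.P032.H158 Vale.Agent.P032.H782

variable {U : Fin 6 → Set ℂ} {T : ℂ → Set (Fin 6)} {F : Ultrafilter ℝ} {w y p : ℂ} {u k : ℝ}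

/-- the limit palette -/
def lt (F : Ultrafilter ℝ) (T : ℂ → Set (Fin 6)) (w : ℂ) (k : ℝ) : Set (Fin 6) :=
  {i | ∀ᶠ v in (F : Filter ℝ), i ∈ T (pt w (v + k))}

/-- constant palettes at the slot -/
def LcF (F : Ultrafilter ℝ) (T : ℂ → Set (Fin 6)) (w : ℂ) (k : ℝ) : Prop :=
  ∀ᶠ v in (F : Filter ℝ), v + k ∈ Lc T w

/-- the colour `i` occurs inside the disc -/
def Inn (F : Ultrafilter ℝ) (T : ℂ → Set (Fin 6)) (w : ℂ) (k : ℝ) (i : Fin 6) : Prop :=
  ∀ᶠ v in (F : Filter ℝ), OccIn T (pt w (v + k)) {x | dist x w < 1} i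

/-- the colour `i` occurs outside the disc -/
def Out (F : Ultrafilter ℝ) (T : ℂ → Set (Fin 6)) (w : ℂ) (k : ℝ) (i : Fin 6) : Prop :=
  ∀ᶠ v in (F : Filter ℝ), OccIn T (pt w (v + k)) {x | 1 < dist x w} i

/-- **the limit palette is the palette at almost all times** -/
theorem lt_spec (F : Ultrafilter ℝ) (T : ℂ → Set (Fin 6)) (w : ℂ) (k : ℝ) :
    ∀ᶠ v in (F : Filter ℝ), T (pt w (v + k)) = lt F T w k := by
  have h1 : ∀ i : Fin 6, ∀ᶠ v in (F : Filter ℝ), (i ∈ T (pt w (v + k)) ↔ i ∈ lt F T w k) := by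
    intro i
    by_cases hi : i ∈ lt F T w k
    · have hi' : ∀ᶠ v in (F : Filter ℝ), i ∈ T (pt w (v + k)) := hi
      filter_upwards [hi'] with v hv
      exact ⟨fun _ => hi, fun _ => hv⟩
    · have hi' : ¬ ∀ᶠ v in (F : Filter ℝ), i ∈ T (pt w (v + k)) := hi
      filter_upwards [Ultrafilter.eventually_not.2 hi'] with v hv
      exact ⟨fun h => absurd h hv, fun h => absurd h hi⟩
  filter_upwards [eventually_all.2 h1] with v hv
  ext i
  exact hv i

/-- a property of single palettes -/
theorem lt_prop {Q : Set (Fin 6) → Prop} (hQ : ∃ᶠ v in (F : Filter ℝ), Q (T (pt w (v + k)))) :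
    Q (lt F T w k) := by
  obtain ⟨v, h1, h2⟩ := (hQ.and_eventually (lt_spec F T w k)).exists
  rwa [h2] at h1

/-- a property of two palettes -/
theorem lt_prop2 {w' : ℂ} {k' : ℝ} {Q : Set (Fin 6) → Set (Fin 6) → Prop}
    (hQ : ∃ᶠ v in (F : Filter ℝ), Q (T (pt w (v + k))) (T (pt w' (v + k')))) :
    Q (lt F T w k) (lt F T w' k') := by
  obtain ⟨v, h1, h2, h3⟩ := (hQ.and_eventually ((lt_spec F T w k).and (lt_spec F T w' k'))).exists
  rwa [h2, h3] at h1

theorem not_inn {i : Fin 6} (hi : ¬ Inn F T w k i) :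
    ∀ᶠ v in (F : Filter ℝ), ¬ OccIn T (pt w (v + k)) {x | dist x w < 1} i :=
  Ultrafilter.eventually_not.2 hi

theorem not_out {i : Fin 6} (hi : ¬ Out F T w k i) :
    ∀ᶠ v in (F : Filter ℝ), ¬ OccIn T (pt w (v + k)) {x | 1 < dist x w} i :=
  Ultrafilter.eventually_not.2 hi

/-! ### Rules for the limit palettes -/

theorem tendsto_slot (hF : (F : Filter ℝ) ≤ 𝓝 u) (w : ℂ) (k : ℝ) :
    Tendsto (fun v : ℝ => pt w (v + k)) (F : Filter ℝ) (𝓝 (pt w (u + k))) := by
  have hc : Continuous fun v : ℝ => pt w (v + k) := (continuous_pt w).comp (by fun_prop)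
  exact (hc.tendsto u).mono_left hF

/-- **the limit palette is inside the palette of the limit point** -/
theorem lt_sub (h : Irr U T) (hF : (F : Filter ℝ) ≤ 𝓝 u) :
    lt F T w k ⊆ T (pt w (u + k)) := by
  intro i hi
  have hi : ∀ᶠ v in (F : Filter ℝ), pt w (v + k) ∈ {x | i ∈ T x} := hi
  exact (h.closed i).mem_of_tendsto (tendsto_slot hF w k) hi

theorem lt_ne (h : Irr U T) (w : ℂ) (k : ℝ) : (lt F T w k).Nonempty :=
  lt_prop (Q := Set.Nonempty) (Eventually.of_forall fun _ => h.ne _).frequently

/-- **the 60-rule** -/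
theorem lt_sixty (h : Irr U T) (hs : LcF F T w k) :
    Disjoint (lt F T w k) (lt F T w (k + 1)) := by
  refine lt_prop2 (Q := Disjoint) (hs.mono fun v hv => ?_).frequently
  have := dj_sixty h hv
  rwa [show v + k + 1 = v + (k + 1) by ring] at this

/-- **the product rule** -/
theorem lt_product (h : Irr U T) (hwy : dist w y = 1) (hs : LcF F T w k)
    (hne : ∀ᶠ v in (F : Filter ℝ), pt w (v + k) ≠ y ∧ pt w (v + k + 3) ≠ y) :
    Disjoint (lt F T w k) (lt F T y k) := by
  refine lt_prop2 (Q := Disjoint) ((Filter.Eventually.and hs hne).mono fun v hv => ?_).frequently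
  exact dj_prod h hwy hv.1 hv.2.1 hv.2.2

theorem lt_card (h : Irr U T) (hs : LcF F T w k) : (lt F T w k).ncard ≤ 3 := by
  refine lt_prop (Q := fun P => P.ncard ≤ 3) (hs.mono fun v hv => ?_).frequently
  exact Vale.Agent.P032.H338.arc_le_three h (dist_pt w _) (Lc_circle hv)

/-- **a limit palette inside `T w`** -/
theorem lt_two_out (h : Irr U T) (hs : LcF F T w k) (hsub : lt F T w k ⊆ T w) :
    2 ≤ (lt F T w k).ncard ∧ 2 ≤ (T w \ lt F T w k).ncard := by
  obtain ⟨v, h1, h2⟩ := (Filter.Eventually.and hs (lt_spec F T w k)).exists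
  have := two_out h h1 (by rw [h2]; exact hsub)
  rwa [h2] at this

theorem lt_three (h : Irr U T) (h3 : (T w).ncard ≤ 3) (k : ℝ) : ∃ i ∈ lt F T w k, i ∉ T w :=
  lt_prop (Q := fun P => ∃ i ∈ P, i ∉ T w)
    (Eventually.of_forall fun v => out_three h h3 (v + k)).frequently

theorem lt_anti (h : Irr U T) (hw : w ∈ XX U) (hs : LcF F T w k) (hs' : LcF F T w (k + 3)) :
    2 ≤ (T w \ (lt F T w k ∪ lt F T w (k + 3))).ncard := by
  obtain ⟨v, h1, h2, h3, h4⟩ := (Filter.Eventually.and hs (Filter.Eventually.and hs'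
    ((lt_spec F T w k).and (lt_spec F T w (k + 3))))).exists
  have h2' : v + k + 3 ∈ Lc T w := by rwa [show v + k + 3 = v + (k + 3) by ring]
  have := anti_two h hw h1 h2'
  rw [h3, show v + k + 3 = v + (k + 3) by ring, h4] at this
  exact this

/-- letters and periods -/
theorem lt_period (w : ℂ) (k : ℝ) : lt F T w (k + 6) = lt F T w k := by
  unfold lt
  ext i
  simp only [mem_ofPred_eq]
  have e : ∀ v : ℝ, pt w (v + (k + 6)) = pt w (v + k) := fun v => by
    rw [← add_assoc, pt_six]
  simp only [e]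

/-! ### The sides -/

/-- a colour which occurs near the slot point on a side is in the limit palette -/
theorem Inn.mem (h : Irr U T) {i : Fin 6} (hi : Inn F T w k i) : i ∈ lt F T w k :=
  lt_prop (Q := fun P => i ∈ P) (hi.mono fun _ hv => hv.mem h).frequently

theorem Out.mem (h : Irr U T) {i : Fin 6} (hi : Out F T w k i) : i ∈ lt F T w k :=
  lt_prop (Q := fun P => i ∈ P) (hi.mono fun _ hv => hv.mem h).frequently

/-- every colour of a limit palette with two colours occurs on one of the two sides -/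
theorem inn_or_out (h : Irr U T) (hs : LcF F T w k) {i j : Fin 6} (hi : i ∈ lt F T w k)
    (hj : j ∈ lt F T w k) (hij : i ≠ j) : Inn F T w k i ∨ Out F T w k i := by
  by_contra hcon
  push Not at hcon
  obtain ⟨v, h1, h2, h3, h4⟩ := ((not_inn hcon.1).and ((not_out hcon.2).and
    ((lt_spec F T w k).and hs))).exists
  have hv : i ∈ T (pt w (v + k)) := by rw [h3]; exact hi
  have hvj : j ∈ T (pt w (v + k)) := by rw [h3]; exact hj
  -- the points of the circle have the palette with two colours
  have h5 : ∀ᶠ x in 𝓝 (pt w (v + k)), dist x w = 1 → T x = T (pt w (v + k)) := by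
    have := Lc_circle h4
    rw [eventually_nhdsWithin_iff] at this
    exact this
  obtain ⟨x, hx, h6, h7, h8⟩ := ((h.pure _ i hv).and_eventually (h5.and
    ((not_frequently.1 h1).and (not_frequently.1 h2)))).exists
  rcases lt_trichotomy (dist x w) 1 with h9 | h9 | h9
  · exact h7 ⟨hx, h9⟩
  · have h10 := h6 h9
    rw [hx] at h10
    rw [← h10] at hv hvj
    exact hij (by rw [mem_singleton_iff.1 hvj])
  · exact h8 ⟨hx, h9⟩

theorem exists_inn (h : Irr U T) (w : ℂ) (k : ℝ) : ∃ i, Inn F T w k i := by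
  by_contra hcon
  push Not at hcon
  obtain ⟨v, hv⟩ := (eventually_all.2 fun i => not_inn (hcon i)).exists
  obtain ⟨c, hc⟩ := occ_exists h (p := pt w (v + k)) (C := {x | dist x w < 1})
    (m := w - pt w (v + k)) (isOpen_lt (continuous_id.dist continuous_const) continuous_const) (by
    refine seg_in (dist_pt w (v + k)) ?_
    have h1 := dist_pt w (v + k)
    have h2 : 0 < Complex.normSq (w - pt w (v + k)) := by
      rw [Complex.normSq_pos]
      intro h3
      rw [dist_comm, dist_eq_norm, h3, norm_zero] at h1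
      exact zero_ne_one h1
    rw [Complex.normSq_apply] at h2
    exact h2)
  exact hv c hc

theorem exists_out (h : Irr U T) (w : ℂ) (k : ℝ) : ∃ i, Out F T w k i := by
  by_contra hcon
  push Not at hcon
  obtain ⟨v, hv⟩ := (eventually_all.2 fun i => not_out (hcon i)).exists
  have h1 := dist_pt w (v + k)
  have h2 : 0 < Complex.normSq (pt w (v + k) - w) := by
    rw [Complex.normSq_pos]
    intro h3
    rw [dist_eq_norm, h3, norm_zero] at h1
    exact zero_ne_one h1
  obtain ⟨c, hc⟩ := occ_exists h (p := pt w (v + k)) (C := {x | 1 < dist x w})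
    (m := pt w (v + k) - w) (isOpen_lt continuous_const (continuous_id.dist continuous_const)) (by
    refine seg_out h1 (fun h3 => ?_) ?_
    · rw [h3] at h2
      simp at h2
    · rw [Complex.normSq_apply] at h2
      unfold ip
      simp only [Complex.sub_re, Complex.sub_im] at h2 ⊢
      nlinarith)
  exact hv c hc

end Vale.Agent.P032.H437
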